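import Vale.Agent.Lib.P183.Classify

/-!
Assembling the table lookup into representations of all small lattices.
-/

namespace Vale.Agent.Lib.P183

universe u

theorem allLt_congr {P Q : Nat → Bool} {n : Nat} (h : ∀ p, p < n → P p = Q p) :
    allLt P n = allLt Q n := by
  induction n with
  | zero => rfl
  | succ k ih =>
    simp only [allLt]
    rw [h k (by omega), ih (fun p hp => h p (by omega))]

theorem anyLt_congr {P Q : Nat → Bool} {n : Nat} (h : ∀ p, p < n → P p = Q p) :
    anyLt P n = anyLt Q n := by
  induction n with
  | zero => rfl
  | succ k ih =>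
    simp only [anyLt]
    rw [h k (by omega), ih (fun p hp => h p (by omega))]

theorem isLat_congr {m : Nat} {R S : Nat → Nat → Bool}
    (h : ∀ i j, i < m → j < m → R i j = S i j) : isLat m R = isLat m S := by
  unfold isLat
  congr 1
  · congr 1
    · apply allLt_congr; intro a ha
      apply allLt_congr; intro b hb
      apply allLt_congr; intro c hc
      rw [h a b ha hb, h b c hb hc, h a c ha hc]
    · apply allLt_congr; intro a ha
      apply allLt_congr; intro b hb
      have hb' : b < m := by omega
      apply anyLt_congr; intro c hc
      rw [h a c ha hc, h b c hb' hc]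
      congr 1
      apply allLt_congr; intro d hd
      rw [h a d ha hd, h b d hb' hd, h c d hc hd]
  · apply allLt_congr; intro a ha
    apply allLt_congr; intro b hb
    have hb' : b < m := by omega
    apply anyLt_congr; intro c hc
    rw [h c a hc ha, h c b hc hb']
    congr 1
    apply allLt_congr; intro d hd
    rw [h d a hd ha, h d b hd hb', h d c hd hc]

theorem entryOK_congr {m : Nat} {R S : Nat → Nat → Bool} (A : Rep) (π : List Nat)
    (h : ∀ i j, i < m → j < m → R i j = S i j) : entryOK m R A π = entryOK m S A π := by
  unfold entryOK
  congr 1
  apply allLt_congr; intro i hi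
  apply allLt_congr; intro j hj
  rw [h i j hi hj]

/-- lookup in an association list keyed by the mask -/
def lookupT : List (Nat × Nat × List Nat) → Nat → Nat × List Nat
  | [], _ => (0, [])
  | (k, c, π) :: t, mask => bif Nat.beq k mask then (c, π) else lookupT t mask

/-- every lattice mask has a valid table entry -/
def tableOK (reps : List Rep) (m : Nat) (t : List (Nat × Nat × List Nat)) : Bool :=
  allLt (fun mask =>
    (!(isLat m (relOf m mask))) ||
      (let x := lookupT t mask
       entryOK m (relOf m mask) (reps.getD x.1 ⟨0, [], []⟩) x.2 &&
         Nat.blt x.1 reps.length)) (2 ^ bitsOf m)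

theorem representable_of_table (reps : List Rep) (hreps : ∀ A ∈ reps, Good A)
    {m : Nat} (hm : m < 9) (t : List (Nat × Nat × List Nat)) (ht : tableOK reps m t = true)
    (L : Type u) [Lattice L] [Fintype L] (hcard : Fintype.card L = m) : Representable L := by
  subst hcard
  obtain ⟨e, he⟩ := exists_mono_equiv L
  obtain ⟨mask, hmask, hag⟩ := exists_mask e he hm
  have h1 := allLt_spec ht hmask
  have hlat : isLat (Fintype.card L) (relOf (Fintype.card L) mask) = true := by
    rw [← isLat_congr hag]
    exact isLat_relL e
  simp only [hlat, Bool.not_true, Bool.false_or, Bool.and_eq_true] at h1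
  obtain ⟨h2, h3⟩ := h1
  have hlen : (lookupT t mask).1 < reps.length := by simpa using h3
  have hmem : reps.getD (lookupT t mask).1 ⟨0, [], []⟩ ∈ reps := by
    rw [List.getD_eq_getElem _ _ hlen]
    exact List.getElem_mem hlen
  refine representable_of_entry e _ (hreps _ hmem) (lookupT t mask).2 ?_
  rw [entryOK_congr _ _ hag]
  exact h2

end Vale.Agent.Lib.P183
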