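import Vale.Agent.Lib.P183.Core
import Batteries.Data.Nat.Lemmas
import Mathlib.Data.Finset.Sort

/-!
Reduction of an arbitrary small finite lattice to a finite table of order relations on `Fin m`.
-/

namespace Vale.Agent.Lib.P183

universe u

/-- index of the pair `i < j` among the pairs of middle elements -/
def pairIndex (i j : Nat) : Nat := (j - 2) * (j - 1) / 2 + (i - 1)

/-- the order relation on `{0, ..., m-1}` coded by a bit mask on the pairs of middle elements;
`0` is the bottom and `m-1` the top. -/
def relOf (m mask i j : Nat) : Bool :=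
  bif Nat.beq i j then true
  else bif Nat.beq i 0 then true
  else bif Nat.beq (j + 1) m then true
  else bif Nat.blt i j then Nat.testBit mask (pairIndex i j)
  else false

/-- some `p < n` satisfies `P` -/
def anyLt (P : Nat → Bool) : Nat → Bool
  | 0 => false
  | k + 1 => P k || anyLt P k

theorem anyLt_spec {P : Nat → Bool} {n : Nat} (h : anyLt P n = true) : ∃ p, p < n ∧ P p = true := by
  induction n with
  | zero => simp [anyLt] at h
  | succ k ih =>
    simp only [anyLt, Bool.or_eq_true] at h
    rcases h with h | h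
    · exact ⟨k, by omega, h⟩
    · obtain ⟨p, hp, hP⟩ := ih h
      exact ⟨p, by omega, hP⟩

theorem anyLt_of {P : Nat → Bool} {n p : Nat} (hp : p < n) (h : P p = true) : anyLt P n = true := by
  induction n with
  | zero => omega
  | succ k ih =>
    simp only [anyLt, Bool.or_eq_true]
    by_cases hpk : p = k
    · subst hpk; exact Or.inl h
    · exact Or.inr (ih (by omega))

/-- the Boolean relation `R` on `{0,...,m-1}` is transitive and has binary joins and meets -/
def isLat (m : Nat) (R : Nat → Nat → Bool) : Bool :=
  allLt (fun a => allLt (fun b => allLt (fun c =>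
    (!(R a b && R b c)) || R a c) m) m) m &&
  allLt (fun a => allLt (fun b =>
    anyLt (fun c => R a c && R b c && allLt (fun d => (!(R a d && R b d)) || R c d) m) m) a) m &&
  allLt (fun a => allLt (fun b =>
    anyLt (fun c => R c a && R c b && allLt (fun d => (!(R d a && R d b)) || R d c) m) m) a) m

/-- entry check: the map `π` is an order isomorphism from the relation to the listed labellings -/
def entryOK (m : Nat) (R : Nat → Nat → Bool) (A : Rep) (π : List Nat) : Bool :=
  Nat.beq A.thetas.length m &&
  allLt (fun i => Nat.blt (lab π i) m) m &&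
  allLt (fun k => anyLt (fun i => Nat.beq (lab π i) k) m) m &&
  allLt (fun i => allLt (fun j =>
    (R i j) == (leB A.n (A.thetas.getD (lab π i) []) (A.thetas.getD (lab π j) []))) m) m

section

variable {L : Type u} [Lattice L] {m : Nat} (e : L ≃ Fin m)

open Classical in
/-- the relation induced on `{0,...,m-1}` by the lattice -/
noncomputable def relL (i j : Nat) : Bool :=
  if h : i < m ∧ j < m then decide (e.symm ⟨i, h.1⟩ ≤ e.symm ⟨j, h.2⟩) else false

theorem relL_iff {i j : Nat} (hi : i < m) (hj : j < m) :
    relL e i j = true ↔ e.symm ⟨i, hi⟩ ≤ e.symm ⟨j, hj⟩ := by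
  simp [relL, hi, hj]

theorem relL_elt (a b : L) : relL e (e a).val (e b).val = true ↔ a ≤ b := by
  rw [relL_iff e (e a).isLt (e b).isLt]
  simp

theorem isLat_relL : isLat m (relL e) = true := by
  simp only [isLat, Bool.and_eq_true]
  refine ⟨⟨?_, ?_⟩, ?_⟩
  · apply allLt_of; intro a ha
    apply allLt_of; intro b hb
    apply allLt_of; intro c hc
    by_cases h : relL e a b = true ∧ relL e b c = true
    · have h1 := (relL_iff e ha hb).mp h.1
      have h2 := (relL_iff e hb hc).mp h.2
      have : relL e a c = true := (relL_iff e ha hc).mpr (h1.trans h2)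
      simp [this]
    · have : (relL e a b && relL e b c) = false := by
        cases h1 : relL e a b <;> cases h2 : relL e b c <;> simp_all
      simp [this]
  · apply allLt_of; intro a ha
    apply allLt_of; intro b hb
    have hb' : b < m := by omega
    let c := e (e.symm ⟨a, ha⟩ ⊔ e.symm ⟨b, hb'⟩)
    apply anyLt_of c.isLt
    simp only [Bool.and_eq_true]
    refine ⟨⟨?_, ?_⟩, ?_⟩
    · rw [relL_iff e ha c.isLt]; simp [c]
    · rw [relL_iff e hb' c.isLt]; simp [c]
    · apply allLt_of; intro d hd
      by_cases h : relL e a d = true ∧ relL e b d = true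
      · have h1 := (relL_iff e ha hd).mp h.1
        have h2 := (relL_iff e hb' hd).mp h.2
        have : relL e c.val d = true := by
          rw [relL_iff e c.isLt hd]
          simpa [c] using sup_le h1 h2
        simp [this]
      · have : (relL e a d && relL e b d) = false := by
          cases h1 : relL e a d <;> cases h2 : relL e b d <;> simp_all
        simp [this]
  · apply allLt_of; intro a ha
    apply allLt_of; intro b hb
    have hb' : b < m := by omega
    let c := e (e.symm ⟨a, ha⟩ ⊓ e.symm ⟨b, hb'⟩)
    apply anyLt_of c.isLt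
    simp only [Bool.and_eq_true]
    refine ⟨⟨?_, ?_⟩, ?_⟩
    · rw [relL_iff e c.isLt ha]; simp [c]
    · rw [relL_iff e c.isLt hb']; simp [c]
    · apply allLt_of; intro d hd
      by_cases h : relL e d a = true ∧ relL e d b = true
      · have h1 := (relL_iff e hd ha).mp h.1
        have h2 := (relL_iff e hd hb').mp h.2
        have : relL e d c.val = true := by
          rw [relL_iff e hd c.isLt]
          simpa [c] using le_inf h1 h2
        simp [this]
      · have : (relL e d a && relL e d b) = false := by
          cases h1 : relL e d a <;> cases h2 : relL e d b <;> simp_all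
        simp [this]

/-- from a table entry for the induced relation to a representation -/
theorem representable_of_entry (A : Rep) (hA : Good A) (π : List Nat)
    (h : entryOK m (relL e) A π = true) : Representable L := by
  simp only [entryOK, Bool.and_eq_true] at h
  obtain ⟨⟨⟨hlen, hπ⟩, hsurj⟩, hord⟩ := h
  have hlen' : A.thetas.length = m := Nat.eq_of_beq_eq_true hlen
  let idx : L → List Nat := fun a => A.thetas.getD (lab π (e a).val) []
  have hπlt : ∀ a : L, lab π (e a).val < A.thetas.length := by
    intro a
    have := allLt_spec hπ (e a).isLt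
    rw [hlen']
    simpa using this
  refine representable_of_check A hA idx ?_ ?_ ?_
  · intro a
    have h1 := hπlt a
    show A.thetas.getD _ [] ∈ A.thetas
    rw [List.getD_eq_getElem _ _ h1]
    exact List.getElem_mem h1
  · intro θ hθ
    obtain ⟨k, hk, rfl⟩ := List.mem_iff_getElem.mp hθ
    have hkm : k < m := hlen' ▸ hk
    obtain ⟨i, hi, hik⟩ := anyLt_spec (allLt_spec hsurj hkm)
    have hik' : lab π i = k := Nat.eq_of_beq_eq_true hik
    refine ⟨e.symm ⟨i, hi⟩, ?_⟩
    show A.thetas.getD _ [] = _
    simp only [Equiv.apply_symm_apply]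
    rw [hik', List.getD_eq_getElem _ _ hk]
  · intro a b
    have h1 := allLt_spec (allLt_spec hord (e a).isLt) (e b).isLt
    have h2 : relL e (e a).val (e b).val = leB A.n (idx a) (idx b) := by
      simp only [beq_iff_eq] at h1
      exact h1
    rw [← h2, relL_elt]

end

/-- number of bits for the middle pairs -/
def bitsOf (m : Nat) : Nat := (m - 2) * (m - 3) / 2

/-- Boolean form of injectivity of `pairIndex` on small pairs -/
def pairInjB : Bool :=
  allLt (fun j => allLt (fun i => allLt (fun j' => allLt (fun i' =>
    (!(Nat.ble 1 i && Nat.blt i j && Nat.ble 1 i' && Nat.blt i' j' &&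
        Nat.beq (pairIndex i j) (pairIndex i' j'))) || (Nat.beq i i' && Nat.beq j j')) 9) 9) 9) 9

theorem pairInjB_eq : pairInjB = true := by decide +kernel

theorem pairIndex_facts {i j i' j' : Nat} (hj : j < 9) (hi : i < 9) (hj' : j' < 9) (hi' : i' < 9)
    (h1 : 1 ≤ i) (h2 : i < j) (h3 : 1 ≤ i') (h4 : i' < j') (h5 : pairIndex i j = pairIndex i' j') :
    i = i' ∧ j = j' := by
  have := allLt_spec (allLt_spec (allLt_spec (allLt_spec pairInjB_eq hj) hi) hj') hi'
  have hc : (Nat.ble 1 i && Nat.blt i j && Nat.ble 1 i' && Nat.blt i' j' &&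
      Nat.beq (pairIndex i j) (pairIndex i' j')) = true := by
    simp [h1, h2, h3, h4, h5, Nat.blt_eq, Nat.le_of_ble_eq_true]
  rw [hc] at this
  simpa using this

/-- Boolean form of the range bound of `pairIndex` -/
def pairLtB : Bool :=
  allLt (fun m => allLt (fun j => allLt (fun i =>
    (!(Nat.ble 1 i && Nat.blt i j && Nat.blt (j + 1) m)) || Nat.blt (pairIndex i j) (bitsOf m)) 10) 10) 10

theorem pairLtB_eq : pairLtB = true := by decide +kernel

theorem pairIndex_lt {m i j : Nat} (hm : m < 10) (hj : j < 10) (hi : i < 10)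
    (h1 : 1 ≤ i) (h2 : i < j) (h3 : j + 1 < m) : pairIndex i j < bitsOf m := by
  have := allLt_spec (allLt_spec (allLt_spec pairLtB_eq hm) hj) hi
  have hc : (Nat.ble 1 i && Nat.blt i j && Nat.blt (j + 1) m) = true := by
    simp [h1, h2, h3, Nat.blt_eq]
  rw [hc] at this
  simpa using this

/-- a monotone bijection to `Fin m` exists for any finite lattice (linear extension) -/
theorem exists_mono_equiv (L : Type u) [Lattice L] [Fintype L] :
    ∃ e : L ≃ Fin (Fintype.card L), ∀ a b, a ≤ b → e a ≤ e b := by
  classical
  let _ : Fintype (LinearExtension L) := (inferInstance : Fintype L)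
  let f : Fin (Fintype.card L) ≃o LinearExtension L :=
    Fintype.orderIsoFinOfCardEq (LinearExtension L) rfl
  let e : L ≃ Fin (Fintype.card L) :=
    (Equiv.refl L).trans (f.symm.toEquiv : LinearExtension L ≃ Fin (Fintype.card L))
  refine ⟨e, ?_⟩
  intro a b hab
  have : (toLinearExtension a : LinearExtension L) ≤ toLinearExtension b := toLinearExtension.monotone hab
  exact f.symm.monotone this

section

variable {L : Type u} [Lattice L] {m : Nat} (e : L ≃ Fin m) (he : ∀ a b, a ≤ b → e a ≤ e b)

include he

theorem relL_le {i j : Nat} (h : relL e i j = true) : i ≤ j := by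
  by_cases hij : i < m ∧ j < m
  · have h1 := (relL_iff e hij.1 hij.2).mp h
    have := he _ _ h1
    simpa using this
  · simp [relL, hij] at h

theorem relL_bot {j : Nat} (h0 : 0 < m) (hj : j < m) : relL e 0 j = true := by
  rw [relL_iff e h0 hj]
  -- the element of index 0 is below everything
  have hfin : ∀ a : L, e (e.symm ⟨0, h0⟩ ⊓ a) = ⟨0, h0⟩ := by
    intro a
    have : e (e.symm ⟨0, h0⟩ ⊓ a) ≤ e (e.symm ⟨0, h0⟩) := he _ _ inf_le_left
    simp only [Equiv.apply_symm_apply] at this
    apply Fin.ext
    have h' : (e (e.symm ⟨0, h0⟩ ⊓ a)).val ≤ 0 := this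
    show (e (e.symm ⟨0, h0⟩ ⊓ a)).val = 0
    omega
  have := hfin (e.symm ⟨j, hj⟩)
  have h2 : e.symm ⟨0, h0⟩ ⊓ e.symm ⟨j, hj⟩ = e.symm ⟨0, h0⟩ := by
    apply e.injective
    rw [this]; simp
  exact inf_eq_left.mp h2

theorem relL_top {i : Nat} (h0 : 0 < m) (hi : i < m) : relL e i (m - 1) = true := by
  have hm : m - 1 < m := by omega
  rw [relL_iff e hi hm]
  have hfin : ∀ a : L, e (e.symm ⟨m - 1, hm⟩ ⊔ a) = ⟨m - 1, hm⟩ := by
    intro a
    have : e (e.symm ⟨m - 1, hm⟩) ≤ e (e.symm ⟨m - 1, hm⟩ ⊔ a) := he _ _ le_sup_left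
    simp only [Equiv.apply_symm_apply] at this
    apply Fin.ext
    have h' : m - 1 ≤ (e (e.symm ⟨m - 1, hm⟩ ⊔ a)).val := this
    have h'' := (e (e.symm ⟨m - 1, hm⟩ ⊔ a)).isLt
    show (e (e.symm ⟨m - 1, hm⟩ ⊔ a)).val = m - 1
    omega
  have := hfin (e.symm ⟨i, hi⟩)
  have h2 : e.symm ⟨m - 1, hm⟩ ⊔ e.symm ⟨i, hi⟩ = e.symm ⟨m - 1, hm⟩ := by
    apply e.injective
    rw [this]; simp
  exact sup_eq_left.mp h2

theorem relL_refl {i : Nat} (hi : i < m) : relL e i i = true := by
  rw [relL_iff e hi hi]

open Classical in
/-- a mask for the induced relation exists -/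
theorem exists_mask (hm : m < 9) : ∃ mask, mask < 2 ^ bitsOf m ∧
    ∀ i j, i < m → j < m → relL e i j = relOf m mask i j := by
  let g : Fin (bitsOf m) → Bool := fun k =>
    decide (∃ i j, 1 ≤ i ∧ i < j ∧ j + 1 < m ∧ pairIndex i j = k.val ∧ relL e i j = true)
  refine ⟨Nat.ofBits g, Nat.ofBits_lt_two_pow g, ?_⟩
  intro i j hi hj
  have h0 : 0 < m := by omega
  unfold relOf
  by_cases hij : i = j
  · subst hij
    simp [relL_refl e he hi]
  have h1 : Nat.beq i j = false := by
    cases hb : Nat.beq i j
    · rfl
    · exact absurd (Nat.eq_of_beq_eq_true hb) hij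
  rw [h1]
  simp only [cond_false]
  by_cases hi0 : i = 0
  · subst hi0
    simp [relL_bot e he h0 hj]
  have h2 : Nat.beq i 0 = false := by
    cases hb : Nat.beq i 0
    · rfl
    · exact absurd (Nat.eq_of_beq_eq_true hb) hi0
  rw [h2]
  simp only [cond_false]
  by_cases hjt : j + 1 = m
  · have : j = m - 1 := by omega
    subst this
    simp [relL_top e he h0 hi, Nat.beq_refl]
    omega
  have h3 : Nat.beq (j + 1) m = false := by
    cases hb : Nat.beq (j + 1) m
    · rfl
    · exact absurd (Nat.eq_of_beq_eq_true hb) hjt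
  rw [h3]
  simp only [cond_false]
  by_cases hlt : i < j
  · have h4 : Nat.blt i j = true := by simpa using hlt
    rw [h4]
    simp only [cond_true]
    have hi1 : 1 ≤ i := by omega
    have hj1 : j + 1 < m := by omega
    have hb := pairIndex_lt (show m < 10 by omega) (show j < 10 by omega) (show i < 10 by omega) hi1 hlt hj1
    rw [Nat.testBit_ofBits_lt g _ hb]
    simp only [g]
    cases hr : relL e i j
    · symm
      rw [decide_eq_false_iff_not]
      rintro ⟨i', j', h1', h2', h3', h4', h5'⟩
      have := pairIndex_facts (show j < 9 by omega) (show i < 9 by omega) (show j' < 9 by omega) (show i' < 9 by omega) hi1 hlt h1' h2' h4'.symm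
      rw [this.1, this.2] at hr
      simp [hr] at h5'
    · symm
      rw [decide_eq_true_iff]
      exact ⟨i, j, hi1, hlt, hj1, rfl, hr⟩
  · have h4 : Nat.blt i j = false := by
      cases hb : Nat.blt i j
      · rfl
      · exact absurd (by simpa using hb) hlt
    rw [h4]
    simp only [cond_false]
    cases hr : relL e i j
    · rfl
    · exact absurd (relL_le e he hr) (by omega)

end

end Vale.Agent.Lib.P183
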