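import Vale.Agent.Lib.P183.Defs
import Mathlib.Data.Fintype.Basic
import Mathlib.Data.Fintype.Order
import Mathlib.Data.Fin.Basic
import Mathlib.Order.Extension.Linear
import Mathlib.Data.Nat.Bitwise

/-!
A checker for explicit unary algebras, with its soundness proof.
-/

namespace Vale.Agent.Lib.P183

universe u

/-- list lookup with default `0` -/
def lab : List Nat → Nat → Nat
  | [], _ => 0
  | a :: _, 0 => a
  | _ :: t, i + 1 => lab t i

/-- relabel `b` to `a` -/
def relabel : List Nat → Nat → Nat → List Nat
  | [], _, _ => []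
  | c :: t, a, b => (bif Nat.beq c b then a else c) :: relabel t a b

theorem length_relabel (l : List Nat) (a b : Nat) : (relabel l a b).length = l.length := by
  induction l with
  | nil => rfl
  | cons c t ih => simp [relabel, ih]

theorem lab_relabel (l : List Nat) (a b p : Nat) (hp : p < l.length) :
    lab (relabel l a b) p = if lab l p = b then a else lab l p := by
  induction l generalizing p with
  | nil => simp at hp
  | cons c t ih =>
    cases p with
    | zero =>
      simp only [relabel, lab]
      by_cases h : c = b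
      · subst h; simp
      · have h' : Nat.beq c b = false := by
          cases hb : Nat.beq c b
          · rfl
          · exact absurd (Nat.eq_of_beq_eq_true hb) h
        simp [h, h']
    | succ p =>
      simp only [relabel, lab]
      exact ih p (by simpa using hp)

/-- merge the classes of `u` and `v` (keeping the smaller label). -/
def mergeAt (l : List Nat) (u v : Nat) : List Nat :=
  let a := lab l u
  let b := lab l v
  bif Nat.ble a b then relabel l a b else relabel l b a

/-- image of a point under a map given as a list, reduced modulo `n` -/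
def ap (n : Nat) (f : List Nat) (x : Nat) : Nat := lab f x % n

/-- process one pair through all the maps -/
def procPair (n p q : Nat) : List (List Nat) → List Nat → List (Nat × Nat) →
    List Nat × List (Nat × Nat)
  | [], l, W => (l, W)
  | f :: fs, l, W =>
    let u := ap n f p
    let v := ap n f q
    bif Nat.beq (lab l u) (lab l v) then procPair n p q fs l W
    else procPair n p q fs (mergeAt l u v) ((u, v) :: W)

/-- worklist closure, with fuel -/
def run (n : Nat) (maps : List (List Nat)) : Nat → List Nat → List (Nat × Nat) → List Nat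
  | 0, l, _ => l
  | _ + 1, l, [] => l
  | k + 1, l, (p, q) :: W =>
    let r := procPair n p q maps l W
    run n maps k r.1 r.2

/-- identity labelling -/
def idLab : Nat → Nat → List Nat
  | 0, _ => []
  | k + 1, s => s :: idLab k (s + 1)

theorem length_idLab (k s : Nat) : (idLab k s).length = k := by
  induction k generalizing s with
  | zero => rfl
  | succ k ih => simp [idLab, ih]

theorem lab_idLab (k s p : Nat) (hp : p < k) : lab (idLab k s) p = s + p := by
  induction k generalizing s p with
  | zero => omega
  | succ k ih =>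
    cases p with
    | zero => simp [idLab, lab]
    | succ p =>
      simp only [idLab, lab]
      rw [ih (s + 1) p (by omega)]
      omega

/-- labels of the principal closure of `(x, y)` -/
def pcg (n : Nat) (maps : List (List Nat)) (x y : Nat) : List Nat :=
  run n maps (n + 1) (mergeAt (idLab n 0) x y) [(x, y)]

/-- list equality -/
def eqL : List Nat → List Nat → Bool
  | [], [] => true
  | a :: s, b :: t => Nat.beq a b && eqL s t
  | _, _ => false

theorem eq_of_eqL : ∀ {s t : List Nat}, eqL s t = true → s = t
  | [], [], _ => rfl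
  | a :: s, b :: t, h => by
    simp only [eqL, Bool.and_eq_true, Nat.beq_eq] at h
    rw [h.1, eq_of_eqL h.2]
  | [], _ :: _, h => by simp [eqL] at h
  | _ :: _, [], h => by simp [eqL] at h

/-- all `p < n` satisfy `P` -/
def allLt (P : Nat → Bool) : Nat → Bool
  | 0 => true
  | k + 1 => P k && allLt P k

theorem allLt_spec {P : Nat → Bool} {n : Nat} (h : allLt P n = true) {p : Nat} (hp : p < n) :
    P p = true := by
  induction n with
  | zero => omega
  | succ k ih =>
    simp only [allLt, Bool.and_eq_true] at h
    by_cases hpk : p = k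
    · subst hpk; exact h.1
    · exact ih h.2 (by omega)

theorem allLt_of {P : Nat → Bool} {n : Nat} (h : ∀ p, p < n → P p = true) : allLt P n = true := by
  induction n with
  | zero => rfl
  | succ k ih =>
    simp only [allLt, Bool.and_eq_true]
    exact ⟨h k (by omega), ih (fun p hp => h p (by omega))⟩

/-- the labelling is a normal form: each point's label is a point, and a fixed point. -/
def canonL (n : Nat) (θ : List Nat) : Bool :=
  Nat.beq θ.length n &&
  allLt (fun p => Nat.blt (lab θ p) n && Nat.beq (lab θ (lab θ p)) (lab θ p)) n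

/-- partition order on labellings -/
def leB (n : Nat) (θ θ' : List Nat) : Bool :=
  allLt (fun p => Nat.beq (lab θ' p) (lab θ' (lab θ p))) n

/-- compatibility of a labelling with a map -/
def compatB (n : Nat) (f θ : List Nat) : Bool :=
  allLt (fun p => Nat.beq (lab θ (ap n f p)) (lab θ (ap n f (lab θ p)))) n

/-- join of two labellings -/
def joinFrom (n : Nat) (θ' : List Nat) : Nat → List Nat → List Nat
  | 0, l => l
  | k + 1, l =>
    let v := lab θ' k
    joinFrom n θ' k (bif Nat.beq (lab l k) (lab l v) then l else mergeAt l k v)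

/-- unary algebra data -/
structure Rep where
  n : Nat
  maps : List (List Nat)
  thetas : List (List Nat)

def anyL (P : List Nat → Bool) : List (List Nat) → Bool
  | [] => false
  | a :: t => P a || anyL P t

def allL (P : List Nat → Bool) : List (List Nat) → Bool
  | [] => true
  | a :: t => P a && allL P t

theorem allL_spec {P : List Nat → Bool} {t : List (List Nat)} (h : allL P t = true)
    {a : List Nat} (ha : a ∈ t) : P a = true := by
  induction t with
  | nil => simp at ha
  | cons b s ih =>
    simp only [allL, Bool.and_eq_true] at h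
    rcases List.mem_cons.mp ha with rfl | hs
    · exact h.1
    · exact ih h.2 hs

theorem allL_of {P : List Nat → Bool} {t : List (List Nat)} (h : ∀ a ∈ t, P a = true) :
    allL P t = true := by
  induction t with
  | nil => rfl
  | cons b s ih =>
    simp only [allL, Bool.and_eq_true]
    exact ⟨h b (by simp), ih (fun a ha => h a (by simp [ha]))⟩

theorem anyL_spec {P : List Nat → Bool} {t : List (List Nat)} (h : anyL P t = true) :
    ∃ a ∈ t, P a = true := by
  induction t with
  | nil => simp [anyL] at h
  | cons b s ih =>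
    simp only [anyL, Bool.or_eq_true] at h
    rcases h with h | h
    · exact ⟨b, by simp, h⟩
    · obtain ⟨a, ha, hP⟩ := ih h
      exact ⟨a, by simp [ha], hP⟩

/-- the checks common to the two forms: normal forms, identity labelling, compatibility, joins -/
def checkCommon (R : Rep) : Bool :=
  Nat.blt 0 R.n &&
  allL (canonL R.n) R.thetas &&
  anyL (eqL (idLab R.n 0)) R.thetas &&
  allL (fun f => allL (compatB R.n f) R.thetas) R.maps &&
  allL (fun θ => allL (fun t =>
      let l := joinFrom R.n t R.n θ
      anyL (fun k => eqL k l && leB R.n θ k && leB R.n t k) R.thetas) R.thetas) R.thetas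

/-- direct check of the principal closures of all pairs -/
def principalDirect (R : Rep) : Bool :=
  allLt (fun x => allLt (fun y =>
      let l := pcg R.n R.maps x y
      anyL (fun θ => eqL θ l && Nat.beq (lab θ x) (lab θ y)) R.thetas) x) R.n

/-- the check of a unary algebra: every principal closure is in the list, the list is closed
under joins, contains the identity labelling, and consists of compatible normal forms. -/
def checkRep (R : Rep) : Bool := checkCommon R && principalDirect R

/-- move a pair along maps chosen by the first coordinate until the first coordinate is `0` -/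
def walk (n : Nat) (maps : List (List Nat)) (par : List Nat) : Nat → Nat → Nat → Nat × Nat
  | 0, x, y => (x, y)
  | k + 1, x, y =>
    bif Nat.beq x 0 then (x, y) else
      let f := maps.getD (lab par x) []
      walk n maps par k (ap n f x) (ap n f y)

/-- principal closures through a transitive family of maps: only pairs `(0, y)` are closed
directly (`rootθ y` is the index of the closure), the others are moved to such a pair. -/
def principalT (R : Rep) (par rootθ : List Nat) : Bool :=
  allLt (fun x => Nat.blt (lab par x) R.maps.length) R.n &&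
  allLt (fun y =>
    let θ := R.thetas.getD (lab rootθ y) []
    Nat.blt (lab rootθ y) R.thetas.length && eqL θ (pcg R.n R.maps 0 y) &&
      Nat.beq (lab θ 0) (lab θ y)) R.n &&
  allLt (fun x => allLt (fun y =>
    let w := walk R.n R.maps par R.n x y
    let θ := R.thetas.getD (lab rootθ w.2) []
    Nat.beq w.1 0 && Nat.beq (lab θ x) (lab θ y)) x) R.n

/-- the check for a transitive family -/
def checkRepT (R : Rep) (par rootθ : List Nat) : Bool := checkCommon R && principalT R par rootθ

section Sound

variable {n : Nat} (hn : 0 < n)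

/-- the map on `Fin n` coded by a list -/
def toMap (hn : 0 < n) (f : List Nat) : Fin n → Fin n :=
  fun x => ⟨ap n f x.val, Nat.mod_lt _ hn⟩

/-- the equivalence relation on `Fin n` coded by a labelling -/
def labSetoid (n : Nat) (θ : List Nat) : Setoid (Fin n) :=
  Setoid.ker (fun x : Fin n => lab θ x.val)

theorem labSetoid_iff (θ : List Nat) (x y : Fin n) :
    (labSetoid n θ).r x y ↔ lab θ x.val = lab θ y.val := Iff.rfl

/-- relation on natural numbers induced by a setoid on `Fin n` -/
def PP (r : Setoid (Fin n)) (p q : Nat) : Prop :=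
  ∃ (hp : p < n) (hq : q < n), r.r ⟨p, hp⟩ ⟨q, hq⟩

theorem PP_symm {r : Setoid (Fin n)} {p q : Nat} (h : PP r p q) : PP r q p := by
  obtain ⟨hp, hq, h⟩ := h
  exact ⟨hq, hp, r.symm' h⟩

theorem PP_trans {r : Setoid (Fin n)} {p q s : Nat} (h : PP r p q) (h' : PP r q s) : PP r p s := by
  obtain ⟨hp, hq, h⟩ := h
  obtain ⟨hq', hs, h'⟩ := h'
  exact ⟨hp, hs, r.trans' h h'⟩

theorem PP_refl {r : Setoid (Fin n)} {p : Nat} (hp : p < n) : PP r p p :=
  ⟨hp, hp, r.refl' _⟩

/-- Invariant: equal labels imply related. -/
def Inv (r : Setoid (Fin n)) (l : List Nat) : Prop :=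
  l.length = n ∧ ∀ p q, p < n → q < n → lab l p = lab l q → PP r p q

theorem Inv_relabel {r : Setoid (Fin n)} {l : List Nat} (hl : Inv r l) {u v : Nat} (h : PP r u v) :
    Inv r (relabel l (lab l u) (lab l v)) := by
  refine ⟨by rw [length_relabel]; exact hl.1, ?_⟩
  intro p q hp hq heq
  have hu : u < n := h.1
  have hv : v < n := h.2.1
  rw [lab_relabel _ _ _ _ (by rw [hl.1]; exact hp), lab_relabel _ _ _ _ (by rw [hl.1]; exact hq)] at heq
  by_cases h1 : lab l p = lab l v <;> by_cases h2 : lab l q = lab l v
  · exact hl.2 p q hp hq (h1.trans h2.symm)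
  · simp only [h1, h2, if_true, if_false] at heq
    exact PP_trans (hl.2 p v hp hv h1) (PP_trans (PP_symm h) (hl.2 u q hu hq heq))
  · simp only [h1, h2, if_true, if_false] at heq
    exact PP_trans (hl.2 p u hp hu heq) (PP_trans h (hl.2 v q hv hq h2.symm))
  · simp only [h1, h2, if_false] at heq
    exact hl.2 p q hp hq heq

theorem Inv_mergeAt {r : Setoid (Fin n)} {l : List Nat} (hl : Inv r l) {u v : Nat} (h : PP r u v) :
    Inv r (mergeAt l u v) := by
  unfold mergeAt
  cases hb : Nat.ble (lab l u) (lab l v)
  · simpa [hb] using Inv_relabel hl (PP_symm h)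
  · simpa [hb] using Inv_relabel hl h

theorem Inv_idLab (r : Setoid (Fin n)) : Inv r (idLab n 0) := by
  refine ⟨length_idLab _ _, ?_⟩
  intro p q hp hq h
  rw [lab_idLab _ _ _ hp, lab_idLab _ _ _ hq] at h
  have : p = q := by omega
  subst this
  exact PP_refl hp

/-- `r` is compatible with the maps of the list -/
def CompatAll (hn : 0 < n) (maps : List (List Nat)) (r : Setoid (Fin n)) : Prop :=
  ∀ f ∈ maps, ∀ x y, r.r x y → r.r (toMap hn f x) (toMap hn f y)

theorem PP_ap {r : Setoid (Fin n)} {maps : List (List Nat)} (hr : CompatAll hn maps r)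
    {f : List Nat} (hf : f ∈ maps) {p q : Nat} (h : PP r p q) : PP r (ap n f p) (ap n f q) := by
  obtain ⟨hp, hq, h⟩ := h
  exact ⟨Nat.mod_lt _ hn, Nat.mod_lt _ hn, hr f hf _ _ h⟩

theorem procPair_inv {r : Setoid (Fin n)} {maps : List (List Nat)} (hr : CompatAll hn maps r)
    {p q : Nat} (hpq : PP r p q) :
    ∀ (fs : List (List Nat)), (∀ f ∈ fs, f ∈ maps) → ∀ (l : List Nat) (W : List (Nat × Nat)),
      Inv r l → (∀ c ∈ W, PP r c.1 c.2) →
      Inv r (procPair n p q fs l W).1 ∧ ∀ c ∈ (procPair n p q fs l W).2, PP r c.1 c.2 := by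
  intro fs
  induction fs with
  | nil => intro _ l W hl hW; exact ⟨hl, hW⟩
  | cons f fs ih =>
    intro hfs l W hl hW
    have hf : f ∈ maps := hfs f (by simp)
    have hfs' : ∀ g ∈ fs, g ∈ maps := fun g hg => hfs g (by simp [hg])
    have huv := PP_ap hn hr hf hpq
    simp only [procPair]
    cases hb : Nat.beq (lab l (ap n f p)) (lab l (ap n f q))
    · simp only [cond_false]
      refine ih hfs' _ _ (Inv_mergeAt hl huv) ?_
      intro c hc
      rcases List.mem_cons.mp hc with rfl | hc
      · exact huv
      · exact hW c hc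
    · simp only [cond_true]
      exact ih hfs' l W hl hW

theorem run_inv {r : Setoid (Fin n)} {maps : List (List Nat)} (hr : CompatAll hn maps r) :
    ∀ (k : Nat) (l : List Nat) (W : List (Nat × Nat)), Inv r l → (∀ c ∈ W, PP r c.1 c.2) →
      Inv r (run n maps k l W) := by
  intro k
  induction k with
  | zero => intro l W hl _; simpa [run] using hl
  | succ k ih =>
    intro l W hl hW
    cases W with
    | nil => simpa [run] using hl
    | cons c W =>
      obtain ⟨p, q⟩ := c
      simp only [run]
      have hpq : PP r p q := hW (p, q) (by simp)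
      have := procPair_inv hn hr hpq maps (fun f hf => hf) l W hl
        (fun c hc => hW c (by simp [hc]))
      exact ih _ _ this.1 this.2

theorem pcg_inv {r : Setoid (Fin n)} {maps : List (List Nat)} (hr : CompatAll hn maps r)
    {x y : Nat} (h : PP r x y) : Inv r (pcg n maps x y) := by
  unfold pcg
  refine run_inv hn hr _ _ _ (Inv_mergeAt (Inv_idLab r) h) ?_
  intro c hc
  rcases List.mem_singleton.mp hc with rfl
  exact h

theorem leB_sound {θ θ' : List Nat} (h : leB n θ θ' = true) :
    labSetoid n θ ≤ labSetoid n θ' := by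
  intro x y hxy
  have hx := allLt_spec h x.isLt
  have hy := allLt_spec h y.isLt
  simp only [Nat.beq_eq] at hx hy
  have hxy' : lab θ x.val = lab θ y.val := hxy
  show lab θ' x.val = lab θ' y.val
  rw [hx, hy, hxy']

theorem leB_complete {θ θ' : List Nat} (hc : canonL n θ = true)
    (h : labSetoid n θ ≤ labSetoid n θ') : leB n θ θ' = true := by
  unfold leB
  apply allLt_of
  intro p hp
  simp only [canonL, Bool.and_eq_true, Nat.beq_eq] at hc
  have h2 := allLt_spec hc.2 hp
  simp only [Bool.and_eq_true, Nat.beq_eq, Nat.blt_eq] at h2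
  have h3 : (labSetoid n θ).r ⟨p, hp⟩ ⟨lab θ p, h2.1⟩ := by
    show lab θ p = lab θ (lab θ p)
    exact h2.2.symm
  have h4 := h h3
  have h5 : lab θ' p = lab θ' (lab θ p) := h4
  simp [h5]

theorem compatB_sound {f θ : List Nat} (h : compatB n f θ = true) :
    ∀ x y, (labSetoid n θ).r x y → (labSetoid n θ).r (toMap hn f x) (toMap hn f y) := by
  intro x y hxy
  have hx := allLt_spec h x.isLt
  have hy := allLt_spec h y.isLt
  simp only [Nat.beq_eq] at hx hy
  have hxy' : lab θ x.val = lab θ y.val := hxy
  show lab θ (ap n f x.val) = lab θ (ap n f y.val)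
  rw [hx, hy, hxy']

/-- labelling-below-setoid, as used for the join closure -/
theorem le_of_inv {r : Setoid (Fin n)} {l : List Nat} (h : Inv r l) :
    labSetoid n l ≤ r := by
  intro x y hxy
  obtain ⟨_, _, h'⟩ := h.2 x.val y.val x.isLt y.isLt hxy
  exact h'

theorem inv_of_le {r : Setoid (Fin n)} {l : List Nat} (hlen : l.length = n)
    (h : labSetoid n l ≤ r) : Inv r l := by
  refine ⟨hlen, ?_⟩
  intro p q hp hq hpq
  exact ⟨hp, hq, h (show lab l p = lab l q from hpq)⟩

theorem joinFrom_inv {r : Setoid (Fin n)} {θ' : List Nat} (hc : canonL n θ' = true)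
    (h : labSetoid n θ' ≤ r) :
    ∀ (k : Nat), k ≤ n → ∀ l, Inv r l → Inv r (joinFrom n θ' k l) := by
  intro k
  simp only [canonL, Bool.and_eq_true, Nat.beq_eq] at hc
  induction k with
  | zero => intro _ l hl; exact hl
  | succ k ih =>
    intro hk l hl
    simp only [joinFrom]
    apply ih (by omega)
    cases hb : Nat.beq (lab l k) (lab l (lab θ' k))
    · simp only [cond_false]
      have hkn : k < n := by omega
      have h2 := allLt_spec hc.2 hkn
      simp only [Bool.and_eq_true, Nat.beq_eq, Nat.blt_eq] at h2
      apply Inv_mergeAt hl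
      refine ⟨hkn, h2.1, h ?_⟩
      show lab θ' k = lab θ' (lab θ' k)
      exact h2.2.symm
    · simpa using hl

end Sound

section Main

variable {R : Rep}

/-- every pair in a compatible relation forces a listed labelling below the relation -/
def PrincipalProp (R : Rep) : Prop :=
  ∀ (hn : 0 < R.n) (r : Setoid (Fin R.n)), CompatAll hn R.maps r → ∀ x y, y < x → PP r x y →
    ∃ θ ∈ R.thetas, labSetoid R.n θ ≤ r ∧ lab θ x = lab θ y

/-- validity of a unary algebra -/
def Good (R : Rep) : Prop := checkCommon R = true ∧ PrincipalProp R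

theorem checkCommon_parts (h : checkCommon R = true) :
    0 < R.n ∧ (∀ θ ∈ R.thetas, canonL R.n θ = true) ∧ (∃ θ ∈ R.thetas, θ = idLab R.n 0) ∧
    (∀ f ∈ R.maps, ∀ θ ∈ R.thetas, compatB R.n f θ = true) ∧
    (∀ θ ∈ R.thetas, ∀ t ∈ R.thetas, ∃ k ∈ R.thetas,
        k = joinFrom R.n t R.n θ ∧ leB R.n θ k = true ∧ leB R.n t k = true) := by
  simp only [checkCommon, Bool.and_eq_true] at h
  obtain ⟨⟨⟨⟨h0, h1⟩, h2⟩, h3⟩, h5⟩ := h
  refine ⟨by simpa using h0, fun θ hθ => allL_spec h1 hθ, ?_, ?_, ?_⟩
  · obtain ⟨a, ha, h⟩ := anyL_spec h2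
    exact ⟨a, ha, (eq_of_eqL h).symm⟩
  · intro f hf θ hθ
    exact allL_spec (allL_spec h3 hf) hθ
  · intro θ hθ t ht
    have := allL_spec (allL_spec h5 hθ) ht
    obtain ⟨a, ha, h⟩ := anyL_spec this
    simp only [Bool.and_eq_true] at h
    exact ⟨a, ha, eq_of_eqL h.1.1, h.1.2, h.2⟩

theorem good_of_checkRep (h : checkRep R = true) : Good R := by
  simp only [checkRep, Bool.and_eq_true] at h
  refine ⟨h.1, ?_⟩
  intro hn r hr x y hyx hpp
  have hx : x < R.n := hpp.1
  have := allLt_spec (allLt_spec h.2 hx) hyx
  obtain ⟨a, ha, h'⟩ := anyL_spec this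
  simp only [Bool.and_eq_true, Nat.beq_eq] at h'
  refine ⟨a, ha, ?_, h'.2⟩
  rw [eq_of_eqL h'.1]
  exact le_of_inv (pcg_inv hn hr hpp)

theorem walk_spec {r : Setoid (Fin R.n)} (hn : 0 < R.n) (hr : CompatAll hn R.maps r) {par : List Nat}
    (hpar : ∀ x, x < R.n → lab par x < R.maps.length) :
    ∀ (k x y : Nat), PP r x y → PP r (walk R.n R.maps par k x y).1 (walk R.n R.maps par k x y).2 := by
  intro k
  induction k with
  | zero => intro x y h; simpa [walk] using h
  | succ k ih =>
    intro x y h
    simp only [walk]
    cases hb : Nat.beq x 0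
    · simp only [cond_false]
      have hx : x < R.n := h.1
      apply ih
      apply PP_ap hn hr _ h
      rw [List.getD_eq_getElem _ _ (hpar x hx)]
      exact List.getElem_mem _
    · simpa using h

theorem good_of_checkRepT {par rootθ : List Nat} (h : checkRepT R par rootθ = true) : Good R := by
  simp only [checkRepT, principalT, Bool.and_eq_true] at h
  obtain ⟨hc, ⟨h1, h2⟩, h3⟩ := h
  refine ⟨hc, ?_⟩
  intro hn r hr x y hyx hpp
  have hx : x < R.n := hpp.1
  have hpar : ∀ x, x < R.n → lab par x < R.maps.length := by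
    intro x hx
    simpa using allLt_spec h1 hx
  have hw := walk_spec hn hr hpar R.n x y hpp
  have h4 := allLt_spec (allLt_spec h3 hx) hyx
  simp only [Bool.and_eq_true, Nat.beq_eq] at h4
  rw [h4.1] at hw
  set w := walk R.n R.maps par R.n x y with hwdef
  have hw2 : w.2 < R.n := hw.2.1
  have h5 := allLt_spec h2 hw2
  simp only [Bool.and_eq_true, Nat.beq_eq, Nat.blt_eq] at h5
  obtain ⟨⟨h6, h7⟩, h8⟩ := h5
  refine ⟨R.thetas.getD (lab rootθ w.2) [], ?_, ?_, h4.2⟩
  · rw [List.getD_eq_getElem _ _ h6]
    exact List.getElem_mem _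
  · rw [eq_of_eqL h7]
    exact le_of_inv (pcg_inv hn hr hw)

/-- a setoid compatible with all the maps of a checked algebra is one of the listed labellings -/
theorem closed_of_good (h : Good R) (hn : 0 < R.n) (r : Setoid (Fin R.n))
    (hr : CompatAll hn R.maps r) : ∃ θ ∈ R.thetas, r = labSetoid R.n θ := by
  obtain ⟨-, hcan, ⟨θ0, hθ0, hid⟩, -, hjoin⟩ := checkCommon_parts h.1
  -- a greatest listed labelling below r
  have key : ∀ T : List (List Nat), (∀ t ∈ T, t ∈ R.thetas) → ∃ θ ∈ R.thetas,
      labSetoid R.n θ ≤ r ∧ ∀ t ∈ T, labSetoid R.n t ≤ r → labSetoid R.n t ≤ labSetoid R.n θ := by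
    intro T
    induction T with
    | nil =>
      intro _
      refine ⟨θ0, hθ0, ?_, by simp⟩
      rw [hid]
      exact le_of_inv (Inv_idLab r)
    | cons t T ih =>
      intro hT'
      have ht0 : t ∈ R.thetas := hT' t (by simp)
      obtain ⟨θ, hθ, hle, hT⟩ := ih (fun s hs => hT' s (by simp [hs]))
      by_cases ht : labSetoid R.n t ≤ r
      · obtain ⟨k, hk, hkeq, h1, h2⟩ := hjoin θ hθ t ht0
        refine ⟨k, hk, ?_, ?_⟩
        · rw [hkeq]
          apply le_of_inv
          apply joinFrom_inv (hcan t ht0) ht _ le_rfl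
          apply inv_of_le _ hle
          have := hcan θ hθ
          simp only [canonL, Bool.and_eq_true, Nat.beq_eq] at this
          exact this.1
        · intro t' ht' hle'
          rcases List.mem_cons.mp ht' with rfl | ht'
          · exact leB_sound h2
          · exact (hT t' ht' hle').trans (leB_sound h1)
      · refine ⟨θ, hθ, hle, ?_⟩
        intro t' ht' hle'
        rcases List.mem_cons.mp ht' with rfl | ht'
        · exact absurd hle' ht
        · exact hT t' ht' hle'
  obtain ⟨θ, hθ, hle, hT⟩ := key R.thetas (fun t ht => ht)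
  refine ⟨θ, hθ, le_antisymm ?_ hle⟩
  -- every related pair lies in θ
  have main : ∀ x y : Fin R.n, y.val < x.val → r.r x y → (labSetoid R.n θ).r x y := by
    intro x y hyx hxy
    have hpp : PP r x.val y.val := ⟨x.isLt, y.isLt, hxy⟩
    obtain ⟨t, ht, hle', hlab⟩ := h.2 hn r hr x.val y.val hyx hpp
    exact hT t ht hle' hlab
  intro x y hxy
  rcases lt_trichotomy x.val y.val with h1 | h1 | h1
  · exact (labSetoid R.n θ).symm' (main y x h1 (r.symm' hxy))
  · have : x = y := Fin.ext h1
    subst this
    exact (labSetoid R.n θ).refl' _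
  · exact main x y h1 hxy

/-- the unary operation coded by a map -/
def unaryOp {A : Type} (g : A → A) : (Σ n : ℕ, (Fin n → A) → A) :=
  ⟨1, fun x => g (x (0 : Fin 1))⟩

theorem isCongruence_iff {A : Type} (gs : List (A → A)) (r : Setoid A) :
    IsCongruence (gs.map unaryOp) r ↔ ∀ g ∈ gs, ∀ x y, r.r x y → r.r (g x) (g y) := by
  constructor
  · intro h g hg x y hxy
    have := h (unaryOp g) (List.mem_map.mpr ⟨g, hg, rfl⟩) (fun _ => x) (fun _ => y) (fun _ => hxy)
    exact this
  · intro h op hop x y hxy
    obtain ⟨g, hg, rfl⟩ := List.mem_map.mp hop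
    exact h g hg _ _ (hxy (0 : Fin 1))

/-- The key consequence: from a checked algebra and an indexing of the listed labellings
by a partially ordered type `L` with the right order, we get a representation of `L`. -/
theorem representable_of_check {L : Type u} [PartialOrder L] (R : Rep) (h : Good R)
    (idx : L → List Nat) (hidx : ∀ a, idx a ∈ R.thetas)
    (hsurj : ∀ θ ∈ R.thetas, ∃ a, idx a = θ)
    (hle : ∀ a b, a ≤ b ↔ leB R.n (idx a) (idx b) = true) : Representable L := by
  obtain ⟨hn, hcan, -, hcomp, -⟩ := checkCommon_parts h.1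
  let gs : List (Fin R.n → Fin R.n) := R.maps.map (toMap hn)
  have hcong : ∀ r : Setoid (Fin R.n), IsCongruence (gs.map unaryOp) r ↔ CompatAll hn R.maps r := by
    intro r
    rw [isCongruence_iff]
    constructor
    · intro h' f hf x y hxy
      exact h' (toMap hn f) (List.mem_map.mpr ⟨f, hf, rfl⟩) x y hxy
    · intro h' g hg x y hxy
      obtain ⟨f, hf, rfl⟩ := List.mem_map.mp hg
      exact h' f hf x y hxy
  have hθcong : ∀ θ ∈ R.thetas, IsCongruence (gs.map unaryOp) (labSetoid R.n θ) := by
    intro θ hθ
    rw [hcong]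
    intro f hf
    exact compatB_sound hn (hcomp f hf θ hθ)
  have hle2 : ∀ a b, a ≤ b ↔ labSetoid R.n (idx a) ≤ labSetoid R.n (idx b) := by
    intro a b
    rw [hle]
    exact ⟨leB_sound, leB_complete (hcan _ (hidx a))⟩
  let φ : L → {r : Setoid (Fin R.n) // IsCongruence (gs.map unaryOp) r} :=
    fun a => ⟨labSetoid R.n (idx a), hθcong _ (hidx a)⟩
  have hφ : ∀ a b, φ a ≤ φ b ↔ a ≤ b := fun a b => (hle2 a b).symm
  have hsφ : Function.Surjective φ := by
    rintro ⟨r, hr⟩
    obtain ⟨θ, hθ, rfl⟩ := closed_of_good h hn r ((hcong r).mp hr)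
    obtain ⟨a, rfl⟩ := hsurj θ hθ
    exact ⟨a, rfl⟩
  refine ⟨Fin R.n, inferInstance, ⟨⟨0, hn⟩⟩, gs.map unaryOp, ⟨?_⟩⟩
  exact RelIso.ofSurjective (OrderEmbedding.ofMapLEIff φ hφ) hsφ

end Main

end Vale.Agent.Lib.P183
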