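import Mathlib.Data.Setoid.Basic
import Mathlib.Data.Fintype.Basic
import Mathlib.Order.Hom.Basic

/-!
Finite algebras and their congruence lattices.

A finite algebra is a nonempty finite type together with a finite list of total
operations of finite arity.  A congruence is a `Setoid` compatible with every operation,
and the congruences of an algebra are ordered by inclusion (the order inherited from `Setoid`).
-/

namespace Vale.Agent.Lib.P183

universe u

/-- A finite list of finitary operations on `A`: each entry is an arity and an operation. -/
abbrev Ops (A : Type) := List (Σ n : ℕ, (Fin n → A) → A)

/-- `r` is a congruence of the algebra `(A, ops)`: an equivalence relation compatible with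
every operation of the list. -/
def IsCongruence {A : Type} (ops : Ops A) (r : Setoid A) : Prop :=
  ∀ op ∈ ops, ∀ x y : Fin op.1 → A, (∀ i, r.r (x i) (y i)) → r.r (op.2 x) (op.2 y)

/-- The finite lattice `L` is representable: it is isomorphic, as an ordered set (hence as a
lattice), to the full congruence lattice of some finite algebra. -/
def Representable (L : Type u) [LE L] : Prop :=
  ∃ (A : Type) (_ : Fintype A) (_ : Nonempty A) (ops : Ops A),
    Nonempty (L ≃o {r : Setoid A // IsCongruence ops r})

end Vale.Agent.Lib.P183
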