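import Vale.Agent.Lib.P183.Sem
import Mathlib.Data.Nat.Bitwise

/-!
A checker for large explicit unary algebras whose maps and labellings are stored as digit strings
of big numbers, with certificates for the principal closures, and its soundness proof.
-/

namespace Vale.Agent.Lib.P183.Fast

/-- digit `i` of `N`, in base `2 ^ w`, where `mk = 2 ^ w - 1` -/
def dig (w mk N i : Nat) : Nat := Nat.land (Nat.shiftRight N (Nat.mul w i)) mk

/-- image of the point `x` under the map coded by `f` -/
def ap (n w mk f x : Nat) : Nat := Nat.mod (dig w mk f x) n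

theorem ap_lt {n w mk f x : Nat} (hn : 0 < n) : ap n w mk f x < n := Nat.mod_lt _ hn

/-- all `p < n` satisfy `P` -/
noncomputable def allB (P : Nat → Bool) (n : Nat) : Bool :=
  Nat.rec true (fun k ih => cond (P k) ih false) n

theorem allB_succ (P : Nat → Bool) (k : Nat) : allB P (k + 1) = cond (P k) (allB P k) false := rfl

theorem allB_spec {P : Nat → Bool} {n : Nat} (h : allB P n = true) {p : Nat} (hp : p < n) :
    P p = true := by
  induction n with
  | zero => omega
  | succ k ih =>
    rw [allB_succ] at h
    cases hk : P k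
    · rw [hk] at h; simp at h
    · rw [hk] at h
      by_cases hpk : p = k
      · subst hpk; exact hk
      · exact ih h (by omega)

/-- test of bit `p` of `C` -/
def isSet (C p : Nat) : Bool := Nat.beq (Nat.land (Nat.shiftRight C p) 1) 1

/-- set bit `p` of `C` -/
def setBit (C p : Nat) : Nat := Nat.lor C (Nat.shiftLeft 1 p)

/-- the number with bits `0, ..., n-1` set -/
def fullM (n : Nat) : Nat := Nat.sub (Nat.shiftLeft 1 n) 1

theorem isSet_iff (C p : Nat) : isSet C p = true ↔ C.testBit p = true := by
  have h1 : Nat.land (Nat.shiftRight C p) 1 = (C >>> p) % 2 := by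
    show (C >>> p) &&& 1 = _
    exact Nat.and_one_is_mod _
  simp only [isSet, h1, Nat.beq_eq, Nat.testBit_eq_decide_div_mod_eq, Nat.shiftRight_eq_div_pow]
  simp

theorem isSet_setBit {C v q : Nat} (h : isSet (setBit C v) q = true) :
    isSet C q = true ∨ q = v := by
  rw [isSet_iff] at h ⊢
  have h2 : setBit C v = C ||| 2 ^ v := by
    show C ||| (1 <<< v) = _
    rw [Nat.one_shiftLeft]
  rw [h2, Nat.testBit_or, Bool.or_eq_true, Nat.testBit_two_pow] at h
  rcases h with h | h
  · exact Or.inl h
  · right
    have : v = q := by simpa using h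
    exact this.symm

theorem isSet_full {n q : Nat} (hq : q < n) : isSet (fullM n) q = true := by
  rw [isSet_iff]
  have h2 : fullM n = 2 ^ n - 1 := by
    show (1 <<< n) - 1 = _
    rw [Nat.one_shiftLeft]
  rw [h2, Nat.testBit_two_pow_sub_one]
  simpa using hq

/-- list lookup with default `0` -/
noncomputable def getN (l : List Nat) : Nat → Nat :=
  List.rec (fun _ => 0) (fun a _ ih i => Nat.rec a (fun j _ => ih j) i) l

theorem getN_cons_zero (a : Nat) (t : List Nat) : getN (a :: t) 0 = a := rfl
theorem getN_cons_succ (a : Nat) (t : List Nat) (i : Nat) : getN (a :: t) (i + 1) = getN t i := rfl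

theorem getN_mem {l : List Nat} {i : Nat} (h : i < l.length) : getN l i ∈ l := by
  induction l generalizing i with
  | nil => simp at h
  | cons a t ih =>
    cases i with
    | zero => simp [getN_cons_zero]
    | succ i =>
      rw [getN_cons_succ]
      exact List.mem_cons_of_mem _ (ih (by simpa using h))

theorem getN_mem_or (l : List Nat) (i : Nat) : getN l i ∈ l ∨ getN l i = 0 := by
  induction l generalizing i with
  | nil => exact Or.inr rfl
  | cons a t ih =>
    cases i with
    | zero => left; simp [getN_cons_zero]
    | succ i =>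
      rw [getN_cons_succ]
      rcases ih i with h | h
      · exact Or.inl (List.mem_cons_of_mem _ h)
      · exact Or.inr h

theorem getN_of_mem {l : List Nat} {a : Nat} (h : a ∈ l) : ∃ i, i < l.length ∧ getN l i = a := by
  induction l with
  | nil => simp at h
  | cons b t ih =>
    rcases List.mem_cons.mp h with rfl | h
    · exact ⟨0, by simp, rfl⟩
    · obtain ⟨i, hi, rfl⟩ := ih h
      exact ⟨i + 1, by simpa using hi, rfl⟩

/-- the stack machine producing pairs in the closure of a base pair: operation `B - 1` pops the
stack, any other operation applies a map to the top of the stack and pushes the result -/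
noncomputable def derive (n w mk B : Nat) (maps : List Nat) (k : Nat) :
    Nat → List (Nat × Nat) → List (Nat × Nat) → List (Nat × Nat) :=
  Nat.rec (fun _ _ O => O)
    (fun _ ih prog S O =>
      List.casesOn (motive := fun _ => List (Nat × Nat)) S O (fun top rest =>
        let op := Nat.mod prog B
        cond (Nat.beq op (Nat.sub B 1))
          (ih (Nat.div prog B) rest O)
          (let f := getN maps op
           let u := ap n w mk f top.1
           let v := ap n w mk f top.2
           cond (Nat.ble u v)
             (ih (Nat.div prog B) ((u, v) :: S) ((u, v) :: O))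
             (ih (Nat.div prog B) ((u, v) :: S) ((u, v) :: O))))) k

/-- one pass of the connection check: the bits of `C` mark points known to be related to their
label -/
noncomputable def pass (w mk θ : Nat) (l : List (Nat × Nat)) :
    Nat → List (Nat × Nat) → Nat × List (Nat × Nat) :=
  List.rec (fun C rem => (C, rem))
    (fun c _ ih C rem =>
      cond (isSet C c.1)
        (cond (isSet C c.2) (ih C rem)
          (cond (Nat.beq (dig w mk θ c.1) (dig w mk θ c.2)) (ih (setBit C c.2) rem) (ih C rem)))
        (cond (isSet C c.2)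
          (cond (Nat.beq (dig w mk θ c.1) (dig w mk θ c.2)) (ih (setBit C c.1) rem) (ih C rem))
          (ih C (c :: rem)))) l

/-- several passes -/
noncomputable def connect (w mk θ : Nat) (passes : Nat) : List (Nat × Nat) → Nat → Nat :=
  Nat.rec (fun _ C => C)
    (fun _ ih l C =>
      let r := pass w mk θ l C []
      ih r.2 r.1) passes

/-- order of labellings -/
noncomputable def leF (n w mk θ θ' : Nat) : Bool :=
  allB (fun p => Nat.beq (dig w mk θ' p) (dig w mk θ' (dig w mk θ p))) n

/-- normal form of labellings -/
noncomputable def canonF (n w mk θ : Nat) : Bool :=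
  allB (fun p => and (Nat.blt (dig w mk θ p) n)
    (Nat.beq (dig w mk θ (dig w mk θ p)) (dig w mk θ p))) n

/-- compatibility of a labelling with a map -/
noncomputable def compatF (n w mk f θ : Nat) : Bool :=
  allB (fun p => Nat.beq (dig w mk θ (ap n w mk f p))
    (dig w mk θ (ap n w mk f (dig w mk θ p)))) n

/-- the set bits of `C` are fixed points of the labelling -/
noncomputable def rootsOK (n w mk θ C : Nat) : Bool :=
  allB (fun p => cond (isSet C p) (Nat.beq (dig w mk θ p) p) true) n

/-- `g` undoes `f` -/
noncomputable def invF (n w mk f g : Nat) : Bool :=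
  allB (fun p => Nat.beq (ap n w mk g (ap n w mk f p)) p) n

/-- all data of the checker, except the closure certificates -/
structure FData where
  /-- number of points -/
  n : Nat
  /-- digit width -/
  w : Nat
  /-- digit mask -/
  msk : Nat
  /-- the maps, as digit strings -/
  maps : List Nat
  /-- the labellings, as digit strings -/
  thetas : List Nat
  /-- for each labelling, a number whose bits mark its fixed points -/
  roots : List Nat
  /-- pairs of mutually inverse maps, as digit strings -/
  invF1 : List Nat
  /-- second components of the previous pairs -/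
  invF2 : List Nat
  /-- for each point, index of an invertible map moving it closer to `0` -/
  parT : Nat
  /-- distance to `0` -/
  distT : Nat
  /-- for each point, index of a map fixing `0` and moving it closer to a base point;
  an index out of range marks the base points -/
  parS : Nat
  /-- rank in the reduction of the pairs `(0, y)` -/
  distS : Nat
  /-- for each point `y`, index of the labelling generated by the pair `(0, y)` -/
  rho : Nat
  /-- the base points with a full closure certificate -/
  ys : List Nat
  /-- the base points with a reduction certificate -/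
  rys : List Nat

/-- a certificate for the closure of the pair `(0, y)`. -/
structure Cert where
  /-- the second point of the base pair -/
  y : Nat
  /-- number of operations of the program -/
  steps : Nat
  /-- the program, as a digit string -/
  prog : Nat
  /-- number of passes of the connection check -/
  passes : Nat

/-- a certificate that the pair `(0, y)` generates the pair `(0, y2)`. -/
structure RCert where
  /-- the second point of the base pair -/
  y : Nat
  /-- the second point of the target pair -/
  y2 : Nat
  /-- number of operations of the program -/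
  steps : Nat
  /-- the program, as a digit string -/
  prog : Nat
  /-- number of passes of the connection check -/
  passes : Nat

/-- membership test -/
noncomputable def memN (a : Nat) (l : List Nat) : Bool :=
  List.rec false (fun b _ ih => cond (Nat.beq a b) true ih) l

theorem memN_spec {a : Nat} {l : List Nat} (h : memN a l = true) : a ∈ l := by
  induction l with
  | nil => exact absurd h (by simp [memN])
  | cons b t ih =>
    have h1 : memN a (b :: t) = cond (Nat.beq a b) true (memN a t) := rfl
    rw [h1] at h
    cases hb : Nat.beq a b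
    · rw [hb] at h
      exact List.mem_cons_of_mem _ (ih h)
    · have : a = b := Nat.eq_of_beq_eq_true hb
      simp [this]

/-- check of one closure certificate -/
noncomputable def certOK (D : FData) (c : Cert) : Bool :=
  let j := dig D.w D.msk D.rho c.y
  Nat.beq
    (connect D.w D.msk (getN D.thetas j) c.passes
      (derive D.n D.w D.msk (D.maps.length + 1) D.maps c.steps c.prog [(0, c.y)] [(0, c.y)])
      (getN D.roots j))
    (fullM D.n)

/-- check of one reduction certificate -/
noncomputable def rcertOK (D : FData) (c : RCert) : Bool :=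
  and (Nat.blt (dig D.w D.msk D.distS c.y2) (dig D.w D.msk D.distS c.y))
    (and (Nat.beq (dig D.w D.msk D.rho c.y2) (dig D.w D.msk D.rho c.y))
      (and (Nat.blt 0 c.y2) (and (Nat.blt c.y2 D.n)
        (isSet (connect D.w D.msk 0 c.passes
          (derive D.n D.w D.msk (D.maps.length + 1) D.maps c.steps c.prog [(0, c.y)] [(0, c.y)]) 1)
          c.y2))))

/-- the labelling attached to each point contains the pair `(0, y)` -/
noncomputable def rhoOK (D : FData) : Bool :=
  allB (fun y =>
    cond (Nat.beq y 0) true
      (let j := dig D.w D.msk D.rho y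
       and (Nat.blt j D.thetas.length)
        (Nat.beq (dig D.w D.msk (getN D.thetas j) 0) (dig D.w D.msk (getN D.thetas j) y)))) D.n

/-- the checks on labellings only -/
noncomputable def labelsOK (D : FData) : Bool :=
  and (Nat.blt 0 D.n)
    (allB (fun i => and (canonF D.n D.w D.msk (getN D.thetas i))
      (rootsOK D.n D.w D.msk (getN D.thetas i) (getN D.roots i))) D.thetas.length)

/-- the labelling of index `0` is the identity -/
noncomputable def idOK (D : FData) : Bool :=
  and (Nat.blt 0 D.thetas.length)
    (allB (fun p => Nat.beq (dig D.w D.msk (getN D.thetas 0) p) p) D.n)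

/-- compatibility of all labellings with the map of index `i` -/
noncomputable def compatAt (D : FData) (i : Nat) : Bool :=
  allB (fun j => compatF D.n D.w D.msk (getN D.maps i) (getN D.thetas j)) D.thetas.length

/-- the invertibility data -/
noncomputable def invOK (D : FData) : Bool :=
  allB (fun i => and (memN (getN D.invF1 i) D.maps) (and (memN (getN D.invF2 i) D.maps)
    (invF D.n D.w D.msk (getN D.invF1 i) (getN D.invF2 i)))) D.invF1.length

/-- the first tree: every point is moved to `0` by invertible maps -/
noncomputable def treeT (D : FData) : Bool :=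
  allB (fun x =>
    cond (Nat.beq x 0) true
      (let i := dig D.w D.msk D.parT x
       and (Nat.blt i D.invF1.length)
        (Nat.blt (dig D.w D.msk D.distT (ap D.n D.w D.msk (getN D.invF1 i) x))
          (dig D.w D.msk D.distT x)))) D.n

/-- the second tree: every point is moved to a base point by maps fixing `0` -/
noncomputable def treeS (D : FData) : Bool :=
  allB (fun y =>
    cond (Nat.beq y 0) true
      (let i := dig D.w D.msk D.parS y
       cond (Nat.blt i D.maps.length)
        (let z := ap D.n D.w D.msk (getN D.maps i) y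
         and (Nat.beq (ap D.n D.w D.msk (getN D.maps i) 0) 0)
          (and (Nat.blt 0 z)
            (and (Nat.blt (dig D.w D.msk D.distS z) (dig D.w D.msk D.distS y))
              (Nat.beq (dig D.w D.msk D.rho z) (dig D.w D.msk D.rho y)))))
        (or (memN y D.ys) (memN y D.rys)))) D.n

/-- the list of pairs coding the union of two labellings -/
noncomputable def pairsOf (n w mk θ t : Nat) : List (Nat × Nat) :=
  Nat.rec [] (fun p ih => (p, dig w mk θ p) :: (p, dig w mk t p) :: ih) n

/-- the labelling `θk` is the join of `θi` and `θj` -/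
noncomputable def joinF (D : FData) (i j k passes : Nat) : Bool :=
  let θk := getN D.thetas k
  and (Nat.blt k D.thetas.length)
    (and (leF D.n D.w D.msk (getN D.thetas i) θk)
      (and (leF D.n D.w D.msk (getN D.thetas j) θk)
        (Nat.beq (connect D.w D.msk θk passes
          (pairsOf D.n D.w D.msk (getN D.thetas i) (getN D.thetas j)) (getN D.roots k))
          (fullM D.n))))

/-- search of a join certificate in a list `[i, j, k, passes, ...]` -/
noncomputable def joinIn (D : FData) (i j : Nat) : List (Nat × Nat × Nat × Nat) → Bool :=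
  fun l => List.rec false
    (fun c _ ih => cond (and (Nat.beq c.1 i) (Nat.beq c.2.1 j))
      (joinF D i j c.2.2.1 c.2.2.2) ih) l

/-- all pairs of labellings with `j < i` are comparable or have a checked join -/
noncomputable def joinsOK (D : FData) (rel : Nat → Nat → Bool)
    (l : List (Nat × Nat × Nat × Nat)) : Bool :=
  allB (fun i => allB (fun j => cond (rel i j) true (cond (rel j i) true (joinIn D i j l))) i)
    D.thetas.length

/-- equality of Booleans -/
def eqBool (a b : Bool) : Bool := cond a b (not b)

/-- the order of the labellings is the given relation -/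
noncomputable def orderOK (D : FData) (rel : Nat → Nat → Bool) : Bool :=
  allB (fun i => allB (fun j =>
    eqBool (rel i j) (leF D.n D.w D.msk (getN D.thetas i) (getN D.thetas j)))
      D.thetas.length) D.thetas.length


section Sound

variable {n : Nat}

/-- relation on natural numbers induced by a setoid on `Fin n` -/
def PP (r : Setoid (Fin n)) (p q : Nat) : Prop :=
  ∃ (hp : p < n) (hq : q < n), r.r ⟨p, hp⟩ ⟨q, hq⟩

theorem PP.symm {r : Setoid (Fin n)} {p q : Nat} (h : PP r p q) : PP r q p := by
  obtain ⟨hp, hq, h⟩ := h
  exact ⟨hq, hp, r.symm' h⟩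

theorem PP.trans {r : Setoid (Fin n)} {p q s : Nat} (h : PP r p q) (h' : PP r q s) : PP r p s := by
  obtain ⟨hp, hq, h⟩ := h
  obtain ⟨hq', hs, h'⟩ := h'
  exact ⟨hp, hs, r.trans' h h'⟩

theorem PP.refl {r : Setoid (Fin n)} {p : Nat} (hp : p < n) : PP r p p :=
  ⟨hp, hp, r.refl' _⟩

/-- the map on `Fin n` coded by a digit string -/
def toMap (hn : 0 < n) (w mk f : Nat) : Fin n → Fin n :=
  fun x => ⟨ap n w mk f x.val, ap_lt hn⟩

/-- the equivalence relation on `Fin n` coded by a labelling -/
def labS (n w mk θ : Nat) : Setoid (Fin n) :=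
  Setoid.ker (fun x : Fin n => dig w mk θ x.val)

/-- `r` is compatible with the maps of the list -/
def CompatAll (hn : 0 < n) (w mk : Nat) (maps : List Nat) (r : Setoid (Fin n)) : Prop :=
  ∀ f ∈ maps, ∀ x y, r.r x y → r.r (toMap hn w mk f x) (toMap hn w mk f y)

theorem PP_ap {hn : 0 < n} {w mk : Nat} {maps : List Nat} {r : Setoid (Fin n)}
    (hr : CompatAll hn w mk maps r) {f : Nat} (hf : f ∈ maps) {p q : Nat} (h : PP r p q) :
    PP r (ap n w mk f p) (ap n w mk f q) := by
  obtain ⟨hp, hq, h⟩ := h
  exact ⟨ap_lt hn, ap_lt hn, hr f hf _ _ h⟩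

theorem dig_zero (w mk x : Nat) : dig w mk 0 x = 0 := by
  show (0 >>> (w * x)) &&& mk = 0
  simp

theorem PP_ap_getN {hn : 0 < n} {w mk : Nat} {maps : List Nat} {r : Setoid (Fin n)}
    (hr : CompatAll hn w mk maps r) (op : Nat) {p q : Nat} (h : PP r p q) :
    PP r (ap n w mk (getN maps op) p) (ap n w mk (getN maps op) q) := by
  rcases getN_mem_or maps op with h1 | h1
  · exact PP_ap hr h1 h
  · rw [h1]
    have h2 : ∀ x, ap n w mk 0 x = 0 := by
      intro x
      show Nat.mod (dig w mk 0 x) n = 0
      rw [dig_zero]
      exact Nat.zero_mod n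
    rw [h2, h2]
    exact PP.refl hn

theorem derive_spec {hn : 0 < n} {w mk : Nat} {maps : List Nat} {r : Setoid (Fin n)}
    (hr : CompatAll hn w mk maps r) (B : Nat) :
    ∀ (k prog : Nat) (S O : List (Nat × Nat)), (∀ c ∈ S, PP r c.1 c.2) → (∀ c ∈ O, PP r c.1 c.2) →
      ∀ c ∈ derive n w mk B maps k prog S O, PP r c.1 c.2 := by
  intro k
  induction k with
  | zero => intro prog S O _ hO; exact hO
  | succ k ih =>
    intro prog S O hS hO
    have h1 : derive n w mk B maps (k + 1) prog S O = List.casesOn (motive := fun _ => List (Nat × Nat)) S O (fun top rest =>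
        let op := Nat.mod prog B
        cond (Nat.beq op (Nat.sub B 1))
          (derive n w mk B maps k (Nat.div prog B) rest O)
          (let f := getN maps op
           let u := ap n w mk f top.1
           let v := ap n w mk f top.2
           cond (Nat.ble u v)
             (derive n w mk B maps k (Nat.div prog B) ((u, v) :: top :: rest) ((u, v) :: O))
             (derive n w mk B maps k (Nat.div prog B) ((u, v) :: top :: rest) ((u, v) :: O)))) := by
      cases S <;> rfl
    rw [h1]
    cases S with
    | nil => exact hO
    | cons top rest =>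
      have htop : PP r top.1 top.2 := hS top (by simp)
      have hrest : ∀ c ∈ rest, PP r c.1 c.2 := fun c hc => hS c (by simp [hc])
      show ∀ c ∈ cond (Nat.beq (Nat.mod prog B) (Nat.sub B 1))
          (derive n w mk B maps k (Nat.div prog B) rest O)
          (cond (Nat.ble (ap n w mk (getN maps (Nat.mod prog B)) top.1) (ap n w mk (getN maps (Nat.mod prog B)) top.2))
             (derive n w mk B maps k (Nat.div prog B) ((ap n w mk (getN maps (Nat.mod prog B)) top.1, ap n w mk (getN maps (Nat.mod prog B)) top.2) :: top :: rest) ((ap n w mk (getN maps (Nat.mod prog B)) top.1, ap n w mk (getN maps (Nat.mod prog B)) top.2) :: O))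
             (derive n w mk B maps k (Nat.div prog B) ((ap n w mk (getN maps (Nat.mod prog B)) top.1, ap n w mk (getN maps (Nat.mod prog B)) top.2) :: top :: rest) ((ap n w mk (getN maps (Nat.mod prog B)) top.1, ap n w mk (getN maps (Nat.mod prog B)) top.2) :: O))), PP r c.1 c.2
      have huv := PP_ap_getN hr (Nat.mod prog B) htop
      have hS' : ∀ c ∈ ((ap n w mk (getN maps (Nat.mod prog B)) top.1, ap n w mk (getN maps (Nat.mod prog B)) top.2) :: top :: rest), PP r c.1 c.2 := by
        intro c hc
        rcases List.mem_cons.mp hc with rfl | hc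
        · exact huv
        · exact hS c hc
      have hO' : ∀ c ∈ ((ap n w mk (getN maps (Nat.mod prog B)) top.1, ap n w mk (getN maps (Nat.mod prog B)) top.2) :: O), PP r c.1 c.2 := by
        intro c hc
        rcases List.mem_cons.mp hc with rfl | hc
        · exact huv
        · exact hO c hc
      cases Nat.beq (Nat.mod prog B) (Nat.sub B 1)
      · cases Nat.ble (ap n w mk (getN maps (Nat.mod prog B)) top.1) (ap n w mk (getN maps (Nat.mod prog B)) top.2)
        · exact ih _ _ _ hS' hO'
        · exact ih _ _ _ hS' hO'
      · exact ih _ _ _ hrest hO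

/-- invariant of the connection check -/
def ConnInv (r : Setoid (Fin n)) (w mk θ C : Nat) : Prop :=
  ∀ p, p < n → isSet C p = true → PP r p (dig w mk θ p)

theorem ConnInv_set {r : Setoid (Fin n)} {w mk θ C : Nat} (h : ConnInv r w mk θ C) {u v : Nat}
    (hu : u < n) (huv : PP r u v) (hset : isSet C u = true)
    (heq : dig w mk θ u = dig w mk θ v) : ConnInv r w mk θ (setBit C v) := by
  intro p hp hs
  rcases isSet_setBit hs with h1 | h1
  · exact h p hp h1
  · subst h1
    rw [← heq]
    exact huv.symm.trans (h u hu hset)

theorem pass_spec {r : Setoid (Fin n)} {w mk θ : Nat} :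
    ∀ (l : List (Nat × Nat)), (∀ c ∈ l, PP r c.1 c.2) →
      ∀ (C : Nat) (rem : List (Nat × Nat)), ConnInv r w mk θ C → (∀ c ∈ rem, PP r c.1 c.2) →
      ConnInv r w mk θ (pass w mk θ l C rem).1 ∧ ∀ c ∈ (pass w mk θ l C rem).2, PP r c.1 c.2 := by
  intro l
  induction l with
  | nil => intro _ C rem hC hrem; exact ⟨hC, hrem⟩
  | cons c t ih =>
    intro hl C rem hC hrem
    have hc : PP r c.1 c.2 := hl c (by simp)
    have ht : ∀ c ∈ t, PP r c.1 c.2 := fun d hd => hl d (by simp [hd])
    have hunf : pass w mk θ (c :: t) C rem = cond (isSet C c.1)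
        (cond (isSet C c.2) (pass w mk θ t C rem)
          (cond (Nat.beq (dig w mk θ c.1) (dig w mk θ c.2)) (pass w mk θ t (setBit C c.2) rem) (pass w mk θ t C rem)))
        (cond (isSet C c.2)
          (cond (Nat.beq (dig w mk θ c.1) (dig w mk θ c.2)) (pass w mk θ t (setBit C c.1) rem) (pass w mk θ t C rem))
          (pass w mk θ t C (c :: rem))) := rfl
    rw [hunf]
    cases h1 : isSet C c.1 <;> cases h2 : isSet C c.2 <;> simp only [cond_true, cond_false]
    · refine ih ht _ _ hC ?_
      intro d hd
      rcases List.mem_cons.mp hd with rfl | hd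
      · exact hc
      · exact hrem d hd
    · cases h3 : Nat.beq (dig w mk θ c.1) (dig w mk θ c.2) <;> simp only [cond_true, cond_false]
      · exact ih ht _ _ hC hrem
      · refine ih ht _ _ ?_ hrem
        exact ConnInv_set hC hc.2.1 hc.symm h2 (Nat.eq_of_beq_eq_true h3).symm
    · cases h3 : Nat.beq (dig w mk θ c.1) (dig w mk θ c.2) <;> simp only [cond_true, cond_false]
      · exact ih ht _ _ hC hrem
      · refine ih ht _ _ ?_ hrem
        exact ConnInv_set hC hc.1 hc h1 (Nat.eq_of_beq_eq_true h3)
    · exact ih ht _ _ hC hrem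

theorem connect_spec {r : Setoid (Fin n)} {w mk θ : Nat} :
    ∀ (passes : Nat) (l : List (Nat × Nat)) (C : Nat), (∀ c ∈ l, PP r c.1 c.2) →
      ConnInv r w mk θ C → ConnInv r w mk θ (connect w mk θ passes l C) := by
  intro passes
  induction passes with
  | zero => intro l C _ hC; exact hC
  | succ k ih =>
    intro l C hl hC
    have h := pass_spec (r := r) (w := w) (mk := mk) (θ := θ) l hl C [] hC (by simp)
    exact ih _ _ h.2 h.1

/-- a full connection check gives the order of setoids -/
theorem le_of_connect {r : Setoid (Fin n)} {w mk θ passes C : Nat} {l : List (Nat × Nat)}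
    (hl : ∀ c ∈ l, PP r c.1 c.2) (hC : ConnInv r w mk θ C)
    (hfull : Nat.beq (connect w mk θ passes l C) (fullM n) = true) :
    labS n w mk θ ≤ r := by
  have h := connect_spec passes l C hl hC
  rw [Nat.eq_of_beq_eq_true hfull] at h
  intro x y hxy
  have h1 := h x.val x.isLt (isSet_full x.isLt)
  have h2 := h y.val y.isLt (isSet_full y.isLt)
  have h3 : dig w mk θ x.val = dig w mk θ y.val := hxy
  rw [h3] at h1
  obtain ⟨_, _, h4⟩ := h1.trans h2.symm
  exact h4

/-- the initial value of the connection check -/
theorem ConnInv_roots {r : Setoid (Fin n)} {w mk θ C : Nat} (h : rootsOK n w mk θ C = true) :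
    ConnInv r w mk θ C := by
  intro p hp hs
  have := allB_spec h hp
  rw [hs] at this
  have h2 : dig w mk θ p = p := Nat.eq_of_beq_eq_true this
  rw [h2]
  exact PP.refl hp

theorem leF_sound {w mk θ θ' : Nat} (h : leF n w mk θ θ' = true) : labS n w mk θ ≤ labS n w mk θ' := by
  intro x y hxy
  have hx := allB_spec h x.isLt
  have hy := allB_spec h y.isLt
  have hx' := Nat.eq_of_beq_eq_true hx
  have hy' := Nat.eq_of_beq_eq_true hy
  have hxy' : dig w mk θ x.val = dig w mk θ y.val := hxy
  show dig w mk θ' x.val = dig w mk θ' y.val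
  rw [hx', hy', hxy']

theorem canon_parts {w mk θ : Nat} (h : canonF n w mk θ = true) {p : Nat} (hp : p < n) :
    dig w mk θ p < n ∧ dig w mk θ (dig w mk θ p) = dig w mk θ p := by
  have := allB_spec h hp
  simp only [Bool.and_eq_true, Nat.blt_eq, Nat.beq_eq] at this
  exact this

theorem leF_complete {w mk θ θ' : Nat} (hc : canonF n w mk θ = true)
    (h : labS n w mk θ ≤ labS n w mk θ') : leF n w mk θ θ' = true := by
  have key : ∀ m, m ≤ n → allB (fun p => Nat.beq (dig w mk θ' p) (dig w mk θ' (dig w mk θ p))) m = true := by
    intro m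
    induction m with
    | zero => intro _; rfl
    | succ k ih =>
      intro hk
      rw [allB_succ]
      have hkn : k < n := by omega
      obtain ⟨h1, h2⟩ := canon_parts hc hkn
      have h3 : (labS n w mk θ).r ⟨k, hkn⟩ ⟨dig w mk θ k, h1⟩ := by
        show dig w mk θ k = dig w mk θ (dig w mk θ k)
        exact h2.symm
      have h4 := h h3
      have h5 : dig w mk θ' k = dig w mk θ' (dig w mk θ k) := h4
      have h6 : Nat.beq (dig w mk θ' k) (dig w mk θ' (dig w mk θ k)) = true := by
        rw [← h5]; exact Nat.beq_refl _
      rw [h6]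
      exact ih (by omega)
  exact key n le_rfl

theorem compatF_sound {hn : 0 < n} {w mk f θ : Nat} (h : compatF n w mk f θ = true) (x y : Fin n)
    (hxy : (labS n w mk θ).r x y) :
    (labS n w mk θ).r (toMap hn w mk f x) (toMap hn w mk f y) := by
  have hx := Nat.eq_of_beq_eq_true (allB_spec h x.isLt)
  have hy := Nat.eq_of_beq_eq_true (allB_spec h y.isLt)
  have hxy' : dig w mk θ x.val = dig w mk θ y.val := hxy
  show dig w mk θ (ap n w mk f x.val) = dig w mk θ (ap n w mk f y.val)
  rw [hx, hy, hxy']

/-- relating points through a labelling and a compatible map -/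
theorem compatF_lab {w mk f θ p q : Nat} (hn : 0 < n) (hp : p < n) (hq : q < n) (h : compatF n w mk f θ = true)
    (heq : dig w mk θ p = dig w mk θ q) :
    dig w mk θ (ap n w mk f p) = dig w mk θ (ap n w mk f q) := by
  have := compatF_sound (hn := hn) h ⟨p, hp⟩ ⟨q, hq⟩ heq
  exact this

end Sound

section Main

variable (D : FData) (rel : Nat → Nat → Bool) (certs : List Cert) (rcerts : List RCert)

/-- the full list of facts established by the checker -/
structure GoodF : Prop where
  labels : labelsOK D = true
  ident : idOK D = true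
  compat : ∀ i, i < D.maps.length → compatAt D i = true
  invs : invOK D = true
  treeT : treeT D = true
  treeS : treeS D = true
  order : orderOK D rel = true
  joins : ∃ l, joinsOK D rel l = true
  hcerts : ∀ c ∈ certs, certOK D c = true
  hrcerts : ∀ c ∈ rcerts, rcertOK D c = true
  ys : D.ys = certs.map Cert.y
  rys : D.rys = rcerts.map RCert.y
  hrho : rhoOK D = true

variable {D rel certs rcerts}

/-- the map list entry from index -/
theorem compat_all (h : GoodF D rel certs rcerts) {f θ : Nat} (hf : f ∈ D.maps) (hθ : θ ∈ D.thetas) :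
    compatF D.n D.w D.msk f θ = true := by
  obtain ⟨i, hi, rfl⟩ := getN_of_mem hf
  obtain ⟨j, hj, rfl⟩ := getN_of_mem hθ
  exact allB_spec (h.compat i hi) hj

theorem labels_parts (h : GoodF D rel certs rcerts) :
    0 < D.n ∧ ∀ j, j < D.thetas.length →
      canonF D.n D.w D.msk (getN D.thetas j) = true ∧
      rootsOK D.n D.w D.msk (getN D.thetas j) (getN D.roots j) = true := by
  have := h.labels
  simp only [labelsOK, Bool.and_eq_true, Nat.blt_eq] at this
  refine ⟨this.1, fun j hj => ?_⟩
  have h2 := allB_spec this.2 hj
  simpa only [Bool.and_eq_true] using h2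

theorem inv_parts (h : GoodF D rel certs rcerts) {i : Nat} (hi : i < D.invF1.length) :
    getN D.invF1 i ∈ D.maps ∧ getN D.invF2 i ∈ D.maps ∧
      ∀ p, p < D.n → ap D.n D.w D.msk (getN D.invF2 i) (ap D.n D.w D.msk (getN D.invF1 i) p) = p := by
  have := allB_spec h.invs hi
  simp only [Bool.and_eq_true] at this
  refine ⟨memN_spec this.1, memN_spec this.2.1, fun p hp => ?_⟩
  exact Nat.eq_of_beq_eq_true (allB_spec this.2.2 hp)

/-- The closure fact from a certificate. -/
theorem cert_fact (h : GoodF D rel certs rcerts) {hn : 0 < D.n} {r : Setoid (Fin D.n)}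
    (hr : CompatAll hn D.w D.msk D.maps r) {c : Cert} (hc : c ∈ certs) (hpp : PP r 0 c.y)
    (hj : dig D.w D.msk D.rho c.y < D.thetas.length) :
    labS D.n D.w D.msk (getN D.thetas (dig D.w D.msk D.rho c.y)) ≤ r := by
  have h3 := h.hcerts c hc
  have hroot := ((labels_parts h).2 _ hj).2
  refine le_of_connect ?_ (ConnInv_roots hroot) h3
  apply derive_spec hr
  · intro d hd
    rcases List.mem_singleton.mp hd with rfl
    exact hpp
  · intro d hd
    rcases List.mem_singleton.mp hd with rfl
    exact hpp

theorem isSet_one {p : Nat} (h : isSet 1 p = true) : p = 0 := by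
  rw [isSet_iff, Nat.testBit_one_eq_true_iff_self_eq_zero] at h
  exact h

/-- the fact from a reduction certificate -/
theorem rcert_fact (h : GoodF D rel certs rcerts) {hn : 0 < D.n} {r : Setoid (Fin D.n)}
    (hr : CompatAll hn D.w D.msk D.maps r) {c : RCert} (hc : c ∈ rcerts) (hpp : PP r 0 c.y) :
    dig D.w D.msk D.distS c.y2 < dig D.w D.msk D.distS c.y ∧
      dig D.w D.msk D.rho c.y2 = dig D.w D.msk D.rho c.y ∧ 0 < c.y2 ∧ c.y2 < D.n ∧ PP r 0 c.y2 := by
  have h1 := h.hrcerts c hc
  simp only [rcertOK, Bool.and_eq_true, Nat.blt_eq] at h1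
  obtain ⟨h2, h3, h4, h5, h6⟩ := h1
  refine ⟨h2, Nat.eq_of_beq_eq_true h3, h4, h5, ?_⟩
  have hC : ConnInv r D.w D.msk 0 1 := by
    intro p hp hs
    have := isSet_one hs
    subst this
    rw [dig_zero]
    exact PP.refl hn
  have hl : ∀ d ∈ derive D.n D.w D.msk (D.maps.length + 1) D.maps c.steps c.prog [(0, c.y)] [(0, c.y)],
      PP r d.1 d.2 := by
    apply derive_spec hr
    · intro d hd
      rcases List.mem_singleton.mp hd with rfl
      exact hpp
    · intro d hd
      rcases List.mem_singleton.mp hd with rfl
      exact hpp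
  have h7 := connect_spec c.passes _ 1 hl hC
  have h8 := h7 c.y2 h5 h6
  rw [dig_zero] at h8
  exact h8.symm

theorem rho_parts (h : GoodF D rel certs rcerts) {y : Nat} (hy : y < D.n) (hy0 : y ≠ 0) :
    dig D.w D.msk D.rho y < D.thetas.length ∧
      dig D.w D.msk (getN D.thetas (dig D.w D.msk D.rho y)) 0 =
        dig D.w D.msk (getN D.thetas (dig D.w D.msk D.rho y)) y := by
  have hb0 : Nat.beq y 0 = false := by
    cases hb : Nat.beq y 0
    · rfl
    · exact absurd (Nat.eq_of_beq_eq_true hb) hy0
  have hs := allB_spec h.hrho hy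
  simp only [hb0, cond_false, Bool.and_eq_true, Nat.blt_eq] at hs
  exact ⟨hs.1, Nat.eq_of_beq_eq_true hs.2⟩

/-- facts for pairs `(0, y)` -/
theorem fact_zero_aux (h : GoodF D rel certs rcerts) {hn : 0 < D.n} {r : Setoid (Fin D.n)}
    (hr : CompatAll hn D.w D.msk D.maps r) :
    ∀ (N y : Nat), dig D.w D.msk D.distS y < N → y < D.n → y ≠ 0 → PP r 0 y →
      labS D.n D.w D.msk (getN D.thetas (dig D.w D.msk D.rho y)) ≤ r := by
  intro N
  induction N with
  | zero => intro y hN; omega
  | succ N ih =>
    intro y hN hy hy0 hpp
    have hb0 : Nat.beq y 0 = false := by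
      cases hb : Nat.beq y 0
      · rfl
      · exact absurd (Nat.eq_of_beq_eq_true hb) hy0
    have hs := allB_spec h.treeS hy
    simp only [hb0, cond_false] at hs
    cases hi : Nat.blt (dig D.w D.msk D.parS y) D.maps.length
    · rw [hi] at hs
      simp only [cond_false, Bool.or_eq_true] at hs
      rcases hs with hs | hs
      · have hmem := memN_spec hs
        rw [h.ys] at hmem
        obtain ⟨c, hc, rfl⟩ := List.mem_map.mp hmem
        exact cert_fact h hr hc hpp (rho_parts h hy hy0).1
      · have hmem := memN_spec hs
        rw [h.rys] at hmem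
        obtain ⟨c, hc, rfl⟩ := List.mem_map.mp hmem
        obtain ⟨h1, h2, h3, h4, h5⟩ := rcert_fact h hr hc hpp
        rw [← h2]
        exact ih c.y2 (by omega) h4 (by omega) h5
    · rw [hi] at hs
      simp only [cond_true, Bool.and_eq_true, Nat.blt_eq] at hs
      obtain ⟨h0, hz, hlt, hrho⟩ := hs
      have h0' := Nat.eq_of_beq_eq_true h0
      have hilt : dig D.w D.msk D.parS y < D.maps.length := by simpa using hi
      have hf := getN_mem hilt
      have hpp2 := PP_ap hr hf hpp
      rw [h0'] at hpp2
      have := ih _ (by omega) (ap_lt hn) (by omega) hpp2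
      rwa [Nat.eq_of_beq_eq_true hrho] at this

/-- facts for pairs `(0, y)` -/
theorem fact_zero (h : GoodF D rel certs rcerts) {hn : 0 < D.n} {r : Setoid (Fin D.n)}
    (hr : CompatAll hn D.w D.msk D.maps r) :
    ∀ (N y : Nat), dig D.w D.msk D.distS y < N → y < D.n → y ≠ 0 → PP r 0 y →
      ∃ j, j < D.thetas.length ∧ labS D.n D.w D.msk (getN D.thetas j) ≤ r ∧
        dig D.w D.msk (getN D.thetas j) 0 = dig D.w D.msk (getN D.thetas j) y := by
  intro N y hN hy hy0 hpp
  obtain ⟨h1, h2⟩ := rho_parts h hy hy0
  exact ⟨_, h1, fact_zero_aux h hr N y hN hy hy0 hpp, h2⟩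

/-- facts for all pairs -/
theorem fact_all (h : GoodF D rel certs rcerts) {hn : 0 < D.n} {r : Setoid (Fin D.n)}
    (hr : CompatAll hn D.w D.msk D.maps r) :
    ∀ (N x y : Nat), dig D.w D.msk D.distT x < N → x < D.n → y < D.n → x ≠ y → PP r x y →
      ∃ j, j < D.thetas.length ∧ labS D.n D.w D.msk (getN D.thetas j) ≤ r ∧
        dig D.w D.msk (getN D.thetas j) x = dig D.w D.msk (getN D.thetas j) y := by
  intro N
  induction N with
  | zero => intro x y hN; omega
  | succ N ih =>
    intro x y hN hx hy hxy hpp
    by_cases hx0 : x = 0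
    · subst hx0
      exact fact_zero h hr _ y (Nat.lt_succ_self _) hy (Ne.symm hxy) hpp
    have hb0 : Nat.beq x 0 = false := by
      cases hb : Nat.beq x 0
      · rfl
      · exact absurd (Nat.eq_of_beq_eq_true hb) hx0
    have hs := allB_spec h.treeT hx
    simp only [hb0, cond_false, Bool.and_eq_true, Nat.blt_eq] at hs
    obtain ⟨hilt, hlt⟩ := hs
    obtain ⟨hf, hg, hinv⟩ := inv_parts h hilt
    set i := dig D.w D.msk D.parT x with hidef
    set f := getN D.invF1 i with hfdef
    set g := getN D.invF2 i with hgdef
    have hfx : ap D.n D.w D.msk f x < D.n := ap_lt hn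
    have hfy : ap D.n D.w D.msk f y < D.n := ap_lt hn
    have hne : ap D.n D.w D.msk f x ≠ ap D.n D.w D.msk f y := by
      intro hz
      have h1 := hinv x hx
      rw [hz, hinv y hy] at h1
      exact hxy h1.symm
    obtain ⟨j, hj, hle, heq⟩ := ih _ _ (by omega) hfx hfy hne (PP_ap hr hf hpp)
    refine ⟨j, hj, hle, ?_⟩
    have hθ : getN D.thetas j ∈ D.thetas := getN_mem hj
    have hcg := compat_all h hg hθ
    have h3 := compatF_lab hn hfx hfy hcg heq
    rw [hinv x hx, hinv y hy] at h3
    exact h3

/-- the list of pairs of the union of two labellings -/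
theorem pairsOf_spec {n : Nat} {w mk θ t : Nat} {r : Setoid (Fin n)}
    (hθ : canonF n w mk θ = true) (ht : canonF n w mk t = true)
    (h1 : labS n w mk θ ≤ r) (h2 : labS n w mk t ≤ r) :
    ∀ c ∈ pairsOf n w mk θ t, PP r c.1 c.2 := by
  have key : ∀ m, m ≤ n → ∀ c ∈ (Nat.rec [] (fun p ih => (p, dig w mk θ p) :: (p, dig w mk t p) :: ih) m : List (Nat × Nat)), PP r c.1 c.2 := by
    intro m
    induction m with
    | zero => intro _ c hc; simp at hc
    | succ k ih =>
      intro hk c hc
      have hkn : k < n := by omega
      rcases List.mem_cons.mp hc with rfl | hc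
      · obtain ⟨h3, h4⟩ := canon_parts hθ hkn
        refine ⟨hkn, h3, h1 ?_⟩
        show dig w mk θ k = dig w mk θ (dig w mk θ k)
        exact h4.symm
      rcases List.mem_cons.mp hc with rfl | hc
      · obtain ⟨h3, h4⟩ := canon_parts ht hkn
        refine ⟨hkn, h3, h2 ?_⟩
        show dig w mk t k = dig w mk t (dig w mk t k)
        exact h4.symm
      · exact ih (by omega) c hc
  exact key n le_rfl

/-- a join certificate found in the list -/
theorem joinIn_spec {i j : Nat} {l : List (Nat × Nat × Nat × Nat)} (h : joinIn D i j l = true) :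
    ∃ k passes, joinF D i j k passes = true := by
  induction l with
  | nil => exact absurd h (by simp [joinIn])
  | cons c t ih =>
    have h1 : joinIn D i j (c :: t) = cond (and (Nat.beq c.1 i) (Nat.beq c.2.1 j))
      (joinF D i j c.2.2.1 c.2.2.2) (joinIn D i j t) := rfl
    rw [h1] at h
    cases hb : and (Nat.beq c.1 i) (Nat.beq c.2.1 j)
    · rw [hb] at h
      exact ih h
    · rw [hb] at h
      exact ⟨_, _, h⟩

/-- the order of labellings, as setoids -/
theorem rel_iff (h : GoodF D rel certs rcerts) {i j : Nat} (hi : i < D.thetas.length) (hj : j < D.thetas.length) :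
    rel i j = true ↔ labS D.n D.w D.msk (getN D.thetas i) ≤ labS D.n D.w D.msk (getN D.thetas j) := by
  have h1 := allB_spec (allB_spec h.order hi) hj
  have h2 := ((labels_parts h).2 i hi).1
  have h3 : rel i j = leF D.n D.w D.msk (getN D.thetas i) (getN D.thetas j) := by
    cases h4 : rel i j <;> cases h5 : leF D.n D.w D.msk (getN D.thetas i) (getN D.thetas j) <;>
      simp [eqBool, h4, h5] at h1 ⊢
  rw [h3]
  exact ⟨leF_sound, leF_complete h2⟩

/-- joins of listed labellings below a relation -/
theorem join_below (h : GoodF D rel certs rcerts) {i j : Nat} (hi : i < D.thetas.length) (hj : j < D.thetas.length)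
    {r : Setoid (Fin D.n)} (h1 : labS D.n D.w D.msk (getN D.thetas i) ≤ r)
    (h2 : labS D.n D.w D.msk (getN D.thetas j) ≤ r) :
    ∃ k, k < D.thetas.length ∧ labS D.n D.w D.msk (getN D.thetas k) ≤ r ∧
      labS D.n D.w D.msk (getN D.thetas i) ≤ labS D.n D.w D.msk (getN D.thetas k) ∧
      labS D.n D.w D.msk (getN D.thetas j) ≤ labS D.n D.w D.msk (getN D.thetas k) := by
  -- the case `j < i`
  have main : ∀ {i j : Nat}, i < D.thetas.length → j < i →
      labS D.n D.w D.msk (getN D.thetas i) ≤ r → labS D.n D.w D.msk (getN D.thetas j) ≤ r →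
      ∃ k, k < D.thetas.length ∧ labS D.n D.w D.msk (getN D.thetas k) ≤ r ∧
        labS D.n D.w D.msk (getN D.thetas i) ≤ labS D.n D.w D.msk (getN D.thetas k) ∧
        labS D.n D.w D.msk (getN D.thetas j) ≤ labS D.n D.w D.msk (getN D.thetas k) := by
    intro i j hi hji h1 h2
    have hj : j < D.thetas.length := by omega
    obtain ⟨l, hl⟩ := h.joins
    have h3 := allB_spec (allB_spec hl hi) hji
    cases h4 : rel i j
    · rw [h4] at h3
      simp only [cond_false] at h3
      cases h5 : rel j i
      · rw [h5] at h3
        simp only [cond_false] at h3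
        obtain ⟨k, passes, h6⟩ := joinIn_spec h3
        simp only [joinF, Bool.and_eq_true, Nat.blt_eq] at h6
        obtain ⟨hk, h7, h8, h9⟩ := h6
        refine ⟨k, hk, ?_, leF_sound h7, leF_sound h8⟩
        have hci := ((labels_parts h).2 i hi).1
        have hcj := ((labels_parts h).2 j hj).1
        have hroot := ((labels_parts h).2 k hk).2
        exact le_of_connect (pairsOf_spec hci hcj h1 h2) (ConnInv_roots hroot) h9
      · exact ⟨i, hi, h1, le_rfl, (rel_iff h hj hi).mp h5⟩
    · exact ⟨j, hj, h2, (rel_iff h hi hj).mp h4, le_rfl⟩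
  rcases lt_trichotomy i j with h3 | h3 | h3
  · obtain ⟨k, hk, h4, h5, h6⟩ := main hj h3 h2 h1
    exact ⟨k, hk, h4, h6, h5⟩
  · subst h3
    exact ⟨i, hi, h1, le_rfl, le_rfl⟩
  · exact main hi h3 h1 h2

/-- The main soundness theorem. -/
theorem realizes_of_good {m : Nat} (h : GoodF D rel certs rcerts) (hlen : D.thetas.length = m) :
    Realizes m rel := by
  subst hlen
  obtain ⟨hn, hparts⟩ := labels_parts h
  let gs : List (Fin D.n → Fin D.n) := D.maps.map (toMap hn D.w D.msk)
  have hgs : ∀ r : Setoid (Fin D.n), (∀ g ∈ gs, ∀ x y, r.r x y → r.r (g x) (g y)) →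
      CompatAll hn D.w D.msk D.maps r := by
    intro r hr f hf x y hxy
    exact hr _ (List.mem_map.mpr ⟨f, hf, rfl⟩) x y hxy
  refine ⟨D.n, hn, gs, fun i => labS D.n D.w D.msk (getN D.thetas i), ?_, ?_, ?_⟩
  · intro i hi g hg x y hxy
    obtain ⟨f, hf, rfl⟩ := List.mem_map.mp hg
    exact compatF_sound (compat_all h hf (getN_mem hi)) x y hxy
  · intro r hr
    have hcr := hgs r hr
    -- the identity labelling is below r
    have hid := h.ident
    simp only [idOK, Bool.and_eq_true, Nat.blt_eq] at hid
    have h0below : labS D.n D.w D.msk (getN D.thetas 0) ≤ r := by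
      intro x y hxy
      have hx := Nat.eq_of_beq_eq_true (allB_spec hid.2 x.isLt)
      have hy := Nat.eq_of_beq_eq_true (allB_spec hid.2 y.isLt)
      have h1 : dig D.w D.msk (getN D.thetas 0) x.val = dig D.w D.msk (getN D.thetas 0) y.val := hxy
      rw [hx, hy] at h1
      have : x = y := Fin.ext h1
      rw [this]
    -- a greatest listed labelling below r
    have key : ∀ K, K ≤ D.thetas.length → ∃ i, i < D.thetas.length ∧
        labS D.n D.w D.msk (getN D.thetas i) ≤ r ∧ ∀ j, j < K →
          labS D.n D.w D.msk (getN D.thetas j) ≤ r →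
          labS D.n D.w D.msk (getN D.thetas j) ≤ labS D.n D.w D.msk (getN D.thetas i) := by
      intro K
      induction K with
      | zero => intro _; exact ⟨0, hid.1, h0below, fun j hj => by omega⟩
      | succ K ih =>
        intro hK
        obtain ⟨i, hi, hle, hmax⟩ := ih (by omega)
        by_cases hK' : labS D.n D.w D.msk (getN D.thetas K) ≤ r
        · obtain ⟨k, hk, h1, h2, h3⟩ := join_below h hi (show K < D.thetas.length by omega) hle hK'
          refine ⟨k, hk, h1, fun j hj hjr => ?_⟩
          by_cases hjK : j = K
          · subst hjK; exact h3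
          · exact (hmax j (by omega) hjr).trans h2
        · refine ⟨i, hi, hle, fun j hj hjr => ?_⟩
          by_cases hjK : j = K
          · subst hjK; exact absurd hjr hK'
          · exact hmax j (by omega) hjr
    obtain ⟨i, hi, hle, hmax⟩ := key _ le_rfl
    refine ⟨i, hi, le_antisymm ?_ hle⟩
    intro x y hxy
    by_cases hne : x.val = y.val
    · have : x = y := Fin.ext hne
      rw [this]
    · obtain ⟨j, hj, h1, h2⟩ := fact_all h hcr _ x.val y.val (Nat.lt_succ_self _) x.isLt y.isLt hne
        ⟨x.isLt, y.isLt, hxy⟩
      exact hmax j hj h1 h2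
  · intro i j hi hj
    exact rel_iff h hi hj

end Main

end Vale.Agent.Lib.P183.Fast
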