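import Vale.Agent.Lib.P183.Fast
import Vale.Agent.Lib.P183.Classify

namespace Vale.Agent.Lib.P183.R7_0

open Vale.Agent.Lib.P183.Fast

/-- the data of the unary algebra -/
def D : FData where
  n := 16
  w := 4
  msk := 15
  maps := [6104223565573926945, 11135102092832551170, 17279546001801814785, 14978552428958823780, 17068419847527893655, 7729760175078711600]
  thetas := [18364758544493064720, 2526557943135154704, 1162775332967756304, 86184270025077264, 14757248657363566592, 3603180083355857424, 0]
  roots := [65535, 15, 15, 15, 4241, 15, 1]
  invF1 := [6104223565573926945, 11135102092832551170, 17279546001801814785, 14978552428958823780, 17068419847527893655]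
  invF2 := [11135102092832551170, 6104223565573926945, 17279546001801814785, 17068419847527893655, 14978552428958823780]
  parT := 9327377058635792
  distT := 3616990984755290384
  parS := 6148914759973885286
  distS := 1301841567622897920
  rho := 3625717801044755520
  ys := [5, 9, 6, 1, 4]
  rys := []

/-- the relation -/
def rel : Nat → Nat → Bool := relOf 7 0

/-- a closure certificate -/
def c0 : Cert := ⟨5, 12, 115329732, 1⟩
/-- a closure certificate -/
def c1 : Cert := ⟨9, 12, 115329732, 1⟩
/-- a closure certificate -/
def c2 : Cert := ⟨6, 11, 17328115, 2⟩
/-- a closure certificate -/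
def c3 : Cert := ⟨1, 11, 23092979, 2⟩
/-- a closure certificate -/
def c4 : Cert := ⟨4, 11, 17328115, 2⟩

/-- the list of closure certificates -/
def certs : List Cert := [c0, c1, c2, c3, c4]

/-- the list of reduction certificates -/
def rcerts : List RCert := []

theorem hlabels : labelsOK D = true := by decide +kernel
theorem hident : idOK D = true := by decide +kernel
theorem hcompat0 : compatAt D 0 = true := by decide +kernel
theorem hcompat1 : compatAt D 1 = true := by decide +kernel
theorem hcompat2 : compatAt D 2 = true := by decide +kernel
theorem hcompat3 : compatAt D 3 = true := by decide +kernel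
theorem hcompat4 : compatAt D 4 = true := by decide +kernel
theorem hcompat5 : compatAt D 5 = true := by decide +kernel
theorem hinvs : invOK D = true := by decide +kernel
theorem htreeT : treeT D = true := by decide +kernel
theorem htreeS : treeS D = true := by decide +kernel
theorem hrho : rhoOK D = true := by decide +kernel
theorem horder : orderOK D rel = true := by decide +kernel
theorem hjoins : joinsOK D rel [(2, 1, 6, 2), (3, 1, 6, 2), (3, 2, 6, 2), (4, 1, 6, 2), (4, 2, 6, 2), (4, 3, 6, 2), (5, 1, 6, 2), (5, 2, 6, 2), (5, 3, 6, 2), (5, 4, 6, 2)] = true := by decide +kernel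
theorem hc0 : certOK D c0 = true := by decide +kernel
theorem hc1 : certOK D c1 = true := by decide +kernel
theorem hc2 : certOK D c2 = true := by decide +kernel
theorem hc3 : certOK D c3 = true := by decide +kernel
theorem hc4 : certOK D c4 = true := by decide +kernel

theorem hcerts : ∀ c ∈ certs, certOK D c = true := by
  intro c hc
  simp only [certs, List.mem_cons, List.not_mem_nil, or_false] at hc
  rcases hc with rfl | rfl | rfl | rfl | rfl
  · exact hc0
  · exact hc1
  · exact hc2
  · exact hc3
  · exact hc4

theorem hrcerts : ∀ c ∈ rcerts, rcertOK D c = true := by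
  intro c hc
  simp [rcerts] at hc

theorem hcompat : ∀ i, i < D.maps.length → compatAt D i = true := by
  intro i hi
  have hi2 : i < 6 := hi
  match i, hi2 with
  | 0, _ => exact hcompat0
  | 1, _ => exact hcompat1
  | 2, _ => exact hcompat2
  | 3, _ => exact hcompat3
  | 4, _ => exact hcompat4
  | 5, _ => exact hcompat5

/-- the realization -/
theorem realizes : Realizes 7 rel :=
  realizes_of_good (D := D) (certs := certs) (rcerts := rcerts)
    ⟨hlabels, hident, hcompat, hinvs, htreeT, htreeS, horder, ⟨_, hjoins⟩, hcerts, hrcerts, rfl, rfl, hrho⟩ rfl

end Vale.Agent.Lib.P183.R7_0
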