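import Vale.Agent.Lib.P183.Fast
import Vale.Agent.Lib.P183.Classify

namespace Vale.Agent.Lib.P183.R7_10

open Vale.Agent.Lib.P183.Fast

/-- the data of the unary algebra -/
def D : FData where
  n := 32
  w := 5
  msk := 31
  maps := [1415692895568631373389430024791457701283719351297, 1365874377081047306436322896569081520303282094178, 991564374734010686162185070664829243645896071396, 1227155606562789854817254638675994637682952314020, 1180145590852214217657948842264545014603405633896, 615785309395498677884090565958970838178886356032, 188396875106276606048489772093411533223591149700]
  thetas := [1459980823972598128486511383358617792788444579872, 1520855594438431437600722648759976273134061600, 1271400147387352033419688930287233008411542128672, 95627080404879166010268454952237713830252218400, 1131485138578420522997488612477451777078407987200, 139915008808931510422200317809781231333134141472, 0]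
  roots := [4294967295, 255, 252645135, 15, 16843009, 15, 1]
  invF1 := [1415692895568631373389430024791457701283719351297, 1365874377081047306436322896569081520303282094178, 991564374734010686162185070664829243645896071396, 1227155606562789854817254638675994637682952314020, 1180145590852214217657948842264545014603405633896]
  invF2 := [1415692895568631373389430024791457701283719351297, 1365874377081047306436322896569081520303282094178, 991564374734010686162185070664829243645896071396, 1227155606562789854817254638675994637682952314020, 1180145590852214217657948842264545014603405633896]
  parT := 94290428214939840787198573878428551481974096896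
  distT := 235724631778158432946385548904651914808281596960
  parS := 235726070537242406161884728433324333075520460007
  distS := 51564947129913672293365864743339393130417915904
  rho := 54376455414911482413714832737760000926000746624
  ys := [13, 4, 10, 1, 8, 9]
  rys := [5, 11, 12, 14, 15]

/-- the relation -/
def rel : Nat → Nat → Bool := relOf 7 148

/-- a closure certificate -/
def c0 : Cert := ⟨13, 23, 9513960333012665352, 1⟩
/-- a closure certificate -/
def c1 : Cert := ⟨4, 15, 567076227080, 1⟩
/-- a closure certificate -/
def c2 : Cert := ⟨10, 27, 40149629064724996981768, 4⟩
/-- a closure certificate -/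
def c3 : Cert := ⟨1, 28, 5926157667560818357708305, 1⟩
/-- a closure certificate -/
def c4 : Cert := ⟨8, 27, 40149629064724996981768, 4⟩
/-- a closure certificate -/
def c5 : Cert := ⟨9, 30, 336121527481931635565298696, 6⟩
/-- a reduction certificate -/
def r0 : RCert := ⟨5, 1, 7, 1552328, 3⟩
/-- a reduction certificate -/
def r1 : RCert := ⟨11, 9, 5, 8160, 2⟩
/-- a reduction certificate -/
def r2 : RCert := ⟨12, 8, 2, 50, 1⟩
/-- a reduction certificate -/
def r3 : RCert := ⟨14, 10, 3, 442, 1⟩
/-- a reduction certificate -/
def r4 : RCert := ⟨15, 9, 3, 442, 1⟩

/-- the list of closure certificates -/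
def certs : List Cert := [c0, c1, c2, c3, c4, c5]

/-- the list of reduction certificates -/
def rcerts : List RCert := [r0, r1, r2, r3, r4]

theorem hlabels : labelsOK D = true := by decide +kernel
theorem hident : idOK D = true := by decide +kernel
theorem hcompat0 : compatAt D 0 = true := by decide +kernel
theorem hcompat1 : compatAt D 1 = true := by decide +kernel
theorem hcompat2 : compatAt D 2 = true := by decide +kernel
theorem hcompat3 : compatAt D 3 = true := by decide +kernel
theorem hcompat4 : compatAt D 4 = true := by decide +kernel
theorem hcompat5 : compatAt D 5 = true := by decide +kernel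
theorem hcompat6 : compatAt D 6 = true := by decide +kernel
theorem hinvs : invOK D = true := by decide +kernel
theorem htreeT : treeT D = true := by decide +kernel
theorem htreeS : treeS D = true := by decide +kernel
theorem hrho : rhoOK D = true := by decide +kernel
theorem horder : orderOK D rel = true := by decide +kernel
theorem hjoins : joinsOK D rel [(2, 1, 6, 4), (3, 1, 6, 2), (4, 1, 6, 2), (4, 3, 6, 2), (5, 1, 6, 2), (5, 3, 6, 2), (5, 4, 6, 2)] = true := by decide +kernel
theorem hc0 : certOK D c0 = true := by decide +kernel
theorem hc1 : certOK D c1 = true := by decide +kernel
theorem hc2 : certOK D c2 = true := by decide +kernel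
theorem hc3 : certOK D c3 = true := by decide +kernel
theorem hc4 : certOK D c4 = true := by decide +kernel
theorem hc5 : certOK D c5 = true := by decide +kernel
theorem hr0 : rcertOK D r0 = true := by decide +kernel
theorem hr1 : rcertOK D r1 = true := by decide +kernel
theorem hr2 : rcertOK D r2 = true := by decide +kernel
theorem hr3 : rcertOK D r3 = true := by decide +kernel
theorem hr4 : rcertOK D r4 = true := by decide +kernel

theorem hcerts : ∀ c ∈ certs, certOK D c = true := by
  intro c hc
  simp only [certs, List.mem_cons, List.not_mem_nil, or_false] at hc
  rcases hc with rfl | rfl | rfl | rfl | rfl | rfl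
  · exact hc0
  · exact hc1
  · exact hc2
  · exact hc3
  · exact hc4
  · exact hc5

theorem hrcerts : ∀ c ∈ rcerts, rcertOK D c = true := by
  intro c hc
  simp only [rcerts, List.mem_cons, List.not_mem_nil, or_false] at hc
  rcases hc with rfl | rfl | rfl | rfl | rfl
  · exact hr0
  · exact hr1
  · exact hr2
  · exact hr3
  · exact hr4

theorem hcompat : ∀ i, i < D.maps.length → compatAt D i = true := by
  intro i hi
  have hi2 : i < 7 := hi
  match i, hi2 with
  | 0, _ => exact hcompat0
  | 1, _ => exact hcompat1
  | 2, _ => exact hcompat2
  | 3, _ => exact hcompat3
  | 4, _ => exact hcompat4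
  | 5, _ => exact hcompat5
  | 6, _ => exact hcompat6

/-- the realization -/
theorem realizes : Realizes 7 rel :=
  realizes_of_good (D := D) (certs := certs) (rcerts := rcerts)
    ⟨hlabels, hident, hcompat, hinvs, htreeT, htreeS, horder, ⟨_, hjoins⟩, hcerts, hrcerts, rfl, rfl, hrho⟩ rfl

end Vale.Agent.Lib.P183.R7_10
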