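import Vale.Agent.Lib.P183.Fast
import Vale.Agent.Lib.P183.Classify

namespace Vale.Agent.Lib.P183.R7_18

open Vale.Agent.Lib.P183.Fast

/-- the data of the unary algebra -/
def D : FData where
  n := 24
  w := 5
  msk := 31
  maps := [984734661220470837009911084222681089, 899229011271990391936856256811139170, 944410450754528348279261416510429216, 470278375199658062065627471303653804, 37191016277640225, 74382032555280450]
  thetas := [984818244535754528103549039458486304, 605412717308236840930998304739723296, 809488214858947264391360724235026464, 943239265195463904513205123594389504, 514623697843452842531079942429542400, 514539869336096466484213763486515200, 0]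
  roots := [16777215, 290887, 569483, 5592405, 86037, 4097, 1]
  invF1 := [984734661220470837009911084222681089, 899229011271990391936856256811139170, 944410450754528348279261416510429216, 470278375199658062065627471303653804]
  invF2 := [984734661220470837009911084222681089, 899229011271990391936856256811139170, 944410450754528348279261416510429216, 470278375199658062065627471303653804]
  parT := 128634967334024116658280776431862784
  distT := 255928677309907892184824669039297568
  parS := 90948941907618437256822780021905606
  distS := 127336893079456857826969033572876288
  rho := 257269934668048233390766525361850464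
  ys := [5, 2, 1, 10, 3, 12]
  rys := [4, 13, 14, 15, 16, 17, 22]

/-- the relation -/
def rel : Nat → Nat → Bool := relOf 7 992

/-- a closure certificate -/
def c0 : Cert := ⟨5, 15, 98949548964, 2⟩
/-- a closure certificate -/
def c1 : Cert := ⟨2, 17, 14147815692458, 2⟩
/-- a closure certificate -/
def c2 : Cert := ⟨1, 13, 14685543727, 1⟩
/-- a closure certificate -/
def c3 : Cert := ⟨10, 17, 35285436956756, 2⟩
/-- a closure certificate -/
def c4 : Cert := ⟨3, 25, 203309133271502763743, 4⟩
/-- a closure certificate -/
def c5 : Cert := ⟨12, 29, 857107059254306806088682, 3⟩
/-- a reduction certificate -/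
def r0 : RCert := ⟨4, 3, 2, 7, 1⟩
/-- a reduction certificate -/
def r1 : RCert := ⟨13, 12, 3, 238, 1⟩
/-- a reduction certificate -/
def r2 : RCert := ⟨14, 12, 3, 288, 1⟩
/-- a reduction certificate -/
def r3 : RCert := ⟨15, 12, 7, 704077, 1⟩
/-- a reduction certificate -/
def r4 : RCert := ⟨16, 12, 9, 34499927, 1⟩
/-- a reduction certificate -/
def r5 : RCert := ⟨17, 12, 11, 1692291986, 2⟩
/-- a reduction certificate -/
def r6 : RCert := ⟨22, 12, 12, 7881187580, 4⟩

/-- the list of closure certificates -/
def certs : List Cert := [c0, c1, c2, c3, c4, c5]

/-- the list of reduction certificates -/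
def rcerts : List RCert := [r0, r1, r2, r3, r4, r5, r6]

theorem hlabels : labelsOK D = true := by decide +kernel
theorem hident : idOK D = true := by decide +kernel
theorem hcompat0 : compatAt D 0 = true := by decide +kernel
theorem hcompat1 : compatAt D 1 = true := by decide +kernel
theorem hcompat2 : compatAt D 2 = true := by decide +kernel
theorem hcompat3 : compatAt D 3 = true := by decide +kernel
theorem hcompat4 : compatAt D 4 = true := by decide +kernel
theorem hcompat5 : compatAt D 5 = true := by decide +kernel
theorem hinvs : invOK D = true := by decide +kernel
theorem htreeT : treeT D = true := by decide +kernel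
theorem htreeS : treeS D = true := by decide +kernel
theorem hrho : rhoOK D = true := by decide +kernel
theorem horder : orderOK D rel = true := by decide +kernel
theorem hjoins : joinsOK D rel [(2, 1, 5, 2), (3, 1, 5, 2), (3, 2, 5, 2), (4, 1, 5, 2), (4, 2, 5, 2)] = true := by decide +kernel
theorem hc0 : certOK D c0 = true := by decide +kernel
theorem hc1 : certOK D c1 = true := by decide +kernel
theorem hc2 : certOK D c2 = true := by decide +kernel
theorem hc3 : certOK D c3 = true := by decide +kernel
theorem hc4 : certOK D c4 = true := by decide +kernel
theorem hc5 : certOK D c5 = true := by decide +kernel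
theorem hr0 : rcertOK D r0 = true := by decide +kernel
theorem hr1 : rcertOK D r1 = true := by decide +kernel
theorem hr2 : rcertOK D r2 = true := by decide +kernel
theorem hr3 : rcertOK D r3 = true := by decide +kernel
theorem hr4 : rcertOK D r4 = true := by decide +kernel
theorem hr5 : rcertOK D r5 = true := by decide +kernel
theorem hr6 : rcertOK D r6 = true := by decide +kernel

theorem hcerts : ∀ c ∈ certs, certOK D c = true := by
  intro c hc
  simp only [certs, List.mem_cons, List.not_mem_nil, or_false] at hc
  rcases hc with rfl | rfl | rfl | rfl | rfl | rfl
  · exact hc0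
  · exact hc1
  · exact hc2
  · exact hc3
  · exact hc4
  · exact hc5

theorem hrcerts : ∀ c ∈ rcerts, rcertOK D c = true := by
  intro c hc
  simp only [rcerts, List.mem_cons, List.not_mem_nil, or_false] at hc
  rcases hc with rfl | rfl | rfl | rfl | rfl | rfl | rfl
  · exact hr0
  · exact hr1
  · exact hr2
  · exact hr3
  · exact hr4
  · exact hr5
  · exact hr6

theorem hcompat : ∀ i, i < D.maps.length → compatAt D i = true := by
  intro i hi
  have hi2 : i < 6 := hi
  match i, hi2 with
  | 0, _ => exact hcompat0
  | 1, _ => exact hcompat1
  | 2, _ => exact hcompat2
  | 3, _ => exact hcompat3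
  | 4, _ => exact hcompat4
  | 5, _ => exact hcompat5

/-- the realization -/
theorem realizes : Realizes 7 rel :=
  realizes_of_good (D := D) (certs := certs) (rcerts := rcerts)
    ⟨hlabels, hident, hcompat, hinvs, htreeT, htreeS, horder, ⟨_, hjoins⟩, hcerts, hrcerts, rfl, rfl, hrho⟩ rfl

end Vale.Agent.Lib.P183.R7_18
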