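import Vale.Agent.Lib.P183.Fast
import Vale.Agent.Lib.P183.Classify

namespace Vale.Agent.Lib.P183.R7_25

open Vale.Agent.Lib.P183.Fast

/-- the data of the unary algebra -/
def D : FData where
  n := 24
  w := 5
  msk := 31
  maps := [984778947329670716843448409538004993, 944577905505931797760504000885623840, 899228929685213603604377072650190946, 641791664978980845196560793988208804, 813305281892226503083698257993771304, 6496715521920409935991236853765125, 204459579242510114253570217125, 334660077616973311824719322808584]
  thetas := [984818244535754528103549039458486304, 641791501411005470183031292370716704, 773025520502430476488104987270940704, 771726138984428476211127731638831104, 86972361387983802149977302861187104, 85672979869945167827128146638997504, 0]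
  roots := [16777215, 61695, 986895, 328965, 15, 5, 1]
  invF1 := [984778947329670716843448409538004993, 944577905505931797760504000885623840, 899228929685213603604377072650190946, 641791664978980845196560793988208804, 813305281892226503083698257993771304]
  invF2 := [984778947329670716843448409538004993, 944577905505931797760504000885623840, 899228929685213603604377072650190946, 641791664978980845196560793988208804, 813305281892226503083698257993771304]
  parT := 128634967334063114339710797113001984
  distT := 213050395717332478127427285297464352
  parS := 52257678180614044722205414255534344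
  distS := 127295059371746994496340019743064064
  rho := 257187537337929881487851278688262240
  ys := [8, 5, 1, 9, 13, 2]
  rys := [4, 6, 10, 12, 14, 16, 17, 18, 20, 21, 22]

/-- the relation -/
def rel : Nat → Nat → Bool := relOf 7 980

/-- a closure certificate -/
def c0 : Cert := ⟨8, 11, 4280884200, 1⟩
/-- a closure certificate -/
def c1 : Cert := ⟨5, 11, 4276101960, 1⟩
/-- a closure certificate -/
def c2 : Cert := ⟨1, 17, 4380364828893719, 1⟩
/-- a closure certificate -/
def c3 : Cert := ⟨9, 19, 36059069826857439, 3⟩
/-- a closure certificate -/
def c4 : Cert := ⟨13, 21, 31424345391663154440, 4⟩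
/-- a closure certificate -/
def c5 : Cert := ⟨2, 26, 3350184423918556415198094, 5⟩
/-- a reduction certificate -/
def r0 : RCert := ⟨4, 1, 4, 4770, 1⟩
/-- a reduction certificate -/
def r1 : RCert := ⟨6, 2, 4, 4320, 1⟩
/-- a reduction certificate -/
def r2 : RCert := ⟨10, 2, 3, 641, 1⟩
/-- a reduction certificate -/
def r3 : RCert := ⟨12, 9, 5, 45882, 1⟩
/-- a reduction certificate -/
def r4 : RCert := ⟨14, 2, 9, 344006308, 2⟩
/-- a reduction certificate -/
def r5 : RCert := ⟨16, 9, 6, 387045, 1⟩
/-- a reduction certificate -/
def r6 : RCert := ⟨17, 13, 6, 275508, 2⟩
/-- a reduction certificate -/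
def r7 : RCert := ⟨18, 2, 8, 13815225, 2⟩
/-- a reduction certificate -/
def r8 : RCert := ⟨20, 13, 5, 45873, 1⟩
/-- a reduction certificate -/
def r9 : RCert := ⟨21, 9, 7, 2165076, 2⟩
/-- a reduction certificate -/
def r10 : RCert := ⟨22, 2, 16, 808023714794118, 4⟩

/-- the list of closure certificates -/
def certs : List Cert := [c0, c1, c2, c3, c4, c5]

/-- the list of reduction certificates -/
def rcerts : List RCert := [r0, r1, r2, r3, r4, r5, r6, r7, r8, r9, r10]

theorem hlabels : labelsOK D = true := by decide +kernel
theorem hident : idOK D = true := by decide +kernel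
theorem hcompat0 : compatAt D 0 = true := by decide +kernel
theorem hcompat1 : compatAt D 1 = true := by decide +kernel
theorem hcompat2 : compatAt D 2 = true := by decide +kernel
theorem hcompat3 : compatAt D 3 = true := by decide +kernel
theorem hcompat4 : compatAt D 4 = true := by decide +kernel
theorem hcompat5 : compatAt D 5 = true := by decide +kernel
theorem hcompat6 : compatAt D 6 = true := by decide +kernel
theorem hcompat7 : compatAt D 7 = true := by decide +kernel
theorem hinvs : invOK D = true := by decide +kernel
theorem htreeT : treeT D = true := by decide +kernel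
theorem htreeS : treeS D = true := by decide +kernel
theorem hrho : rhoOK D = true := by decide +kernel
theorem horder : orderOK D rel = true := by decide +kernel
theorem hjoins : joinsOK D rel [(2, 1, 5, 3), (3, 1, 5, 2), (4, 1, 5, 2), (4, 3, 5, 2)] = true := by decide +kernel
theorem hc0 : certOK D c0 = true := by decide +kernel
theorem hc1 : certOK D c1 = true := by decide +kernel
theorem hc2 : certOK D c2 = true := by decide +kernel
theorem hc3 : certOK D c3 = true := by decide +kernel
theorem hc4 : certOK D c4 = true := by decide +kernel
theorem hc5 : certOK D c5 = true := by decide +kernel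
theorem hr0 : rcertOK D r0 = true := by decide +kernel
theorem hr1 : rcertOK D r1 = true := by decide +kernel
theorem hr2 : rcertOK D r2 = true := by decide +kernel
theorem hr3 : rcertOK D r3 = true := by decide +kernel
theorem hr4 : rcertOK D r4 = true := by decide +kernel
theorem hr5 : rcertOK D r5 = true := by decide +kernel
theorem hr6 : rcertOK D r6 = true := by decide +kernel
theorem hr7 : rcertOK D r7 = true := by decide +kernel
theorem hr8 : rcertOK D r8 = true := by decide +kernel
theorem hr9 : rcertOK D r9 = true := by decide +kernel
theorem hr10 : rcertOK D r10 = true := by decide +kernel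

theorem hcerts : ∀ c ∈ certs, certOK D c = true := by
  intro c hc
  simp only [certs, List.mem_cons, List.not_mem_nil, or_false] at hc
  rcases hc with rfl | rfl | rfl | rfl | rfl | rfl
  · exact hc0
  · exact hc1
  · exact hc2
  · exact hc3
  · exact hc4
  · exact hc5

theorem hrcerts : ∀ c ∈ rcerts, rcertOK D c = true := by
  intro c hc
  simp only [rcerts, List.mem_cons, List.not_mem_nil, or_false] at hc
  rcases hc with rfl | rfl | rfl | rfl | rfl | rfl | rfl | rfl | rfl | rfl | rfl
  · exact hr0
  · exact hr1
  · exact hr2
  · exact hr3
  · exact hr4
  · exact hr5
  · exact hr6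
  · exact hr7
  · exact hr8
  · exact hr9
  · exact hr10

theorem hcompat : ∀ i, i < D.maps.length → compatAt D i = true := by
  intro i hi
  have hi2 : i < 8 := hi
  match i, hi2 with
  | 0, _ => exact hcompat0
  | 1, _ => exact hcompat1
  | 2, _ => exact hcompat2
  | 3, _ => exact hcompat3
  | 4, _ => exact hcompat4
  | 5, _ => exact hcompat5
  | 6, _ => exact hcompat6
  | 7, _ => exact hcompat7

/-- the realization -/
theorem realizes : Realizes 7 rel :=
  realizes_of_good (D := D) (certs := certs) (rcerts := rcerts)
    ⟨hlabels, hident, hcompat, hinvs, htreeT, htreeS, horder, ⟨_, hjoins⟩, hcerts, hrcerts, rfl, rfl, hrho⟩ rfl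

end Vale.Agent.Lib.P183.R7_25
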