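import Vale.Agent.Lib.P183.Fast
import Vale.Agent.Lib.P183.Classify

namespace Vale.Agent.Lib.P183.R7_41

open Vale.Agent.Lib.P183.Fast

/-- the data of the unary algebra -/
def D : FData where
  n := 24
  w := 5
  msk := 31
  maps := [984778947329670716843448409538004993, 944577905505931797760504000885623840, 899228929685213603604377072650190946, 641791664978980845196560793988208804, 813305281892226503083698257993771304, 40891915848502022850714043425, 171345959739734649745960061494100100]
  thetas := [984818244535754528103549039458486304, 943239265195463904513205123594389504, 514623207220251765047663525590272000, 771726138984428476211127731638831104, 686053159114483308383999584999833600, 85672979869945167827128146638997504, 0]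
  roots := [16777215, 5592405, 20565, 328965, 65793, 5, 1]
  invF1 := [984778947329670716843448409538004993, 944577905505931797760504000885623840, 899228929685213603604377072650190946, 641791664978980845196560793988208804, 813305281892226503083698257993771304]
  invF2 := [984778947329670716843448409538004993, 944577905505931797760504000885623840, 899228929685213603604377072650190946, 641791664978980845196560793988208804, 813305281892226503083698257993771304]
  parT := 128634967334063114339710797113001984
  distT := 213050395717332478127427285297464352
  parS := 50917770218336996272967806966865127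
  distS := 127295059371669149162109940392820736
  rho := 257228102158346111652656030854287392
  ys := [1, 10, 4, 2, 8, 14]
  rys := [5, 6, 9, 12, 13, 16, 17, 18, 20, 21, 22]

/-- the relation -/
def rel : Nat → Nat → Bool := relOf 7 363

/-- a closure certificate -/
def c0 : Cert := ⟨1, 11, 2592712858, 1⟩
/-- a closure certificate -/
def c1 : Cert := ⟨10, 17, 290856294781064, 2⟩
/-- a closure certificate -/
def c2 : Cert := ⟨4, 17, 679679923132496, 1⟩
/-- a closure certificate -/
def c3 : Cert := ⟨2, 20, 518209211505709256, 2⟩
/-- a closure certificate -/
def c4 : Cert := ⟨8, 21, 3031350312133793360, 3⟩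
/-- a closure certificate -/
def c5 : Cert := ⟨14, 24, 4126905150495162208392, 4⟩
/-- a reduction certificate -/
def r0 : RCert := ⟨5, 4, 4, 2872, 1⟩
/-- a reduction certificate -/
def r1 : RCert := ⟨6, 2, 3, 442, 1⟩
/-- a reduction certificate -/
def r2 : RCert := ⟨9, 8, 13, 249042829080, 7⟩
/-- a reduction certificate -/
def r3 : RCert := ⟨12, 8, 5, 20467, 2⟩
/-- a reduction certificate -/
def r4 : RCert := ⟨13, 8, 8, 7852019, 3⟩
/-- a reduction certificate -/
def r5 : RCert := ⟨16, 8, 3, 443, 1⟩
/-- a reduction certificate -/
def r6 : RCert := ⟨17, 8, 10, 117362648, 3⟩
/-- a reduction certificate -/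
def r7 : RCert := ⟨18, 14, 3, 282, 1⟩
/-- a reduction certificate -/
def r8 : RCert := ⟨20, 8, 4, 2491, 2⟩
/-- a reduction certificate -/
def r9 : RCert := ⟨21, 8, 10, 654172120, 2⟩
/-- a reduction certificate -/
def r10 : RCert := ⟨22, 14, 2, 51, 1⟩

/-- the list of closure certificates -/
def certs : List Cert := [c0, c1, c2, c3, c4, c5]

/-- the list of reduction certificates -/
def rcerts : List RCert := [r0, r1, r2, r3, r4, r5, r6, r7, r8, r9, r10]

theorem hlabels : labelsOK D = true := by decide +kernel
theorem hident : idOK D = true := by decide +kernel
theorem hcompat0 : compatAt D 0 = true := by decide +kernel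
theorem hcompat1 : compatAt D 1 = true := by decide +kernel
theorem hcompat2 : compatAt D 2 = true := by decide +kernel
theorem hcompat3 : compatAt D 3 = true := by decide +kernel
theorem hcompat4 : compatAt D 4 = true := by decide +kernel
theorem hcompat5 : compatAt D 5 = true := by decide +kernel
theorem hcompat6 : compatAt D 6 = true := by decide +kernel
theorem hinvs : invOK D = true := by decide +kernel
theorem htreeT : treeT D = true := by decide +kernel
theorem htreeS : treeS D = true := by decide +kernel
theorem hrho : rhoOK D = true := by decide +kernel
theorem horder : orderOK D rel = true := by decide +kernel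
theorem hjoins : joinsOK D rel [(3, 2, 6, 3), (4, 2, 6, 2), (5, 2, 6, 2), (5, 4, 6, 2)] = true := by decide +kernel
theorem hc0 : certOK D c0 = true := by decide +kernel
theorem hc1 : certOK D c1 = true := by decide +kernel
theorem hc2 : certOK D c2 = true := by decide +kernel
theorem hc3 : certOK D c3 = true := by decide +kernel
theorem hc4 : certOK D c4 = true := by decide +kernel
theorem hc5 : certOK D c5 = true := by decide +kernel
theorem hr0 : rcertOK D r0 = true := by decide +kernel
theorem hr1 : rcertOK D r1 = true := by decide +kernel
theorem hr2 : rcertOK D r2 = true := by decide +kernel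
theorem hr3 : rcertOK D r3 = true := by decide +kernel
theorem hr4 : rcertOK D r4 = true := by decide +kernel
theorem hr5 : rcertOK D r5 = true := by decide +kernel
theorem hr6 : rcertOK D r6 = true := by decide +kernel
theorem hr7 : rcertOK D r7 = true := by decide +kernel
theorem hr8 : rcertOK D r8 = true := by decide +kernel
theorem hr9 : rcertOK D r9 = true := by decide +kernel
theorem hr10 : rcertOK D r10 = true := by decide +kernel

theorem hcerts : ∀ c ∈ certs, certOK D c = true := by
  intro c hc
  simp only [certs, List.mem_cons, List.not_mem_nil, or_false] at hc
  rcases hc with rfl | rfl | rfl | rfl | rfl | rfl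
  · exact hc0
  · exact hc1
  · exact hc2
  · exact hc3
  · exact hc4
  · exact hc5

theorem hrcerts : ∀ c ∈ rcerts, rcertOK D c = true := by
  intro c hc
  simp only [rcerts, List.mem_cons, List.not_mem_nil, or_false] at hc
  rcases hc with rfl | rfl | rfl | rfl | rfl | rfl | rfl | rfl | rfl | rfl | rfl
  · exact hr0
  · exact hr1
  · exact hr2
  · exact hr3
  · exact hr4
  · exact hr5
  · exact hr6
  · exact hr7
  · exact hr8
  · exact hr9
  · exact hr10

theorem hcompat : ∀ i, i < D.maps.length → compatAt D i = true := by
  intro i hi
  have hi2 : i < 7 := hi
  match i, hi2 with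
  | 0, _ => exact hcompat0
  | 1, _ => exact hcompat1
  | 2, _ => exact hcompat2
  | 3, _ => exact hcompat3
  | 4, _ => exact hcompat4
  | 5, _ => exact hcompat5
  | 6, _ => exact hcompat6

/-- the realization -/
theorem realizes : Realizes 7 rel :=
  realizes_of_good (D := D) (certs := certs) (rcerts := rcerts)
    ⟨hlabels, hident, hcompat, hinvs, htreeT, htreeS, horder, ⟨_, hjoins⟩, hcerts, hrcerts, rfl, rfl, hrho⟩ rfl

end Vale.Agent.Lib.P183.R7_41
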