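import Vale.Agent.Lib.P183.Fast
import Vale.Agent.Lib.P183.Classify

namespace Vale.Agent.Lib.P183.R7_5

open Vale.Agent.Lib.P183.Fast

/-- the data of the unary algebra -/
def D : FData where
  n := 12
  w := 4
  msk := 15
  maps := [92611196510241, 132372296798466, 147865423971411, 17665468993793, 18696010469393]
  thetas := [205163983024656, 168871238774784, 54359074419216, 6885471433232, 146407941210640, 1237505409552, 0]
  roots := [4095, 585, 175, 95, 311, 7, 1]
  invF1 := [92611196510241, 132372296798466, 147865423971411]
  invF2 := [132372296798466, 92611196510241, 147865423971411]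
  parT := 4582416400
  distT := 56226257965328
  parS := 93824992236885
  distS := 1168517366016
  rho := 59796252672272
  ys := [1, 8, 11, 3, 4]
  rys := [2, 5, 6, 7, 9, 10]

/-- the relation -/
def rel : Nat → Nat → Bool := relOf 7 896

/-- a closure certificate -/
def c0 : Cert := ⟨1, 7, 2604, 2⟩
/-- a closure certificate -/
def c1 : Cert := ⟨8, 6, 612, 1⟩
/-- a closure certificate -/
def c2 : Cert := ⟨11, 5, 72, 1⟩
/-- a closure certificate -/
def c3 : Cert := ⟨3, 5, 72, 1⟩
/-- a closure certificate -/
def c4 : Cert := ⟨4, 10, 583272, 4⟩
/-- a reduction certificate -/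
def r0 : RCert := ⟨2, 1, 1, 0, 1⟩
/-- a reduction certificate -/
def r1 : RCert := ⟨5, 4, 3, 75, 2⟩
/-- a reduction certificate -/
def r2 : RCert := ⟨6, 4, 2, 13, 1⟩
/-- a reduction certificate -/
def r3 : RCert := ⟨7, 4, 5, 6457, 1⟩
/-- a reduction certificate -/
def r4 : RCert := ⟨9, 4, 7, 99768, 2⟩
/-- a reduction certificate -/
def r5 : RCert := ⟨10, 4, 3, 138, 1⟩

/-- the list of closure certificates -/
def certs : List Cert := [c0, c1, c2, c3, c4]

/-- the list of reduction certificates -/
def rcerts : List RCert := [r0, r1, r2, r3, r4, r5]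

theorem hlabels : labelsOK D = true := by decide +kernel
theorem hident : idOK D = true := by decide +kernel
theorem hcompat0 : compatAt D 0 = true := by decide +kernel
theorem hcompat1 : compatAt D 1 = true := by decide +kernel
theorem hcompat2 : compatAt D 2 = true := by decide +kernel
theorem hcompat3 : compatAt D 3 = true := by decide +kernel
theorem hcompat4 : compatAt D 4 = true := by decide +kernel
theorem hinvs : invOK D = true := by decide +kernel
theorem htreeT : treeT D = true := by decide +kernel
theorem htreeS : treeS D = true := by decide +kernel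
theorem hrho : rhoOK D = true := by decide +kernel
theorem horder : orderOK D rel = true := by decide +kernel
theorem hjoins : joinsOK D rel [(2, 1, 6, 2), (3, 1, 6, 2), (3, 2, 5, 2), (4, 1, 6, 2), (4, 2, 5, 2), (4, 3, 5, 2), (5, 1, 6, 1)] = true := by decide +kernel
theorem hc0 : certOK D c0 = true := by decide +kernel
theorem hc1 : certOK D c1 = true := by decide +kernel
theorem hc2 : certOK D c2 = true := by decide +kernel
theorem hc3 : certOK D c3 = true := by decide +kernel
theorem hc4 : certOK D c4 = true := by decide +kernel
theorem hr0 : rcertOK D r0 = true := by decide +kernel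
theorem hr1 : rcertOK D r1 = true := by decide +kernel
theorem hr2 : rcertOK D r2 = true := by decide +kernel
theorem hr3 : rcertOK D r3 = true := by decide +kernel
theorem hr4 : rcertOK D r4 = true := by decide +kernel
theorem hr5 : rcertOK D r5 = true := by decide +kernel

theorem hcerts : ∀ c ∈ certs, certOK D c = true := by
  intro c hc
  simp only [certs, List.mem_cons, List.not_mem_nil, or_false] at hc
  rcases hc with rfl | rfl | rfl | rfl | rfl
  · exact hc0
  · exact hc1
  · exact hc2
  · exact hc3
  · exact hc4

theorem hrcerts : ∀ c ∈ rcerts, rcertOK D c = true := by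
  intro c hc
  simp only [rcerts, List.mem_cons, List.not_mem_nil, or_false] at hc
  rcases hc with rfl | rfl | rfl | rfl | rfl | rfl
  · exact hr0
  · exact hr1
  · exact hr2
  · exact hr3
  · exact hr4
  · exact hr5

theorem hcompat : ∀ i, i < D.maps.length → compatAt D i = true := by
  intro i hi
  have hi2 : i < 5 := hi
  match i, hi2 with
  | 0, _ => exact hcompat0
  | 1, _ => exact hcompat1
  | 2, _ => exact hcompat2
  | 3, _ => exact hcompat3
  | 4, _ => exact hcompat4

/-- the realization -/
theorem realizes : Realizes 7 rel :=
  realizes_of_good (D := D) (certs := certs) (rcerts := rcerts)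
    ⟨hlabels, hident, hcompat, hinvs, htreeT, htreeS, horder, ⟨_, hjoins⟩, hcerts, hrcerts, rfl, rfl, hrho⟩ rfl

end Vale.Agent.Lib.P183.R7_5
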