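import Vale.Agent.Lib.P183.R7_7T

namespace Vale.Agent.Lib.P183.R7_7

open Vale.Agent.Lib.P183.Walk

theorem cBX : compatOK 43680 b tX (lk PiBX) = true := by decide +kernel
theorem cBS : compatOK 43680 b tS (lk PiBS) = true := by decide +kernel
theorem cBC : compatOK 43680 b tC (lk PiBC) = true := by decide +kernel
theorem cBD : compatOK 43680 b tD (lk PiBD) = true := by decide +kernel

end Vale.Agent.Lib.P183.R7_7
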