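import Vale.Agent.Lib.P183.R7_7T

namespace Vale.Agent.Lib.P183.R7_7

open Vale.Agent.Lib.P183.Walk

theorem a6 : a6OK 43680 a = true := by decide +kernel
theorem b2 : b2OK 43680 b = true := by decide +kernel
theorem orb : orbitOK 43680 1261 a i = true := by decide +kernel
theorem leSC : leOK 43680 tS tC (lk CSC) = true := by decide +kernel

end Vale.Agent.Lib.P183.R7_7
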