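import Vale.Agent.Lib.P183.R7_7C1
import Vale.Agent.Lib.P183.R7_7C2
import Vale.Agent.Lib.P183.R7_7M
import Vale.Agent.Lib.P183.R7_7R

/-!
The realization of the lattice of class `7:7`, from the checks of the other modules.
-/

namespace Vale.Agent.Lib.P183.R7_7

open Vale.Agent.Lib.P183.Walk

theorem hA : ∀ p, a p < 43680 := fun _ => Nat.mod_lt _ (by omega)
theorem hB : ∀ p, b p < 43680 := fun _ => Nat.mod_lt _ (by omega)
theorem hA6 : ∀ p, p < 43680 → a (a (a (a (a (a p))))) = p := fun _ hp => a6OK_sound a6 hp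
theorem hB2 : ∀ p, p < 43680 → b (b p) = p := fun _ hp => b2OK_sound b2 hp
theorem hA0 : a 0 = 0 := by decide +kernel
theorem hI0 : i 0 = 0 := by decide +kernel
theorem hN0 : 0 < 43680 := by omega
theorem hIso : Iso a b 43680 i := iso_W hA hB hA6 hB2 _ _
theorem hIG : Gen a b i := hIso.gen

theorem pair3 {p q : Nat} (h : θ 3 p = θ 3 q) : tC p = tC q ∧ tD p = tD q :=
  pair_inj (lk_lt _ _) (lk_lt _ _) h

theorem repsAt {y : Nat} (h0 : 0 < y) (h1 : y ≤ 1261) :
    ∃ c, repOK 7 a b i θ T y c = true :=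
  repsGo_spec reps 1 repsC y h0 (by rw [repsL]; omega)

theorem leLab {x y : Nat} (h : leK x y = true) : labF 43680 (θ x) ≤ labF 43680 (θ y) := by
  simp only [leK, Bool.or_eq_true, Bool.and_eq_true, Nat.beq_eq] at h
  rcases h with rfl | rfl | rfl | ⟨rfl, rfl⟩ | ⟨rfl, rfl⟩ | ⟨rfl, rfl⟩
  · exact le_rfl
  · intro p q hpq
    have h1 : p.val = q.val := hpq
    have h2 : p = q := Fin.ext h1
    rw [h2]
  · intro p q _
    rfl
  · exact leOK_sound leSC
  · intro p q hpq
    exact (pair3 hpq).1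
  · intro p q hpq
    exact (pair3 hpq).2

/-- all checks together -/
theorem hyp : Hyp 43680 7 1261 6 a b i θ T rel where
  npos := hN0
  mpos := by omega
  ha := hA
  hb := hB
  a6 := hA6
  b2 := hB2
  iiso := hIso
  a0 := hA0
  i0 := hI0
  compatA := by
    intro k hk p q hp hq h
    have hk' : k = 0 ∨ k = 1 ∨ k = 2 ∨ k = 3 ∨ k = 4 ∨ k = 5 ∨ k = 6 := by omega
    rcases hk' with rfl | rfl | rfl | rfl | rfl | rfl | rfl
    · have h1 : p = q := h
      rw [h1]
    · exact compatOK_sound cAX hp hq h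
    · exact compatOK_sound cAS hp hq h
    · obtain ⟨h1, h2⟩ := pair3 h
      show Nat.add (Nat.mul (tC (a p)) 65536) (tD (a p)) = Nat.add (Nat.mul (tC (a q)) 65536) (tD (a q))
      rw [compatOK_sound cAC hp hq h1, compatOK_sound cAD hp hq h2]
    · exact compatOK_sound cAD hp hq h
    · exact compatOK_sound cAC hp hq h
    · rfl
  compatB := by
    intro k hk p q hp hq h
    have hk' : k = 0 ∨ k = 1 ∨ k = 2 ∨ k = 3 ∨ k = 4 ∨ k = 5 ∨ k = 6 := by omega
    rcases hk' with rfl | rfl | rfl | rfl | rfl | rfl | rfl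
    · have h1 : p = q := h
      rw [h1]
    · exact compatOK_sound cBX hp hq h
    · exact compatOK_sound cBS hp hq h
    · obtain ⟨h1, h2⟩ := pair3 h
      show Nat.add (Nat.mul (tC (b p)) 65536) (tD (b p)) = Nat.add (Nat.mul (tC (b q)) 65536) (tD (b q))
      rw [compatOK_sound cBC hp hq h1, compatOK_sound cBD hp hq h2]
    · exact compatOK_sound cBD hp hq h
    · exact compatOK_sound cBC hp hq h
    · rfl
  id0 := fun _ _ _ _ h => h
  orbit := fun _ hy => orbitOK_sound orb hy
  repG := by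
    intro y h0 h1 _
    obtain ⟨c, hc⟩ := repsAt h0 h1
    exact ⟨_, iso_W hA hB hA6 hB2 c.gL c.gW, (repOK_parts hc).2.1⟩
  repK := by
    intro y h0 h1 _
    obtain ⟨c, hc⟩ := repsAt h0 h1
    obtain ⟨h2, _, h3, _⟩ := repOK_parts hc
    exact ⟨c.k, h2, h3, repOK_clo hc hN0 hA0 hIG hI0⟩
  block := by
    intro k hk hk6 z hz hzk
    have hk' : k = 0 ∨ k = 1 ∨ k = 2 ∨ k = 3 ∨ k = 4 ∨ k = 5 := by omega
    rcases hk' with rfl | rfl | rfl | rfl | rfl | rfl
    · have h1 : z = 0 := hzk
      subst h1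
      intro r _ h
      exact h
    · exact blockOK_sound hN0 blockX hA0 hIG hI0 hz hzk
    · exact blockOK_sound hN0 blockS hA0 hIG hI0 hz hzk
    · exact blockOK_sound hN0 blockB hA0 hIG hI0 hz hzk
    · exact blockOK_sound hN0 blockD hA0 hIG hI0 hz hzk
    · exact blockOK_sound hN0 blockC hA0 hIG hI0 hz hzk
  Tt := rfl
  join := by
    intro x y hx _ hyx h1 h2
    exact joinsOK_spec joinsC hN0 hA hB hA0 hIG hI0 hx hyx h1 h2
  order := by
    intro x y hx hy
    have h1 := Fast.allB_spec (Fast.allB_spec orderC hx) hy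
    cases h2 : rel x y
    · rw [h2] at h1
      simp only [cond_false] at h1
      constructor
      · intro h3
        exact absurd h3 (by simp)
      · intro h3
        exact absurd h3 (witOK_sound hN0 h1)
    · rw [h2] at h1
      simp only [cond_true] at h1
      exact ⟨fun _ => leLab h1, fun _ => rfl⟩

/-- The lattice of class `7:7` is realized. -/
theorem realizes : Realizes 7 rel := hyp.realizes

end Vale.Agent.Lib.P183.R7_7
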