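import Vale.Agent.Lib.P183.DataSmall
import Vale.Agent.Lib.P183.R6_3
import Vale.Agent.Lib.P183.R7_0
import Vale.Agent.Lib.P183.R7_1
import Vale.Agent.Lib.P183.R7_10
import Vale.Agent.Lib.P183.R7_11
import Vale.Agent.Lib.P183.R7_13
import Vale.Agent.Lib.P183.R7_18
import Vale.Agent.Lib.P183.R7_21
import Vale.Agent.Lib.P183.R7_24
import Vale.Agent.Lib.P183.R7_25
import Vale.Agent.Lib.P183.R7_3
import Vale.Agent.Lib.P183.R7_39
import Vale.Agent.Lib.P183.R7_4
import Vale.Agent.Lib.P183.R7_41
import Vale.Agent.Lib.P183.R7_5
import Vale.Agent.Lib.P183.R7_6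
import Vale.Agent.Lib.P183.R7_7

namespace Vale.Agent.Lib.P183.Final

universe u

/-- the masks of the classes of lattices with 1 elements -/
def classes1 : List Nat := [0]

theorem hcl1 : ∀ M ∈ classes1, Realizes 1 (relOf 1 M) := by
  intro M hM
  simp only [classes1, List.mem_cons, List.not_mem_nil, or_false] at hM
  subst hM
  · exact realizes_of_smallOK DataSmall.h1_0

/-- the table of lattice masks with 1 elements -/
def table1 : List (Option (Nat × List Nat)) := [some (0, [0])]

theorem htable1 : tableGo 1 classes1 table1 0 = true := by decide +kernel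
theorem hlen1 : table1.length = 2 ^ bitsOf 1 := by decide +kernel

theorem rep1 (L : Type u) [Lattice L] [Fintype L] (h : Fintype.card L = 1) : Representable L := by
  refine representable_of_dense (m := 1) (by decide) hcl1 ?_ L h
  intro mask hmask
  have := tableGo_spec _ 0 htable1 mask (by rw [hlen1]; exact hmask)
  rwa [Nat.zero_add] at this

/-- the masks of the classes of lattices with 2 elements -/
def classes2 : List Nat := [0]

theorem hcl2 : ∀ M ∈ classes2, Realizes 2 (relOf 2 M) := by
  intro M hM
  simp only [classes2, List.mem_cons, List.not_mem_nil, or_false] at hM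
  subst hM
  · exact realizes_of_smallOK DataSmall.h2_0

/-- the table of lattice masks with 2 elements -/
def table2 : List (Option (Nat × List Nat)) := [some (0, [0,1])]

theorem htable2 : tableGo 2 classes2 table2 0 = true := by decide +kernel
theorem hlen2 : table2.length = 2 ^ bitsOf 2 := by decide +kernel

theorem rep2 (L : Type u) [Lattice L] [Fintype L] (h : Fintype.card L = 2) : Representable L := by
  refine representable_of_dense (m := 2) (by decide) hcl2 ?_ L h
  intro mask hmask
  have := tableGo_spec _ 0 htable2 mask (by rw [hlen2]; exact hmask)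
  rwa [Nat.zero_add] at this

/-- the masks of the classes of lattices with 3 elements -/
def classes3 : List Nat := [0]

theorem hcl3 : ∀ M ∈ classes3, Realizes 3 (relOf 3 M) := by
  intro M hM
  simp only [classes3, List.mem_cons, List.not_mem_nil, or_false] at hM
  subst hM
  · exact realizes_of_smallOK DataSmall.h3_0

/-- the table of lattice masks with 3 elements -/
def table3 : List (Option (Nat × List Nat)) := [some (0, [0,1,2])]

theorem htable3 : tableGo 3 classes3 table3 0 = true := by decide +kernel
theorem hlen3 : table3.length = 2 ^ bitsOf 3 := by decide +kernel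

theorem rep3 (L : Type u) [Lattice L] [Fintype L] (h : Fintype.card L = 3) : Representable L := by
  refine representable_of_dense (m := 3) (by decide) hcl3 ?_ L h
  intro mask hmask
  have := tableGo_spec _ 0 htable3 mask (by rw [hlen3]; exact hmask)
  rwa [Nat.zero_add] at this

/-- the masks of the classes of lattices with 4 elements -/
def classes4 : List Nat := [0,1]

theorem hcl4 : ∀ M ∈ classes4, Realizes 4 (relOf 4 M) := by
  intro M hM
  simp only [classes4, List.mem_cons, List.not_mem_nil, or_false] at hM
  rcases hM with rfl | rfl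
  · exact realizes_of_smallOK DataSmall.h4_0
  · exact realizes_of_smallOK DataSmall.h4_1

/-- the table of lattice masks with 4 elements -/
def table4 : List (Option (Nat × List Nat)) := [some (0, [0,1,2,3]), some (1, [0,1,2,3])]

theorem htable4 : tableGo 4 classes4 table4 0 = true := by decide +kernel
theorem hlen4 : table4.length = 2 ^ bitsOf 4 := by decide +kernel

theorem rep4 (L : Type u) [Lattice L] [Fintype L] (h : Fintype.card L = 4) : Representable L := by
  refine representable_of_dense (m := 4) (by decide) hcl4 ?_ L h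
  intro mask hmask
  have := tableGo_spec _ 0 htable4 mask (by rw [hlen4]; exact hmask)
  rwa [Nat.zero_add] at this

/-- the masks of the classes of lattices with 5 elements -/
def classes5 : List Nat := [0,4,6,3,7]

theorem hcl5 : ∀ M ∈ classes5, Realizes 5 (relOf 5 M) := by
  intro M hM
  simp only [classes5, List.mem_cons, List.not_mem_nil, or_false] at hM
  rcases hM with rfl | rfl | rfl | rfl | rfl
  · exact realizes_of_smallOK DataSmall.h5_0
  · exact realizes_of_smallOK DataSmall.h5_1
  · exact realizes_of_smallOK DataSmall.h5_2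
  · exact realizes_of_smallOK DataSmall.h5_3
  · exact realizes_of_smallOK DataSmall.h5_4

/-- the table of lattice masks with 5 elements -/
def table5 : List (Option (Nat × List Nat)) := [some (0, [0,1,2,3,4]), some (4, [0,2,3,1,4]), some (4, [0,2,1,3,4]), some (3, [0,1,2,3,4]), some (4, [0,1,2,3,4]), none, some (6, [0,1,2,3,4]), some (7, [0,1,2,3,4])]

theorem htable5 : tableGo 5 classes5 table5 0 = true := by decide +kernel
theorem hlen5 : table5.length = 2 ^ bitsOf 5 := by decide +kernel

theorem rep5 (L : Type u) [Lattice L] [Fintype L] (h : Fintype.card L = 5) : Representable L := by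
  refine representable_of_dense (m := 5) (by decide) hcl5 ?_ L h
  intro mask hmask
  have := tableGo_spec _ 0 htable5 mask (by rw [hlen5]; exact hmask)
  rwa [Nat.zero_add] at this

/-- the masks of the classes of lattices with 6 elements -/
def classes6 : List Nat := [0,32,48,20,52,56,12,28,60,62,11,43,59,31,63]

theorem hcl6 : ∀ M ∈ classes6, Realizes 6 (relOf 6 M) := by
  intro M hM
  simp only [classes6, List.mem_cons, List.not_mem_nil, or_false] at hM
  rcases hM with rfl | rfl | rfl | rfl | rfl | rfl | rfl | rfl | rfl | rfl | rfl | rfl | rfl | rfl | rfl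
  · exact realizes_of_smallOK DataSmall.h6_0
  · exact realizes_of_smallOK DataSmall.h6_1
  · exact realizes_of_smallOK DataSmall.h6_2
  · exact R6_3.realizes
  · exact realizes_of_smallOK DataSmall.h6_4
  · exact realizes_of_smallOK DataSmall.h6_5
  · exact realizes_of_smallOK DataSmall.h6_6
  · exact realizes_of_smallOK DataSmall.h6_7
  · exact realizes_of_smallOK DataSmall.h6_8
  · exact realizes_of_smallOK DataSmall.h6_9
  · exact realizes_of_smallOK DataSmall.h6_10
  · exact realizes_of_smallOK DataSmall.h6_11
  · exact realizes_of_smallOK DataSmall.h6_12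
  · exact realizes_of_smallOK DataSmall.h6_13
  · exact realizes_of_smallOK DataSmall.h6_14

/-- the table of lattice masks with 6 elements -/
def table6 : List (Option (Nat × List Nat)) := [some (0, [0,1,2,3,4,5]), some (32, [0,3,4,1,2,5]), some (32, [0,3,1,4,2,5]), some (20, [0,2,3,4,1,5]), some (32, [0,1,3,4,2,5]), none, some (48, [0,2,3,4,1,5]), some (52, [0,2,3,4,1,5]), some (32, [0,3,1,2,4,5]), some (20, [0,2,3,1,4,5]), some (20, [0,2,1,3,4,5]), some (11, [0,1,2,3,4,5]), some (12, [0,1,2,3,4,5]), none, some (28, [0,2,1,4,3,5]), some (43, [0,1,3,4,2,5]), some (32, [0,1,3,2,4,5]), none, some (12, [0,1,2,4,3,5]), none, some (20, [0,1,2,3,4,5]), none, some (28, [0,1,2,4,3,5]), none, some (48, [0,2,3,1,4,5]), some (52, [0,2,3,1,4,5]), some (28, [0,2,1,3,4,5]), some (43, [0,1,3,2,4,5]), some (28, [0,1,2,3,4,5]), none, none, some (31, [0,1,2,3,4,5]), some (32, [0,1,2,3,4,5]), some (12, [0,1,4,2,3,5]), none, none, none, none, none, none, some (48, [0,2,1,3,4,5]), some (28, [0,2,3,1,4,5]), some (52, [0,2,1,3,4,5]), some (43, [0,1,2,3,4,5]), none, none,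 none, none, some (48, [0,1,2,3,4,5]), none, none, none, some (52, [0,1,2,3,4,5]), none, none, none, some (56, [0,1,2,3,4,5]), some (60, [0,2,3,1,4,5]), some (60, [0,2,1,3,4,5]), some (59, [0,1,2,3,4,5]), some (60, [0,1,2,3,4,5]), none, some (62, [0,1,2,3,4,5]), some (63, [0,1,2,3,4,5])]

theorem htable6 : tableGo 6 classes6 table6 0 = true := by decide +kernel
theorem hlen6 : table6.length = 2 ^ bitsOf 6 := by decide +kernel

theorem rep6 (L : Type u) [Lattice L] [Fintype L] (h : Fintype.card L = 6) : Representable L := by
  refine representable_of_dense (m := 6) (by decide) hcl6 ?_ L h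
  intro mask hmask
  have := tableGo_spec _ 0 htable6 mask (by rw [hlen6]; exact hmask)
  rwa [Nat.zero_add] at this

/-- the masks of the classes of lattices with 7 elements -/
def classes7 : List Nat := [0,512,768,288,800,896,160,416,928,944,148,660,916,436,948,960,224,480,992,368,1008,84,116,212,724,980,244,500,1012,1016,204,716,972,732,988,1020,510,1022,75,587,843,363,875,971,235,491,1003,1019,223,735,991,511,1023]

theorem hcl7 : ∀ M ∈ classes7, Realizes 7 (relOf 7 M) := by
  intro M hM
  simp only [classes7, List.mem_cons, List.not_mem_nil, or_false] at hM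
  rcases hM with rfl | rfl | rfl | rfl | rfl | rfl | rfl | rfl | rfl | rfl | rfl | rfl | rfl | rfl | rfl | rfl | rfl | rfl | rfl | rfl | rfl | rfl | rfl | rfl | rfl | rfl | rfl | rfl | rfl | rfl | rfl | rfl | rfl | rfl | rfl | rfl | rfl | rfl | rfl | rfl | rfl | rfl | rfl | rfl | rfl | rfl | rfl | rfl | rfl | rfl | rfl | rfl | rfl
  · exact R7_0.realizes
  · exact R7_1.realizes
  · exact realizes_of_smallOK DataSmall.h7_2
  · exact R7_3.realizes
  · exact R7_4.realizes
  · exact R7_5.realizes
  · exact R7_6.realizes
  · exact R7_7.realizes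
  · exact realizes_of_smallOK DataSmall.h7_8
  · exact realizes_of_smallOK DataSmall.h7_9
  · exact R7_10.realizes
  · exact R7_11.realizes
  · exact realizes_of_smallOK DataSmall.h7_12
  · exact R7_13.realizes
  · exact realizes_of_smallOK DataSmall.h7_14
  · exact realizes_of_smallOK DataSmall.h7_15
  · exact realizes_of_smallOK DataSmall.h7_16
  · exact realizes_of_smallOK DataSmall.h7_17
  · exact R7_18.realizes
  · exact realizes_of_smallOK DataSmall.h7_19
  · exact realizes_of_smallOK DataSmall.h7_20
  · exact R7_21.realizes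
  · exact realizes_of_smallOK DataSmall.h7_22
  · exact realizes_of_smallOK DataSmall.h7_23
  · exact R7_24.realizes
  · exact R7_25.realizes
  · exact realizes_of_smallOK DataSmall.h7_26
  · exact realizes_of_smallOK DataSmall.h7_27
  · exact realizes_of_smallOK DataSmall.h7_28
  · exact realizes_of_smallOK DataSmall.h7_29
  · exact realizes_of_smallOK DataSmall.h7_30
  · exact realizes_of_smallOK DataSmall.h7_31
  · exact realizes_of_smallOK DataSmall.h7_32
  · exact realizes_of_smallOK DataSmall.h7_33
  · exact realizes_of_smallOK DataSmall.h7_34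
  · exact realizes_of_smallOK DataSmall.h7_35
  · exact realizes_of_smallOK DataSmall.h7_36
  · exact realizes_of_smallOK DataSmall.h7_37
  · exact realizes_of_smallOK DataSmall.h7_38
  · exact R7_39.realizes
  · exact realizes_of_smallOK DataSmall.h7_40
  · exact R7_41.realizes
  · exact realizes_of_smallOK DataSmall.h7_42
  · exact realizes_of_smallOK DataSmall.h7_43
  · exact realizes_of_smallOK DataSmall.h7_44
  · exact realizes_of_smallOK DataSmall.h7_45
  · exact realizes_of_smallOK DataSmall.h7_46
  · exact realizes_of_smallOK DataSmall.h7_47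
  · exact realizes_of_smallOK DataSmall.h7_48
  · exact realizes_of_smallOK DataSmall.h7_49
  · exact realizes_of_smallOK DataSmall.h7_50
  · exact realizes_of_smallOK DataSmall.h7_51
  · exact realizes_of_smallOK DataSmall.h7_52

/-- the table of lattice masks with 7 elements -/
def table7 : List (Option (Nat × List Nat)) := [some (0, [0,1,2,3,4,5,6]), some (512, [0,4,5,1,2,3,6]), some (512, [0,4,1,5,2,3,6]), some (288, [0,3,4,5,1,2,6]), some (512, [0,1,4,5,2,3,6]), none, some (768, [0,3,4,5,1,2,6]), some (800, [0,3,4,5,1,2,6]), some (512, [0,4,1,2,5,3,6]), some (288, [0,3,4,1,5,2,6]), some (288, [0,3,1,4,5,2,6]), some (148, [0,2,3,4,5,1,6]), some (160, [0,2,3,4,5,1,6]), none, some (416, [0,3,2,5,4,1,6]), some (660, [0,2,4,5,3,1,6]), some (512, [0,1,4,2,5,3,6]), none, some (160, [0,2,3,5,4,1,6]), none, some (288, [0,1,3,4,5,2,6]), none, some (416, [0,2,3,5,4,1,6]), none, some (768, [0,3,4,1,5,2,6]), some (800, [0,3,4,1,5,2,6]), some (416, [0,3,2,4,5,1,6]), some (660, [0,2,4,3,5,1,6]), some (416, [0,2,3,4,5,1,6]), none, none, some (436, [0,2,3,4,5,1,6]),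 some (512, [0,1,2,4,5,3,6]), some (160, [0,2,5,3,4,1,6]), none, none, none, none, none, none, some (768, [0,3,1,4,5,2,6]), some (416, [0,3,4,2,5,1,6]), some (800, [0,3,1,4,5,2,6]), some (660, [0,2,3,4,5,1,6]), none, none, none, none, some (768, [0,1,3,4,5,2,6]), none, none, none, some (800, [0,1,3,4,5,2,6]), none, none, none, some (896, [0,2,3,4,5,1,6]), some (928, [0,3,4,2,5,1,6]), some (928, [0,3,2,4,5,1,6]), some (916, [0,2,3,4,5,1,6]), some (928, [0,2,3,4,5,1,6]), none, some (944, [0,2,3,4,5,1,6]), some (948, [0,2,3,4,5,1,6]), some (512, [0,4,1,2,3,5,6]), some (288, [0,3,4,1,2,5,6]), some (288, [0,3,1,4,2,5,6]), some (148, [0,2,3,4,1,5,6]), some (160, [0,2,3,4,1,5,6]), none, some (416, [0,3,2,5,1,4,6]), some (660, [0,2,4,5,1,3,6]), some (288, [0,3,1,2,4,5,6]), some (148, [0,2,3,1,4,5,6]), some (148, [0,2,1,3,4,5,6]), some (75, [0,1,2,3,4,5,6]), some (84, [0,2,1,5,3,4,6]), none, some (212, [0,2,1,5,3,4,6]), some (587, [0,1,4,5,2,3,6]), some (160, [0,2,3,1,4,5,6]), none, some (84, [0,2,1,3,5,4,6]), none, some (84, [0,1,2,3,4,5,6]), none, some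 (204, [0,1,2,5,3,4,6]), none, some (416, [0,3,2,1,5,4,6]), some (660, [0,2,4,1,5,3,6]), some (212, [0,2,1,3,5,4,6]), some (587, [0,1,4,2,5,3,6]), some (204, [0,1,2,3,5,4,6]), none, none, some (363, [0,1,3,4,5,2,6]), some (160, [0,2,1,3,4,5,6]), some (84, [0,2,3,1,5,4,6]), none, none, none, none, none, none, some (416, [0,3,1,2,5,4,6]), some (212, [0,2,3,1,5,4,6]), some (660, [0,2,1,4,5,3,6]), some (587, [0,1,2,4,5,3,6]), none, none, none, none, some (224, [0,3,1,2,5,4,6]), none, none, none, some (116, [0,1,2,3,4,5,6]), none, none, none, some (480, [0,3,1,2,5,4,6]), some (724, [0,2,4,1,5,3,6]), some (724, [0,2,1,4,5,3,6]), some (843, [0,1,3,4,5,2,6]), some (716, [0,2,1,4,5,3,6]), none, some (732, [0,2,1,4,5,3,6]), some (875, [0,1,3,4,5,2,6]), some (512, [0,1,4,2,3,5,6]), none, some (160, [0,2,3,5,1,4,6]), none, some (288, [0,1,3,4,2,5,6]), none, some (416, [0,2,3,5,1,4,6]), none, some (160, [0,2,3,1,5,4,6]), none, some (84, [0,2,1,3,4,5,6]), none, some (84, [0,1,2,3,5,4,6]), none, some (204, [0,1,2,5,4,3,6]), none, some (288, [0,1,3,2,4,5,6]), none,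 some (84, [0,1,2,5,3,4,6]), none, some (148, [0,1,2,3,4,5,6]), none, some (212, [0,1,2,5,3,4,6]), none, some (416, [0,2,3,1,5,4,6]), none, some (204, [0,1,2,4,5,3,6]), none, some (212, [0,1,2,3,5,4,6]), none, none, none, some (160, [0,1,2,3,4,5,6]), none, none, none, none, none, none, none, some (224, [0,1,3,2,5,4,6]), none, some (116, [0,2,1,3,4,5,6]), none, none, none, none, none, some (416, [0,1,3,2,5,4,6]), none, none, none, some (660, [0,1,2,4,5,3,6]), none, none, none, some (480, [0,1,3,2,5,4,6]), none, some (716, [0,1,2,4,5,3,6]), none, some (724, [0,1,2,4,5,3,6]), none, some (732, [0,1,2,4,5,3,6]), none, some (768, [0,3,4,1,2,5,6]), some (800, [0,3,4,1,2,5,6]), some (416, [0,3,2,4,1,5,6]), some (660, [0,2,4,3,1,5,6]), some (416, [0,2,3,4,1,5,6]), none, none, some (436, [0,2,3,4,1,5,6]), some (416, [0,3,2,1,4,5,6]), some (660, [0,2,4,1,3,5,6]), some (212, [0,2,1,3,4,5,6]), some (587, [0,1,4,2,3,5,6]), some (204, [0,1,2,3,4,5,6]), none, none, some (363, [0,1,3,4,2,5,6]), some (416, [0,2,3,1,4,5,6]), none, some (204, [0,1,2,4,3,5,6]), none,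 some (212, [0,1,2,3,4,5,6]), none, none, none, none, some (436, [0,2,3,1,4,5,6]), none, some (363, [0,1,3,2,4,5,6]), none, none, none, some (223, [0,1,2,3,4,5,6]), some (224, [0,1,2,3,4,5,6]), some (116, [0,2,3,1,5,4,6]), none, none, none, none, none, none, some (368, [0,3,1,2,4,5,6]), some (244, [0,2,3,1,5,4,6]), some (244, [0,2,1,3,4,5,6]), some (235, [0,1,2,3,4,5,6]), none, none, none, none, some (368, [0,1,3,2,4,5,6]), none, none, none, some (244, [0,1,2,3,4,5,6]), none, none, none, none, some (500, [0,2,3,1,5,4,6]), none, some (491, [0,1,3,2,5,4,6]), none, none, none, some (735, [0,1,2,4,5,3,6]), some (512, [0,1,2,4,3,5,6]), some (160, [0,2,5,3,1,4,6]), none, none, none, none, none, none, some (160, [0,2,1,3,5,4,6]), some (84, [0,2,3,1,4,5,6]), none, none, none, none, none, none, some (160, [0,1,2,3,5,4,6]), none, none, none, none, none, none, none, some (224, [0,1,2,3,5,4,6]), some (116, [0,2,3,1,4,5,6]), none, none, none, none, none, none, some (288, [0,1,2,3,4,5,6]), some (84, [0,1,5,2,3,4,6]), none, none, none, none, none, none, some (416,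 [0,2,1,3,5,4,6]), some (204, [0,1,4,2,5,3,6]), none, none, none, none, none, none, some (416, [0,1,2,3,5,4,6]), none, none, none, none, none, none, none, some (480, [0,1,2,3,5,4,6]), some (716, [0,1,4,2,5,3,6]), none, none, none, none, none, none, some (768, [0,3,1,4,2,5,6]), some (416, [0,3,4,2,1,5,6]), some (800, [0,3,1,4,2,5,6]), some (660, [0,2,3,4,1,5,6]), none, none, none, none, some (416, [0,3,1,2,4,5,6]), some (212, [0,2,3,1,4,5,6]), some (660, [0,2,1,4,3,5,6]), some (587, [0,1,2,4,3,5,6]), none, none, none, none, some (224, [0,1,3,2,4,5,6]), none, some (116, [0,2,1,3,5,4,6]), none, none, none, none, none, some (368, [0,3,1,2,5,4,6]), some (244, [0,2,3,1,4,5,6]), some (244, [0,2,1,3,5,4,6]), some (235, [0,1,2,3,5,4,6]), none, none, none, none, some (416, [0,2,1,3,4,5,6]), some (204, [0,1,4,2,3,5,6]), none, none, none, none, none, none, none, none, some (436, [0,2,1,3,4,5,6]), some (363, [0,1,2,3,4,5,6]), none, none, none, none, some (368, [0,1,2,3,4,5,6]), none, none, none, none, none, none, none, none, none, some (500, [0,2,1,3,5,4,6]),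 some (491, [0,1,2,3,5,4,6]), none, none, none, none, some (768, [0,1,3,4,2,5,6]), none, none, none, some (800, [0,1,3,4,2,5,6]), none, none, none, some (224, [0,3,1,2,4,5,6]), none, none, none, some (116, [0,1,2,3,5,4,6]), none, none, none, some (416, [0,1,3,2,4,5,6]), none, none, none, some (660, [0,1,2,4,3,5,6]), none, none, none, some (368, [0,1,3,2,5,4,6]), none, none, none, some (244, [0,1,2,3,5,4,6]), none, none, none, some (416, [0,1,2,3,4,5,6]), none, none, none, none, none, none, none, some (368, [0,1,2,3,5,4,6]), none, none, none, none, none, none, none, none, none, none, none, some (436, [0,1,2,3,4,5,6]), none, none, none, none, none, none, none, some (500, [0,1,2,3,5,4,6]), none, none, none, some (896, [0,2,3,4,1,5,6]), some (928, [0,3,4,2,1,5,6]), some (928, [0,3,2,4,1,5,6]), some (916, [0,2,3,4,1,5,6]), some (928, [0,2,3,4,1,5,6]), none, some (944, [0,2,3,4,1,5,6]), some (948, [0,2,3,4,1,5,6]), some (480, [0,3,1,2,4,5,6]), some (724, [0,2,4,1,3,5,6]), some (724, [0,2,1,4,3,5,6]), some (843, [0,1,3,4,2,5,6]), some (716, [0,2,1,4,3,5,6]),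 none, some (732, [0,2,1,4,3,5,6]), some (875, [0,1,3,4,2,5,6]), some (480, [0,1,3,2,4,5,6]), none, some (716, [0,1,2,4,3,5,6]), none, some (724, [0,1,2,4,3,5,6]), none, some (732, [0,1,2,4,3,5,6]), none, none, some (500, [0,2,3,1,4,5,6]), none, some (491, [0,1,3,2,4,5,6]), none, none, none, some (735, [0,1,2,4,3,5,6]), some (480, [0,1,2,3,4,5,6]), some (716, [0,1,4,2,3,5,6]), none, none, none, none, none, none, none, none, some (500, [0,2,1,3,4,5,6]), some (491, [0,1,2,3,4,5,6]), none, none, none, none, none, none, none, none, some (500, [0,1,2,3,4,5,6]), none, none, none, none, none, none, none, none, none, some (510, [0,1,2,3,4,5,6]), some (511, [0,1,2,3,4,5,6]), some (512, [0,1,2,3,4,5,6]), some (160, [0,2,5,1,3,4,6]), some (160, [0,2,1,5,3,4,6]), some (84, [0,2,3,4,1,5,6]), some (160, [0,1,2,5,3,4,6]), none, some (224, [0,1,2,5,3,4,6]), some (116, [0,2,3,4,1,5,6]), none, none, none, none, none, none, none, none, none, none, none, none, none, none, none, none, none, none, none, none, none, none, none, none, none, none, none, none, none, none,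 none, none, none, none, none, none, none, none, none, none, none, none, none, none, none, none, none, none, none, none, none, none, none, none, none, none, some (768, [0,3,1,2,4,5,6]), some (416, [0,3,4,1,2,5,6]), some (416, [0,3,1,4,2,5,6]), some (212, [0,2,3,4,1,5,6]), some (224, [0,1,3,4,2,5,6]), none, some (368, [0,3,1,5,2,4,6]), some (244, [0,2,3,4,1,5,6]), some (800, [0,3,1,2,4,5,6]), some (660, [0,2,3,1,4,5,6]), some (660, [0,2,1,3,4,5,6]), some (587, [0,1,2,3,4,5,6]), some (116, [0,2,1,5,3,4,6]), none, some (244, [0,2,1,5,3,4,6]), some (235, [0,1,2,5,3,4,6]), none, none, none, none, none, none, none, none, none, none, none, none, none, none, none, none, none, none, none, none, none, none, none, none, none, none, none, none, none, none, none, none, none, none, none, none, none, none, none, none, none, none, none, none, none, none, none, none, some (768, [0,1,3,2,4,5,6]), none, some (224, [0,3,1,4,2,5,6]), none, some (416, [0,1,3,4,2,5,6]), none, some (368, [0,1,3,5,2,4,6]), none, none, none, none, none, none, none, none, none, some (800,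 [0,1,3,2,4,5,6]), none, some (116, [0,1,2,5,3,4,6]), none, some (660, [0,1,2,3,4,5,6]), none, some (244, [0,1,2,5,3,4,6]), none, none, none, none, none, none, none, none, none, none, none, none, none, none, none, none, none, none, none, none, none, none, none, none, none, none, none, none, none, none, none, none, none, none, none, none, none, none, none, none, none, some (896, [0,2,3,1,4,5,6]), some (928, [0,3,4,1,2,5,6]), some (480, [0,3,1,4,2,5,6]), some (724, [0,2,4,3,1,5,6]), some (480, [0,1,3,4,2,5,6]), none, none, some (500, [0,2,3,4,1,5,6]), some (928, [0,3,2,1,4,5,6]), some (916, [0,2,3,1,4,5,6]), some (724, [0,2,1,3,4,5,6]), some (843, [0,1,3,2,4,5,6]), some (716, [0,1,2,3,4,5,6]), none, none, some (491, [0,1,3,4,2,5,6]), some (928, [0,2,3,1,4,5,6]), none, some (716, [0,2,1,3,4,5,6]), none, some (724, [0,1,2,3,4,5,6]), none, none, none, some (944, [0,2,3,1,4,5,6]), some (948, [0,2,3,1,4,5,6]), some (732, [0,2,1,3,4,5,6]), some (875, [0,1,3,2,4,5,6]), some (732, [0,1,2,3,4,5,6]), none, none, some (735, [0,1,2,3,4,5,6]), none, none, none,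 none, none, none, none, none, none, none, none, none, none, none, none, none, none, none, none, none, none, none, none, none, none, none, none, none, none, none, none, none, some (768, [0,1,2,3,4,5,6]), some (224, [0,3,4,1,2,5,6]), none, none, none, none, none, none, none, none, none, none, none, none, none, none, none, none, none, none, none, none, none, none, none, none, none, none, none, none, none, none, some (800, [0,1,2,3,4,5,6]), some (116, [0,1,5,2,3,4,6]), none, none, none, none, none, none, none, none, none, none, none, none, none, none, none, none, none, none, none, none, none, none, none, none, none, none, none, none, none, none, some (896, [0,2,1,3,4,5,6]), some (480, [0,3,4,1,2,5,6]), some (928, [0,3,1,4,2,5,6]), some (724, [0,2,3,4,1,5,6]), none, none, none, none, some (928, [0,3,1,2,4,5,6]), some (724, [0,2,3,1,4,5,6]), some (916, [0,2,1,3,4,5,6]), some (843, [0,1,2,3,4,5,6]), none, none, none, none, none, none, none, none, none, none, none, none, none, none, none, none, none, none, none, none, some (928, [0,2,1,3,4,5,6]), some (716,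 [0,2,3,1,4,5,6]), none, none, none, none, none, none, some (944, [0,2,1,3,4,5,6]), some (732, [0,2,3,1,4,5,6]), some (948, [0,2,1,3,4,5,6]), some (875, [0,1,2,3,4,5,6]), none, none, none, none, none, none, none, none, none, none, none, none, none, none, none, none, none, none, none, none, some (896, [0,1,2,3,4,5,6]), none, none, none, some (928, [0,1,3,4,2,5,6]), none, none, none, none, none, none, none, none, none, none, none, some (928, [0,1,3,2,4,5,6]), none, none, none, some (916, [0,1,2,3,4,5,6]), none, none, none, none, none, none, none, none, none, none, none, some (928, [0,1,2,3,4,5,6]), none, none, none, none, none, none, none, none, none, none, none, none, none, none, none, some (944, [0,1,2,3,4,5,6]), none, none, none, some (948, [0,1,2,3,4,5,6]), none, none, none, none, none, none, none, none, none, none, none, some (960, [0,1,2,3,4,5,6]), some (992, [0,3,4,1,2,5,6]), some (992, [0,3,1,4,2,5,6]), some (980, [0,2,3,4,1,5,6]), some (992, [0,1,3,4,2,5,6]), none, some (1008, [0,2,3,4,1,5,6]), some (1012, [0,2,3,4,1,5,6]), some (992, [0,3,1,2,4,5,6]),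 some (980, [0,2,3,1,4,5,6]), some (980, [0,2,1,3,4,5,6]), some (971, [0,1,2,3,4,5,6]), some (972, [0,1,2,3,4,5,6]), none, some (988, [0,2,1,4,3,5,6]), some (1003, [0,1,3,4,2,5,6]), some (992, [0,1,3,2,4,5,6]), none, some (972, [0,1,2,4,3,5,6]), none, some (980, [0,1,2,3,4,5,6]), none, some (988, [0,1,2,4,3,5,6]), none, some (1008, [0,2,3,1,4,5,6]), some (1012, [0,2,3,1,4,5,6]), some (988, [0,2,1,3,4,5,6]), some (1003, [0,1,3,2,4,5,6]), some (988, [0,1,2,3,4,5,6]), none, none, some (991, [0,1,2,3,4,5,6]), some (992, [0,1,2,3,4,5,6]), some (972, [0,1,4,2,3,5,6]), none, none, none, none, none, none, some (1008, [0,2,1,3,4,5,6]), some (988, [0,2,3,1,4,5,6]), some (1012, [0,2,1,3,4,5,6]), some (1003, [0,1,2,3,4,5,6]), none, none, none, none, some (1008, [0,1,2,3,4,5,6]), none, none, none, some (1012, [0,1,2,3,4,5,6]), none, none, none, some (1016, [0,1,2,3,4,5,6]), some (1020, [0,2,3,1,4,5,6]), some (1020, [0,2,1,3,4,5,6]), some (1019, [0,1,2,3,4,5,6]), some (1020, [0,1,2,3,4,5,6]), none, some (1022, [0,1,2,3,4,5,6]), some (1023, [0,1,2,3,4,5,6])]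

theorem htable7 : tableGo 7 classes7 table7 0 = true := by decide +kernel
theorem hlen7 : table7.length = 2 ^ bitsOf 7 := by decide +kernel

theorem rep7 (L : Type u) [Lattice L] [Fintype L] (h : Fintype.card L = 7) : Representable L := by
  refine representable_of_dense (m := 7) (by decide) hcl7 ?_ L h
  intro mask hmask
  have := tableGo_spec _ 0 htable7 mask (by rw [hlen7]; exact hmask)
  rwa [Nat.zero_add] at this

/-- Every lattice with at most seven elements is representable. -/
theorem upTo (L : Type u) [Lattice L] [Fintype L] [Nonempty L] (h : Fintype.card L ≤ 7) : Representable L := by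
  have hpos : 0 < Fintype.card L := Fintype.card_pos
  have hc : Fintype.card L = 1 ∨ Fintype.card L = 2 ∨ Fintype.card L = 3 ∨ Fintype.card L = 4 ∨ Fintype.card L = 5 ∨ Fintype.card L = 6 ∨ Fintype.card L = 7 := by omega
  rcases hc with hc | hc | hc | hc | hc | hc | hc
  · exact rep1 L hc
  · exact rep2 L hc
  · exact rep3 L hc
  · exact rep4 L hc
  · exact rep5 L hc
  · exact rep6 L hc
  · exact rep7 L hc

end Vale.Agent.Lib.P183.Final
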