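import Vale.Agent.Lib.P183.R7_7T

namespace Vale.Agent.Lib.P183.R7_7

open Vale.Agent.Lib.P183.Walk

theorem cAX : compatOK 43680 a tX (lk PiAX) = true := by decide +kernel
theorem cAS : compatOK 43680 a tS (lk PiAS) = true := by decide +kernel
theorem cAC : compatOK 43680 a tC (lk PiAC) = true := by decide +kernel
theorem cAD : compatOK 43680 a tD (lk PiAD) = true := by decide +kernel

end Vale.Agent.Lib.P183.R7_7
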