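import Vale.Agent.Lib.P183.Defs
import Mathlib.Data.Fintype.Basic
import Mathlib.Data.Fintype.Order
import Mathlib.Data.Fin.Basic
import Mathlib.Order.Extension.Linear

/-!
A semantic interface between explicit unary algebras on `Fin n` and representations of lattices.
-/

namespace Vale.Agent.Lib.P183

universe u

/-- The Boolean relation `R` on `{0, ..., m-1}` is realized by a unary algebra on `Fin n`: the
compatible equivalence relations are exactly `Θ 0, ..., Θ (m-1)`, ordered as `R` says. -/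
def Realizes (m : Nat) (R : Nat → Nat → Bool) : Prop :=
  ∃ (n : Nat) (_ : 0 < n) (gs : List (Fin n → Fin n)) (Θ : Nat → Setoid (Fin n)),
    (∀ i, i < m → ∀ g ∈ gs, ∀ x y, (Θ i).r x y → (Θ i).r (g x) (g y)) ∧
    (∀ r : Setoid (Fin n), (∀ g ∈ gs, ∀ x y, r.r x y → r.r (g x) (g y)) →
      ∃ i, i < m ∧ r = Θ i) ∧
    (∀ i j, i < m → j < m → (R i j = true ↔ Θ i ≤ Θ j))

/-- the unary operation coded by a map -/
def unaryOpS {A : Type} (g : A → A) : (Σ n : ℕ, (Fin n → A) → A) :=
  ⟨1, fun x => g (x (0 : Fin 1))⟩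

theorem isCongruence_iffS {A : Type} (gs : List (A → A)) (r : Setoid A) :
    IsCongruence (gs.map unaryOpS) r ↔ ∀ g ∈ gs, ∀ x y, r.r x y → r.r (g x) (g y) := by
  constructor
  · intro h g hg x y hxy
    have := h (unaryOpS g) (List.mem_map.mpr ⟨g, hg, rfl⟩) (fun _ => x) (fun _ => y) (fun _ => hxy)
    exact this
  · intro h op hop x y hxy
    obtain ⟨g, hg, rfl⟩ := List.mem_map.mp hop
    exact h g hg _ _ (hxy (0 : Fin 1))

/-- A realization of the order of a partially ordered type gives a representation. -/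
theorem representable_of_realizes {L : Type u} [PartialOrder L] {m : Nat} (e : L ≃ Fin m)
    {R : Nat → Nat → Bool} (hR : ∀ a b : L, R (e a).val (e b).val = true ↔ a ≤ b)
    (h : Realizes m R) : Representable L := by
  obtain ⟨n, hn, gs, Θ, hc, hcl, hle⟩ := h
  have hθ : ∀ a : L, IsCongruence (gs.map unaryOpS) (Θ (e a).val) := by
    intro a
    rw [isCongruence_iffS]
    exact hc _ (e a).isLt
  let φ : L → {r : Setoid (Fin n) // IsCongruence (gs.map unaryOpS) r} :=
    fun a => ⟨Θ (e a).val, hθ a⟩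
  have hφ : ∀ a b, φ a ≤ φ b ↔ a ≤ b := by
    intro a b
    rw [← hR a b, hle _ _ (e a).isLt (e b).isLt]
    exact Iff.rfl
  have hsφ : Function.Surjective φ := by
    rintro ⟨r, hr⟩
    rw [isCongruence_iffS] at hr
    obtain ⟨i, hi, rfl⟩ := hcl r hr
    refine ⟨e.symm ⟨i, hi⟩, ?_⟩
    apply Subtype.ext
    show Θ (e (e.symm ⟨i, hi⟩)).val = Θ i
    simp
  refine ⟨Fin n, inferInstance, ⟨⟨0, hn⟩⟩, gs.map unaryOpS, ⟨?_⟩⟩
  exact RelIso.ofSurjective (OrderEmbedding.ofMapLEIff φ hφ) hsφ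

/-- Transport of a realization along a bijection of the index set. -/
theorem Realizes.transport {m : Nat} {R S : Nat → Nat → Bool} (h : Realizes m S)
    (π : Nat → Nat) (hπ : ∀ i, i < m → π i < m) (hs : ∀ k, k < m → ∃ i, i < m ∧ π i = k)
    (hag : ∀ i j, i < m → j < m → R i j = S (π i) (π j)) : Realizes m R := by
  obtain ⟨n, hn, gs, Θ, hc, hcl, hle⟩ := h
  refine ⟨n, hn, gs, fun i => Θ (π i), ?_, ?_, ?_⟩
  · intro i hi
    exact hc _ (hπ i hi)
  · intro r hr
    obtain ⟨k, hk, rfl⟩ := hcl r hr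
    obtain ⟨i, hi, rfl⟩ := hs k hk
    exact ⟨i, hi, rfl⟩
  · intro i j hi hj
    rw [hag i j hi hj]
    exact hle _ _ (hπ i hi) (hπ j hj)

end Vale.Agent.Lib.P183
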