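import Vale.Agent.Lib.P183.Fast
import Vale.Agent.Lib.P183.Assemble

/-!
Assembling realizations of the lattice classes into representations of all small lattices.
-/

namespace Vale.Agent.Lib.P183

universe u

open Fast (allB allB_spec)

/-- A table entry for a mask: `none` claims that the mask does not code a lattice, `some (M, π)`
claims that it codes a lattice isomorphic, through `π`, to the one coded by the class mask `M`. -/
def entryCheck (m : Nat) (classes : List Nat) (mask : Nat) : Option (Nat × List Nat) → Bool
  | none => !(isLat m (relOf m mask))
  | some (M, π) =>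
    classes.contains M &&
    allLt (fun i => Nat.blt (lab π i) m) m &&
    allLt (fun k => anyLt (fun i => Nat.beq (lab π i) k) m) m &&
    allLt (fun i => allLt (fun j =>
      (relOf m mask i j) == (relOf m M (lab π i) (lab π j))) m) m

/-- checks the dense table from mask `i` on -/
def tableGo (m : Nat) (classes : List Nat) : List (Option (Nat × List Nat)) → Nat → Bool
  | [], _ => true
  | a :: t, i => entryCheck m classes i a && tableGo m classes t (i + 1)

theorem tableGo_spec {m : Nat} {classes : List Nat} :
    ∀ (l : List (Option (Nat × List Nat))) (i : Nat), tableGo m classes l i = true →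
      ∀ k, k < l.length → ∃ a, entryCheck m classes (i + k) a = true := by
  intro l
  induction l with
  | nil => intro i _ k hk; simp at hk
  | cons a t ih =>
    intro i h k hk
    simp only [tableGo, Bool.and_eq_true] at h
    cases k with
    | zero => exact ⟨a, by simpa using h.1⟩
    | succ k =>
      have := ih (i + 1) h.2 k (by simpa using hk)
      rwa [show i + 1 + k = i + (k + 1) by omega] at this

/-- from a realization of the classes and a checked table entry to a realization of the mask -/
theorem realizes_of_entry {m : Nat} {classes : List Nat}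
    (hcl : ∀ M ∈ classes, Realizes m (relOf m M)) {mask : Nat}
    {a : Option (Nat × List Nat)} (h : entryCheck m classes mask a = true)
    (hlat : isLat m (relOf m mask) = true) : Realizes m (relOf m mask) := by
  cases a with
  | none => simp [entryCheck, hlat] at h
  | some x =>
    obtain ⟨M, π⟩ := x
    simp only [entryCheck, Bool.and_eq_true] at h
    obtain ⟨⟨⟨h1, h2⟩, h3⟩, h4⟩ := h
    have hM : M ∈ classes := by simpa using h1
    refine (hcl M hM).transport (fun i => lab π i) ?_ ?_ ?_
    · intro i hi
      simpa using allLt_spec h2 hi
    · intro k hk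
      obtain ⟨i, hi, h5⟩ := anyLt_spec (allLt_spec h3 hk)
      exact ⟨i, hi, Nat.eq_of_beq_eq_true h5⟩
    · intro i j hi hj
      have := allLt_spec (allLt_spec h4 hi) hj
      simpa using this

/-- The final reduction: a realization for all lattice masks gives representability. -/
theorem representable_of_masks {m : Nat} (hm : m < 9)
    (h : ∀ mask, mask < 2 ^ bitsOf m → isLat m (relOf m mask) = true → Realizes m (relOf m mask))
    (L : Type u) [Lattice L] [Fintype L] (hcard : Fintype.card L = m) : Representable L := by
  subst hcard
  obtain ⟨e, he⟩ := exists_mono_equiv L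
  obtain ⟨mask, hmask, hag⟩ := exists_mask e he hm
  have hlat : isLat (Fintype.card L) (relOf (Fintype.card L) mask) = true := by
    rw [← isLat_congr hag]
    exact isLat_relL e
  have hr := h mask hmask hlat
  refine representable_of_realizes e (R := relL e) (relL_elt e) ?_
  refine hr.transport (fun i => i) (fun _ hi => hi) (fun k hk => ⟨k, hk, rfl⟩) ?_
  intro i j hi hj
  exact hag i j hi hj

/-- The final reduction in the form of a dense table. -/
theorem representable_of_dense {m : Nat} (hm : m < 9) {classes : List Nat}
    (hcl : ∀ M ∈ classes, Realizes m (relOf m M))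
    (hparts : ∀ mask, mask < 2 ^ bitsOf m → ∃ a, entryCheck m classes mask a = true)
    (L : Type u) [Lattice L] [Fintype L] (hcard : Fintype.card L = m) : Representable L := by
  refine representable_of_masks hm ?_ L hcard
  intro mask hmask hlat
  obtain ⟨a, ha⟩ := hparts mask hmask
  exact realizes_of_entry hcl ha hlat

/-- realization from an algebra validated by the first checker -/
theorem realizes_of_rep (R : Rep) (h : Good R) {m : Nat} (hlen : R.thetas.length = m)
    {rel : Nat → Nat → Bool}
    (hrel : ∀ i j, i < m → j < m → rel i j =
      leB R.n (R.thetas.getD i []) (R.thetas.getD j [])) : Realizes m rel := by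
  subst hlen
  obtain ⟨hn, hcan, -, hcomp, -⟩ := checkCommon_parts h.1
  let gs : List (Fin R.n → Fin R.n) := R.maps.map (toMap hn)
  have hmem : ∀ i, i < R.thetas.length → R.thetas.getD i [] ∈ R.thetas := by
    intro i hi
    rw [List.getD_eq_getElem _ _ hi]
    exact List.getElem_mem hi
  refine ⟨R.n, hn, gs, fun i => labSetoid R.n (R.thetas.getD i []), ?_, ?_, ?_⟩
  · intro i hi g hg x y hxy
    obtain ⟨f, hf, rfl⟩ := List.mem_map.mp hg
    exact compatB_sound hn (hcomp f hf _ (hmem i hi)) x y hxy
  · intro r hr
    have hr' : CompatAll hn R.maps r := by
      intro f hf x y hxy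
      exact hr _ (List.mem_map.mpr ⟨f, hf, rfl⟩) x y hxy
    obtain ⟨θ, hθ, rfl⟩ := closed_of_good h hn r hr'
    obtain ⟨i, hi, rfl⟩ := List.mem_iff_getElem.mp hθ
    refine ⟨i, hi, ?_⟩
    show labSetoid R.n R.thetas[i] = labSetoid R.n (R.thetas.getD i [])
    rw [List.getD_eq_getElem _ _ hi]
  · intro i j hi hj
    rw [hrel i j hi hj]
    exact ⟨leB_sound, leB_complete (hcan _ (hmem i hi))⟩

/-- check of a small class: the algebra passes the direct checker and has the right order -/
def smallOK (m M : Nat) (R : Rep) : Bool :=
  checkRep R && Nat.beq R.thetas.length m &&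
  allLt (fun i => allLt (fun j =>
    (relOf m M i j) == leB R.n (R.thetas.getD i []) (R.thetas.getD j [])) m) m

theorem realizes_of_smallOK {m M : Nat} {R : Rep} (h : smallOK m M R = true) :
    Realizes m (relOf m M) := by
  simp only [smallOK, Bool.and_eq_true] at h
  obtain ⟨⟨h1, h2⟩, h3⟩ := h
  refine realizes_of_rep R (good_of_checkRep h1) (Nat.eq_of_beq_eq_true h2) ?_
  intro i j hi hj
  simpa using allLt_spec (allLt_spec h3 hi) hj

end Vale.Agent.Lib.P183
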