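import Vale.Agent.Lib.P183.Fast

/-!
A checker for transitive unary algebras with two invertible generators, where the principal
congruences are controlled through short words in the generators, in the spirit of computing in a
permutation group: a point `z` in the class of the base point `0` of a congruence is moved by any
word `f` with `f 0` in this class. The tables of the algebra are stored as lists of digit strings.
-/

namespace Vale.Agent.Lib.P183.Walk

open Fast (allB allB_spec getN getN_mem PP PP.symm PP.trans PP.refl memN memN_spec)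

/-- selection of a chunk; the forced index lets the kernel share the results -/
noncomputable def sel (X : List Nat) (j : Nat) : Nat :=
  Nat.rec (getN X 0) (fun k _ => getN X (Nat.succ k)) j

/-- entry `i` of a table coded by chunks of `1024` digits of `16` bits -/
noncomputable def lk (X : List Nat) (i : Nat) : Nat :=
  Nat.land (Nat.shiftRight (sel X (Nat.shiftRight i 10)) (Nat.mul 16 (Nat.land i 1023))) 65535

section Gen

variable (a b : Nat → Nat)

/-- `f` lies in the monoid generated by `a` and `b`, in impredicative form -/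
def Gen (f : Nat → Nat) : Prop :=
  ∀ P : Nat → Nat → Prop, (∀ p q, P p q → P (a p) (a q)) → (∀ p q, P p q → P (b p) (b q)) →
    ∀ p q, P p q → P (f p) (f q)

theorem gen_a : Gen a b a := fun _ ha _ => ha
theorem gen_b : Gen a b b := fun _ _ hb => hb
theorem gen_id : Gen a b (fun z => z) := fun _ _ _ _ _ h => h

variable {a b}

theorem Gen.comp {f g : Nat → Nat} (hf : Gen a b f) (hg : Gen a b g) :
    Gen a b (fun z => f (g z)) :=
  fun P ha hb p q h => hf P ha hb _ _ (hg P ha hb _ _ h)

variable (a b)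

/-- apply a word coded by binary digits, the lowest digit first -/
noncomputable def W (len : Nat) : Nat → Nat → Nat :=
  Nat.rec (fun _ z => z)
    (fun _ ih w z => ih (Nat.shiftRight w 1) (cond (Nat.beq (Nat.land w 1) 0) (a z) (b z))) len

theorem W_zero (w : Nat) : W a b 0 w = fun z => z := rfl

theorem W_succ (len w z : Nat) : W a b (len + 1) w z =
    W a b len (Nat.shiftRight w 1) (cond (Nat.beq (Nat.land w 1) 0) (a z) (b z)) := rfl

variable (n : Nat)

/-- `f` is in the monoid generated by `a` and `b` and has on `{0, ..., n-1}` a two-sided inverse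
in the same monoid -/
def Iso (f : Nat → Nat) : Prop :=
  ∃ f', Gen a b f ∧ Gen a b f' ∧ (∀ p, p < n → f (f' p) = p) ∧ (∀ p, p < n → f' (f p) = p)

variable {a b n}

theorem gen_lt (ha : ∀ p, a p < n) (hb : ∀ p, b p < n) {f : Nat → Nat} (hf : Gen a b f) {p : Nat}
    (hp : p < n) : f p < n := by
  have := hf (fun p q => p < n ∧ q < n) (fun _ _ _ => ⟨ha _, ha _⟩) (fun _ _ _ => ⟨hb _, hb _⟩)
    p p ⟨hp, hp⟩
  exact this.1

theorem iso_id : Iso a b n (fun z => z) :=
  ⟨fun z => z, gen_id a b, gen_id a b, fun _ _ => rfl, fun _ _ => rfl⟩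

theorem Iso.symm {f : Nat → Nat} (h : Iso a b n f) : ∃ f', Iso a b n f' ∧ (∀ p, p < n → f' (f p) = p) ∧
    (∀ p, p < n → f (f' p) = p) := by
  obtain ⟨f', h1, h2, h3, h4⟩ := h
  exact ⟨f', ⟨f, h2, h1, h4, h3⟩, h4, h3⟩

theorem Iso.comp (ha : ∀ p, a p < n) (hb : ∀ p, b p < n) {f g : Nat → Nat} (hf : Iso a b n f)
    (hg : Iso a b n g) : Iso a b n (fun z => f (g z)) := by
  obtain ⟨f', h1, h2, h3, h4⟩ := hf
  obtain ⟨g', h5, h6, h7, h8⟩ := hg
  refine ⟨fun z => g' (f' z), Gen.comp h1 h5, Gen.comp h6 h2, ?_, ?_⟩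
  · intro p hp
    show f (g (g' (f' p))) = p
    rw [h7 _ (gen_lt ha hb h2 hp), h3 _ hp]
  · intro p hp
    show g' (f' (f (g p))) = p
    rw [h4 _ (gen_lt ha hb h5 hp), h8 _ hp]

theorem iso_a (h6 : ∀ p, p < n → a (a (a (a (a (a p))))) = p) : Iso a b n a := by
  have g := gen_a a b
  refine ⟨fun z => a (a (a (a (a z)))), g,
    Gen.comp g (Gen.comp g (Gen.comp g (Gen.comp g g))), h6, h6⟩

theorem iso_b (h2 : ∀ p, p < n → b (b p) = p) : Iso a b n b :=
  ⟨b, gen_b a b, gen_b a b, h2, h2⟩

theorem Iso.gen {f : Nat → Nat} (h : Iso a b n f) : Gen a b f := by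
  obtain ⟨_, h1, _⟩ := h
  exact h1

theorem iso_W (ha : ∀ p, a p < n) (hb : ∀ p, b p < n) (h6 : ∀ p, p < n → a (a (a (a (a (a p))))) = p)
    (h2 : ∀ p, p < n → b (b p) = p) (len : Nat) : ∀ w, Iso a b n (W a b len w) := by
  induction len with
  | zero =>
    intro w
    rw [W_zero]
    exact iso_id
  | succ len ih =>
    intro w
    cases h : Nat.beq (Nat.land w 1) 0
    · have h1 : W a b (len + 1) w = fun z => W a b len (Nat.shiftRight w 1) (b z) := by
        funext z
        rw [W_succ, h]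
        rfl
      rw [h1]
      exact Iso.comp ha hb (ih _) (iso_b h2)
    · have h1 : W a b (len + 1) w = fun z => W a b len (Nat.shiftRight w 1) (a z) := by
        funext z
        rw [W_succ, h]
        rfl
      rw [h1]
      exact Iso.comp ha hb (ih _) (iso_a h6)

end Gen

/-- run a program from the point `z`, with operations `0`: the map `a`, `1`: the map `i`,
`2`: the map `g1`, `3`: the map `g2`, the lowest digit in base `4` first -/
noncomputable def run (a i g1 g2 : Nat → Nat) (fuel : Nat) : Nat → Nat → Nat :=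
  Nat.rec (fun _ z => z)
    (fun _ ih prog z => ih (Nat.shiftRight prog 2)
      (cond (Nat.beq (Nat.land prog 3) 0) (a z)
        (cond (Nat.beq (Nat.land prog 3) 1) (i z)
          (cond (Nat.beq (Nat.land prog 3) 2) (g1 z) (g2 z))))) fuel

theorem run_stable {a i g1 g2 : Nat → Nat} {S : Nat → Prop} (ha : ∀ z, S z → S (a z))
    (hi : ∀ z, S z → S (i z)) (h1 : ∀ z, S z → S (g1 z)) (h2 : ∀ z, S z → S (g2 z))
    (fuel : Nat) : ∀ prog z, S z → S (run a i g1 g2 fuel prog z) := by
  induction fuel with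
  | zero => intro _ _ h; exact h
  | succ fuel ih =>
    intro prog z h
    show S (run a i g1 g2 fuel (Nat.shiftRight prog 2)
      (cond (Nat.beq (Nat.land prog 3) 0) (a z)
        (cond (Nat.beq (Nat.land prog 3) 1) (i z)
          (cond (Nat.beq (Nat.land prog 3) 2) (g1 z) (g2 z)))))
    apply ih
    cases Nat.beq (Nat.land prog 3) 0
    · cases Nat.beq (Nat.land prog 3) 1
      · cases Nat.beq (Nat.land prog 3) 2
        · exact h2 _ h
        · exact h1 _ h
      · exact hi _ h
    · exact ha _ h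

section Main

variable {n : Nat}

/-- the equivalence relation on `Fin n` with a given labelling of the natural numbers -/
def labF (n : Nat) (t : Nat → Nat) : Setoid (Fin n) :=
  Setoid.ker (fun x : Fin n => t x.val)

/-- the map on `Fin n` coded by a map with values below `n` -/
def toF {f : Nat → Nat} (hf : ∀ p, f p < n) : Fin n → Fin n := fun x => ⟨f x.val, hf _⟩

/-- the setoid `r` is compatible with the two generators -/
def Cong (a b : Nat → Nat) (r : Setoid (Fin n)) : Prop :=
  (∀ p q, PP r p q → PP r (a p) (a q)) ∧ (∀ p q, PP r p q → PP r (b p) (b q))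

theorem Cong.gen {a b f : Nat → Nat} {r : Setoid (Fin n)} (hr : Cong a b r) (hf : Gen a b f)
    {p q : Nat} (h : PP r p q) : PP r (f p) (f q) :=
  hf (PP r) hr.1 hr.2 p q h

/-- every congruence relating `0` to `y` relates `0` to `z` -/
def Clo (n : Nat) (a b : Nat → Nat) (y z : Nat) : Prop :=
  ∀ r : Setoid (Fin n), Cong a b r → PP r 0 y → PP r 0 z

/-- The facts established by the checker, in abstract form. -/
structure Hyp (n m N t : Nat) (a b i : Nat → Nat) (θ : Nat → Nat → Nat) (T : Nat → Nat)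
    (rel : Nat → Nat → Bool) : Prop where
  npos : 0 < n
  mpos : 0 < m
  ha : ∀ p, a p < n
  hb : ∀ p, b p < n
  a6 : ∀ p, p < n → a (a (a (a (a (a p))))) = p
  b2 : ∀ p, p < n → b (b p) = p
  iiso : Iso a b n i
  a0 : a 0 = 0
  i0 : i 0 = 0
  compatA : ∀ k, k < m → ∀ p q, p < n → q < n → θ k p = θ k q → θ k (a p) = θ k (a q)
  compatB : ∀ k, k < m → ∀ p q, p < n → q < n → θ k p = θ k q → θ k (b p) = θ k (b q)
  id0 : ∀ p q, p < n → q < n → θ 0 p = θ 0 q → p = q
  orbit : ∀ y, y < n → y ≤ N ∨ a y < y ∨ i y < y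
  repG : ∀ y, 0 < y → y ≤ N → y < n → ∃ G, Iso a b n G ∧ G 0 = y
  repK : ∀ y, 0 < y → y ≤ N → y < n → ∃ k, k < m ∧ θ k y = θ k 0 ∧ Clo n a b y (T k)
  block : ∀ k, k < m → k ≠ t → ∀ z, z < n → θ k z = θ k 0 → Clo n a b (T k) z
  Tt : T t = b 0
  join : ∀ i j, i < m → j < m → j < i → rel i j = false → rel j i = false →
    ∃ k s1 s2, k < m ∧ rel i k = true ∧ rel j k = true ∧ s1 < n ∧ s2 < n ∧
      θ i s1 = θ i 0 ∧ θ j s2 = θ j 0 ∧
      ∀ r : Setoid (Fin n), Cong a b r → PP r 0 s1 → PP r 0 s2 → PP r 0 (T k)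
  order : ∀ i j, i < m → j < m → (rel i j = true ↔ labF n (θ i) ≤ labF n (θ j))

variable {m N t : Nat} {a b i : Nat → Nat} {θ : Nat → Nat → Nat} {T : Nat → Nat}
  {rel : Nat → Nat → Bool}

theorem Hyp.iso_i (h : Hyp n m N t a b i θ T rel) : ∃ i', Iso a b n i' ∧
    (∀ p, p < n → i' (i p) = p) ∧ i' 0 = 0 := by
  obtain ⟨i', h1, h2, h3⟩ := h.iiso.symm
  refine ⟨i', h1, h2, ?_⟩
  have := h2 0 h.npos
  rwa [h.i0] at this

theorem Hyp.iso_a (h : Hyp n m N t a b i θ T rel) : ∃ i', Iso a b n i' ∧
    (∀ p, p < n → i' (a p) = p) ∧ i' 0 = 0 := by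
  obtain ⟨i', h1, h2, h3⟩ := (Walk.iso_a (b := b) h.a6).symm
  refine ⟨i', h1, h2, ?_⟩
  have := h2 0 h.npos
  rwa [h.a0] at this

/-- a map of the monoid preserves the labellings of the list -/
theorem Hyp.gen_lab (h : Hyp n m N t a b i θ T rel) {f : Nat → Nat} (hf : Gen a b f) {k : Nat}
    (hk : k < m) {p q : Nat} (hp : p < n) (hq : q < n) (hpq : θ k p = θ k q) :
    θ k (f p) = θ k (f q) := by
  have := hf (fun p q => p < n ∧ q < n ∧ θ k p = θ k q)
    (fun p q hh => ⟨h.ha _, h.ha _, h.compatA k hk p q hh.1 hh.2.1 hh.2.2⟩)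
    (fun p q hh => ⟨h.hb _, h.hb _, h.compatB k hk p q hh.1 hh.2.1 hh.2.2⟩) p q ⟨hp, hq, hpq⟩
  exact this.2.2

/-- every point is moved to `0` by an invertible map -/
theorem Hyp.transit (h : Hyp n m N t a b i θ T rel) :
    ∀ x, x < n → ∃ f, Iso a b n f ∧ f x = 0 := by
  intro x
  induction x using Nat.strong_induction_on with
  | _ x ih =>
    intro hx
    by_cases hx0 : x = 0
    · subst hx0
      exact ⟨_, iso_id, rfl⟩
    rcases h.orbit x hx with h1 | h1 | h1
    · obtain ⟨G, hG, hG0⟩ := h.repG x (by omega) h1 hx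
      obtain ⟨G', h2, h3, _⟩ := hG.symm
      refine ⟨G', h2, ?_⟩
      have := h3 0 h.npos
      rwa [hG0] at this
    · obtain ⟨f, hf, hf0⟩ := ih _ h1 (h.ha _)
      exact ⟨_, Iso.comp h.ha h.hb hf (Walk.iso_a h.a6), hf0⟩
    · obtain ⟨f, hf, hf0⟩ := ih _ h1 (gen_lt h.ha h.hb h.iiso.gen hx)
      exact ⟨_, Iso.comp h.ha h.hb hf h.iiso, hf0⟩

/-- passing from the class of `0` to the whole labelling -/
theorem Hyp.le_of_block (h : Hyp n m N t a b i θ T rel) {k : Nat} (hk : k < m) {r : Setoid (Fin n)}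
    (hr : Cong a b r) (hb : ∀ z, z < n → θ k z = θ k 0 → PP r 0 z) : labF n (θ k) ≤ r := by
  intro x y hxy
  have hxy' : θ k x.val = θ k y.val := hxy
  obtain ⟨f, hf, hf0⟩ := h.transit x.val x.isLt
  obtain ⟨f', h1, h2, _⟩ := hf.symm
  have h3 := h.gen_lab hf.gen hk x.isLt y.isLt hxy'
  rw [hf0] at h3
  have h4 := hb _ (gen_lt h.ha h.hb hf.gen y.isLt) h3.symm
  have h5 := hr.gen h1.gen h4
  rw [h2 _ y.isLt, ← hf0, h2 _ x.isLt] at h5
  obtain ⟨_, _, h6⟩ := h5
  exact h6

/-- the class of `0` is stable under a map of the monoid which moves `0` into it -/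
theorem stable_of_gen {a b f : Nat → Nat} {r : Setoid (Fin n)} (hr : Cong a b r) (hf : Gen a b f)
    (h0 : PP r 0 (f 0)) {z : Nat} (hz : PP r 0 z) : PP r 0 (f z) :=
  h0.trans (hr.gen hf hz)

/-- the labelling of index `t` is below every congruence relating `0` to `b 0`. -/
theorem Hyp.top_all (h : Hyp n m N t a b i θ T rel) : ∀ z, z < n → Clo n a b (b 0) z := by
  intro z hz r hr h0
  have ha0 : PP r 0 (a 0) := by
    rw [h.a0]
    exact PP.refl h.npos
  -- the class of `0` is stable under the monoid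
  have hst : ∀ {f : Nat → Nat}, Gen a b f → ∀ z, PP r 0 z → PP r 0 (f z) := by
    intro f hf z hz
    exact hf (fun p q => PP r 0 p ∧ PP r 0 q)
      (fun p q hh => ⟨stable_of_gen hr (gen_a a b) ha0 hh.1, stable_of_gen hr (gen_a a b) ha0 hh.2⟩)
      (fun p q hh => ⟨stable_of_gen hr (gen_b a b) h0 hh.1, stable_of_gen hr (gen_b a b) h0 hh.2⟩)
      z z ⟨hz, hz⟩ |>.1
  induction z using Nat.strong_induction_on with
  | _ z ih =>
    by_cases hz0 : z = 0
    · subst hz0
      exact PP.refl h.npos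
    rcases h.orbit z hz with h1 | h1 | h1
    · obtain ⟨G, hG, hG0⟩ := h.repG z (by omega) h1 hz
      rw [← hG0]
      exact hst hG.gen _ (PP.refl h.npos)
    · obtain ⟨a', h2, h3, _⟩ := h.iso_a
      have h4 := ih _ h1 (h.ha _)
      have h5 := hst h2.gen _ h4
      rwa [h3 _ hz] at h5
    · obtain ⟨a', h2, h3, _⟩ := h.iso_i
      have h4 := ih _ h1 (gen_lt h.ha h.hb h.iiso.gen hz)
      have h5 := hst h2.gen _ h4
      rwa [h3 _ hz] at h5

/-- the key fact on labellings: a congruence relating `0` to `T k` contains the labelling `k` -/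
theorem Hyp.block_all (h : Hyp n m N t a b i θ T rel) {k : Nat} (hk : k < m) {r : Setoid (Fin n)}
    (hr : Cong a b r) (h0 : PP r 0 (T k)) : labF n (θ k) ≤ r := by
  refine h.le_of_block hk hr ?_
  intro z hz hzk
  by_cases hkt : k = t
  · subst hkt
    rw [h.Tt] at h0
    exact h.top_all z hz r hr h0
  · exact h.block k hk hkt z hz hzk r hr h0

/-- pairs `(0, y)` -/
theorem Hyp.fact_zero (h : Hyp n m N t a b i θ T rel) {r : Setoid (Fin n)} (hr : Cong a b r) :
    ∀ y, y < n → PP r 0 y → ∃ j, j < m ∧ labF n (θ j) ≤ r ∧ θ j y = θ j 0 := by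
  intro y
  induction y using Nat.strong_induction_on with
  | _ y ih =>
    intro hy hpp
    by_cases hy0 : y = 0
    · subst hy0
      refine ⟨0, h.mpos, ?_, rfl⟩
      intro x z hxz
      have : x = z := Fin.ext (h.id0 _ _ x.isLt z.isLt hxz)
      rw [this]
    rcases h.orbit y hy with h1 | h1 | h1
    · obtain ⟨k, hk, h2, h3⟩ := h.repK y (by omega) h1 hy
      exact ⟨k, hk, h.block_all hk hr (h3 r hr hpp), h2⟩
    · obtain ⟨a', h2, h3, h4⟩ := h.iso_a
      have h5 := hr.1 _ _ hpp
      rw [h.a0] at h5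
      obtain ⟨j, hj, h6, h7⟩ := ih _ h1 (h.ha _) h5
      refine ⟨j, hj, h6, ?_⟩
      have h8 := h.gen_lab h2.gen hj (h.ha y) h.npos h7
      rwa [h3 _ hy, h4] at h8
    · obtain ⟨i', h2, h3, h4⟩ := h.iso_i
      have hi : i y < n := gen_lt h.ha h.hb h.iiso.gen hy
      have h5 := hr.gen h.iiso.gen hpp
      rw [h.i0] at h5
      obtain ⟨j, hj, h6, h7⟩ := ih _ h1 hi h5
      refine ⟨j, hj, h6, ?_⟩
      have h8 := h.gen_lab h2.gen hj hi h.npos h7
      rwa [h3 _ hy, h4] at h8

/-- all pairs -/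
theorem Hyp.fact_all (h : Hyp n m N t a b i θ T rel) {r : Setoid (Fin n)} (hr : Cong a b r)
    {x y : Nat} (hx : x < n) (hy : y < n) (hpp : PP r x y) :
    ∃ j, j < m ∧ labF n (θ j) ≤ r ∧ θ j x = θ j y := by
  obtain ⟨f, hf, hf0⟩ := h.transit x hx
  obtain ⟨f', h1, h2, _⟩ := hf.symm
  have h3 := hr.gen hf.gen hpp
  rw [hf0] at h3
  have hfy : f y < n := gen_lt h.ha h.hb hf.gen hy
  obtain ⟨j, hj, h4, h5⟩ := h.fact_zero hr _ hfy h3
  refine ⟨j, hj, h4, ?_⟩
  have h6 := h.gen_lab h1.gen hj hfy h.npos h5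
  rw [h2 _ hy, ← hf0, h2 _ hx] at h6
  exact h6.symm

/-- joins of listed labellings below a congruence -/
theorem Hyp.join_below (h : Hyp n m N t a b i θ T rel) {r : Setoid (Fin n)} (hr : Cong a b r)
    {x y : Nat} (hx : x < m) (hy : y < m) (h1 : labF n (θ x) ≤ r) (h2 : labF n (θ y) ≤ r) :
    ∃ k, k < m ∧ labF n (θ k) ≤ r ∧ labF n (θ x) ≤ labF n (θ k) ∧
      labF n (θ y) ≤ labF n (θ k) := by
  have main : ∀ {x y : Nat}, x < m → y < x → labF n (θ x) ≤ r → labF n (θ y) ≤ r →
      ∃ k, k < m ∧ labF n (θ k) ≤ r ∧ labF n (θ x) ≤ labF n (θ k) ∧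
        labF n (θ y) ≤ labF n (θ k) := by
    intro x y hx hyx h1 h2
    have hy : y < m := by omega
    cases h3 : rel x y
    · cases h4 : rel y x
      · obtain ⟨k, s1, s2, hk, h5, h6, hs1, hs2, h7, h8, h9⟩ := h.join x y hx hy hyx h3 h4
        refine ⟨k, hk, ?_, (h.order x k hx hk).mp h5, (h.order y k hy hk).mp h6⟩
        refine h.block_all hk hr (h9 r hr ?_ ?_)
        · have := @h1 ⟨0, h.npos⟩ ⟨s1, hs1⟩ h7.symm
          exact ⟨h.npos, hs1, this⟩
        · have := @h2 ⟨0, h.npos⟩ ⟨s2, hs2⟩ h8.symm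
          exact ⟨h.npos, hs2, this⟩
      · exact ⟨x, hx, h1, le_rfl, (h.order y x hy hx).mp h4⟩
    · exact ⟨y, hy, h2, (h.order x y hx hy).mp h3, le_rfl⟩
  rcases lt_trichotomy x y with h3 | h3 | h3
  · obtain ⟨k, hk, h4, h5, h6⟩ := main hy h3 h2 h1
    exact ⟨k, hk, h4, h6, h5⟩
  · subst h3
    exact ⟨x, hx, h1, le_rfl, le_rfl⟩
  · exact main hx h3 h1 h2

/-- The soundness theorem: the facts give a realization. -/
theorem Hyp.realizes (h : Hyp n m N t a b i θ T rel) : Realizes m rel := by
  have hn := h.npos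
  refine ⟨n, hn, [toF h.ha, toF h.hb], fun k => labF n (θ k), ?_, ?_, ?_⟩
  · intro k hk g hg x y hxy
    have hxy' : θ k x.val = θ k y.val := hxy
    simp only [List.mem_cons, List.not_mem_nil, or_false] at hg
    rcases hg with rfl | rfl
    · exact h.compatA k hk _ _ x.isLt y.isLt hxy'
    · exact h.compatB k hk _ _ x.isLt y.isLt hxy'
  · intro r hr
    have hcr : Cong a b r := by
      constructor
      · rintro p q ⟨hp, hq, hpq⟩
        exact ⟨h.ha _, h.ha _, hr (toF h.ha) (by simp) _ _ hpq⟩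
      · rintro p q ⟨hp, hq, hpq⟩
        exact ⟨h.hb _, h.hb _, hr (toF h.hb) (by simp) _ _ hpq⟩
    have h0below : labF n (θ 0) ≤ r := by
      intro x y hxy
      have : x = y := Fin.ext (h.id0 _ _ x.isLt y.isLt hxy)
      rw [this]
    have key : ∀ K, K ≤ m → ∃ c, c < m ∧ labF n (θ c) ≤ r ∧ ∀ j, j < K →
        labF n (θ j) ≤ r → labF n (θ j) ≤ labF n (θ c) := by
      intro K
      induction K with
      | zero => intro _; exact ⟨0, h.mpos, h0below, fun j hj => by omega⟩
      | succ K ih =>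
        intro hK
        obtain ⟨c, hc, hle, hmax⟩ := ih (by omega)
        by_cases hK' : labF n (θ K) ≤ r
        · obtain ⟨k, hk, h1, h2, h3⟩ := h.join_below hcr hc (show K < m by omega) hle hK'
          refine ⟨k, hk, h1, fun j hj hjr => ?_⟩
          by_cases hjK : j = K
          · subst hjK; exact h3
          · exact (hmax j (by omega) hjr).trans h2
        · refine ⟨c, hc, hle, fun j hj hjr => ?_⟩
          by_cases hjK : j = K
          · subst hjK; exact absurd hjr hK'
          · exact hmax j (by omega) hjr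
    obtain ⟨c, hc, hle, hmax⟩ := key m le_rfl
    refine ⟨c, hc, le_antisymm ?_ hle⟩
    intro x y hxy
    obtain ⟨j, hj, h1, h2⟩ := h.fact_all hcr x.isLt y.isLt ⟨x.isLt, y.isLt, hxy⟩
    exact hmax j hj h1 h2
  · exact h.order

end Main

section Checks

variable {n : Nat}

/-- the labelling `t` is carried by the map `g` to the labelling `t`, through the map `pi` on the
labels -/
noncomputable def compatOK (n : Nat) (g t pi : Nat → Nat) : Bool :=
  allB (fun p => Nat.beq (t (g p)) (pi (t p))) n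

theorem compatOK_sound {g t pi : Nat → Nat} (h : compatOK n g t pi = true) {p q : Nat} (hp : p < n)
    (hq : q < n) (hpq : t p = t q) : t (g p) = t (g q) := by
  have h1 := Nat.eq_of_beq_eq_true (allB_spec h hp)
  have h2 := Nat.eq_of_beq_eq_true (allB_spec h hq)
  rw [h1, h2, hpq]

/-- the map `a` has order dividing `6` -/
noncomputable def a6OK (n : Nat) (a : Nat → Nat) : Bool :=
  allB (fun p => Nat.beq (a (a (a (a (a (a p)))))) p) n

/-- the map `b` has order dividing `2` -/
noncomputable def b2OK (n : Nat) (b : Nat → Nat) : Bool :=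
  allB (fun p => Nat.beq (b (b p)) p) n

theorem a6OK_sound {a : Nat → Nat} (h : a6OK n a = true) {p : Nat} (hp : p < n) :
    a (a (a (a (a (a p))))) = p := Nat.eq_of_beq_eq_true (allB_spec h hp)

theorem b2OK_sound {b : Nat → Nat} (h : b2OK n b = true) {p : Nat} (hp : p < n) :
    b (b p) = p := Nat.eq_of_beq_eq_true (allB_spec h hp)

/-- every point above `N` is moved down by one of two maps -/
noncomputable def orbitOK (n N : Nat) (a i : Nat → Nat) : Bool :=
  allB (fun y => or (Nat.ble y N) (or (Nat.blt (a y) y) (Nat.blt (i y) y))) n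

theorem orbitOK_sound {N : Nat} {a i : Nat → Nat} (h : orbitOK n N a i = true) {y : Nat}
    (hy : y < n) : y ≤ N ∨ a y < y ∨ i y < y := by
  have := allB_spec h hy
  simpa [Nat.blt_eq] using this

/-- the labelling `s` refines the labelling `t`, through the map `C` on the labels -/
noncomputable def leOK (n : Nat) (s t C : Nat → Nat) : Bool :=
  allB (fun p => Nat.beq (t p) (C (s p))) n

theorem leOK_sound {s t C : Nat → Nat} (h : leOK n s t C = true) : labF n s ≤ labF n t := by
  intro x y hxy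
  have hxy' : s x.val = s y.val := hxy
  have h1 := Nat.eq_of_beq_eq_true (allB_spec h x.isLt)
  have h2 := Nat.eq_of_beq_eq_true (allB_spec h y.isLt)
  show t x.val = t y.val
  rw [h1, h2, hxy']

/-- a certificate for a base point -/
structure RC where
  /-- the index of the labelling generated -/
  k : Nat
  /-- the length of a word moving `0` to the base point -/
  gL : Nat
  /-- the word, as a binary digit string -/
  gW : Nat
  /-- the length of the program -/
  fuel : Nat
  /-- the program, as a digit string in base `4` -/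
  prog : Nat

/-- check of a certificate -/
noncomputable def repOK (m : Nat) (a b i : Nat → Nat) (θ : Nat → Nat → Nat) (T : Nat → Nat)
    (y : Nat) (c : RC) : Bool :=
  and (Nat.blt c.k m) (and (Nat.beq (W a b c.gL c.gW 0) y)
    (and (Nat.beq (θ c.k y) (θ c.k 0))
      (Nat.beq (run a i (W a b c.gL c.gW) (W a b c.gL c.gW) c.fuel c.prog 0) (T c.k))))

/-- check of a list of certificates, for consecutive base points -/
noncomputable def repsGo (m : Nat) (a b i : Nat → Nat) (θ : Nat → Nat → Nat) (T : Nat → Nat) :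
    List RC → Nat → Bool :=
  fun l => List.rec (fun _ => true)
    (fun c _ ih y => and (repOK m a b i θ T y c) (ih (Nat.succ y))) l

theorem repsGo_spec {m : Nat} {a b i : Nat → Nat} {θ : Nat → Nat → Nat} {T : Nat → Nat} :
    ∀ (l : List RC) (y : Nat), repsGo m a b i θ T l y = true →
      ∀ x, y ≤ x → x < y + l.length → ∃ c, repOK m a b i θ T x c = true := by
  intro l
  induction l with
  | nil => intro y _ x h1 h2; simp at h2; omega
  | cons c t ih =>
    intro y h x h1 h2
    have h3 : repsGo m a b i θ T (c :: t) y = and (repOK m a b i θ T y c) (repsGo m a b i θ T t (Nat.succ y)) := rfl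
    rw [h3] at h
    simp only [Bool.and_eq_true] at h
    by_cases hxy : x = y
    · subst hxy
      exact ⟨c, h.1⟩
    · refine ih (Nat.succ y) h.2 x (by omega) ?_
      simp at h2
      omega

/-- a program run from `0` stays in the class of `0` -/
theorem run_clo {a b i g1 g2 : Nat → Nat} {r : Setoid (Fin n)} (hr : Cong a b r) (hn : 0 < n)
    (ha0 : a 0 = 0) (hi : Gen a b i) (hi0 : i 0 = 0) (h1 : Gen a b g1) (h2 : Gen a b g2)
    (h10 : PP r 0 (g1 0)) (h20 : PP r 0 (g2 0)) (fuel prog : Nat) :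
    PP r 0 (run a i g1 g2 fuel prog 0) := by
  apply run_stable (S := PP r 0)
  · intro z hz
    exact stable_of_gen hr (gen_a a b) (by rw [ha0]; exact PP.refl hn) hz
  · intro z hz
    exact stable_of_gen hr hi (by rw [hi0]; exact PP.refl hn) hz
  · intro z hz
    exact stable_of_gen hr h1 h10 hz
  · intro z hz
    exact stable_of_gen hr h2 h20 hz
  · exact PP.refl hn

/-- words are in the monoid -/
theorem gen_W (a b : Nat → Nat) (len : Nat) : ∀ w, Gen a b (W a b len w) := by
  induction len with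
  | zero =>
    intro w
    exact gen_id a b
  | succ len ih =>
    intro w
    cases h : Nat.beq (Nat.land w 1) 0
    · have h1 : W a b (len + 1) w = fun z => W a b len (Nat.shiftRight w 1) (b z) := by
        funext z
        rw [W_succ, h]
        rfl
      rw [h1]
      exact Gen.comp (ih _) (gen_b a b)
    · have h1 : W a b (len + 1) w = fun z => W a b len (Nat.shiftRight w 1) (a z) := by
        funext z
        rw [W_succ, h]
        rfl
      rw [h1]
      exact Gen.comp (ih _) (gen_a a b)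

/-- membership in the endpoints of a list of programs -/
noncomputable def memRun (a i g : Nat → Nat) (z : Nat) (l : List (Nat × Nat)) : Bool :=
  List.rec false (fun c _ ih => cond (Nat.beq z (run a i g g c.1 c.2 0)) true ih) l

theorem memRun_spec {a i g : Nat → Nat} {z : Nat} {l : List (Nat × Nat)}
    (h : memRun a i g z l = true) : ∃ c : Nat × Nat, z = run a i g g c.1 c.2 0 := by
  induction l with
  | nil => exact absurd h (by simp [memRun])
  | cons c t ih =>
    have h1 : memRun a i g z (c :: t) = cond (Nat.beq z (run a i g g c.1 c.2 0)) true (memRun a i g z t) := rfl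
    rw [h1] at h
    cases hb : Nat.beq z (run a i g g c.1 c.2 0)
    · rw [hb] at h
      exact ih h
    · exact ⟨c, Nat.eq_of_beq_eq_true hb⟩

/-- check of a block: the word moves `0` to the target, and the programs reach the class of `0` in
the labelling `t` -/
noncomputable def blockOK (n : Nat) (a b i t : Nat → Nat) (tg gL gW : Nat) (l : List (Nat × Nat)) :
    Bool :=
  and (Nat.beq (W a b gL gW 0) tg)
    (allB (fun z => cond (Nat.beq (t z) (t 0)) (memRun a i (W a b gL gW) z l) true) n)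

theorem blockOK_sound {a b i t : Nat → Nat} {tg gL gW : Nat} {l : List (Nat × Nat)} (hn : 0 < n)
    (h : blockOK n a b i t tg gL gW l = true) (ha0 : a 0 = 0) (hi : Gen a b i) (hi0 : i 0 = 0)
    {z : Nat} (hz : z < n) (hzt : t z = t 0) : Clo n a b tg z := by
  intro r hr h0
  simp only [blockOK, Bool.and_eq_true] at h
  have h1 := Nat.eq_of_beq_eq_true h.1
  have h2 := allB_spec h.2 hz
  have h3 : Nat.beq (t z) (t 0) = true := by rw [hzt]; exact Nat.beq_refl _
  rw [h3] at h2
  obtain ⟨c, hc⟩ := memRun_spec h2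
  rw [hc]
  have hG := gen_W a b gL gW
  exact run_clo hr hn ha0 hi hi0 hG hG (by rw [h1]; exact h0) (by rw [h1]; exact h0) _ _

/-- a certificate for joins -/
structure JC where
  /-- the first labelling -/
  x : Nat
  /-- the second labelling -/
  y : Nat
  /-- the index of the join -/
  k : Nat
  /-- length of a first word -/
  g1L : Nat
  /-- first word -/
  g1W : Nat
  /-- length of a second word -/
  g2L : Nat
  /-- second word -/
  g2W : Nat
  /-- length of the program -/
  fuel : Nat
  /-- the program -/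
  prog : Nat

/-- check of a join certificate -/
noncomputable def joinOK (m : Nat) (a b i : Nat → Nat) (θ : Nat → Nat → Nat) (T : Nat → Nat)
    (rel : Nat → Nat → Bool) (c : JC) : Bool :=
  and (Nat.blt c.k m) (and (rel c.x c.k) (and (rel c.y c.k)
    (and (Nat.beq (θ c.x (W a b c.g1L c.g1W 0)) (θ c.x 0))
      (and (Nat.beq (θ c.y (W a b c.g2L c.g2W 0)) (θ c.y 0))
        (Nat.beq (run a i (W a b c.g1L c.g1W) (W a b c.g2L c.g2W) c.fuel c.prog 0) (T c.k))))))

/-- search of a join certificate in a list -/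
noncomputable def joinIn (m : Nat) (a b i : Nat → Nat) (θ : Nat → Nat → Nat) (T : Nat → Nat)
    (rel : Nat → Nat → Bool) (x y : Nat) (l : List JC) : Bool :=
  List.rec false (fun c _ ih => cond (and (Nat.beq c.x x) (Nat.beq c.y y))
    (joinOK m a b i θ T rel c) ih) l

theorem joinIn_spec {m : Nat} {a b i : Nat → Nat} {θ : Nat → Nat → Nat} {T : Nat → Nat}
    {rel : Nat → Nat → Bool} {x y : Nat} {l : List JC} (h : joinIn m a b i θ T rel x y l = true) :
    ∃ c, c.x = x ∧ c.y = y ∧ joinOK m a b i θ T rel c = true := by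
  induction l with
  | nil => exact absurd h (by simp [joinIn])
  | cons c t ih =>
    have h1 : joinIn m a b i θ T rel x y (c :: t) = cond (and (Nat.beq c.x x) (Nat.beq c.y y))
      (joinOK m a b i θ T rel c) (joinIn m a b i θ T rel x y t) := rfl
    rw [h1] at h
    cases hb : and (Nat.beq c.x x) (Nat.beq c.y y)
    · rw [hb] at h
      exact ih h
    · rw [hb] at h
      simp only [Bool.and_eq_true] at hb
      exact ⟨c, Nat.eq_of_beq_eq_true hb.1, Nat.eq_of_beq_eq_true hb.2, h⟩

/-- the check of all pairs of incomparable labellings -/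
noncomputable def joinsOK (m : Nat) (a b i : Nat → Nat) (θ : Nat → Nat → Nat) (T : Nat → Nat)
    (rel : Nat → Nat → Bool) (l : List JC) : Bool :=
  allB (fun x => allB (fun y => cond (rel x y) true (cond (rel y x) true
    (joinIn m a b i θ T rel x y l))) x) m

/-- a witness that a labelling does not refine another one -/
noncomputable def witOK (n : Nat) (θ : Nat → Nat → Nat) (x y p : Nat) : Bool :=
  and (Nat.blt p n) (and (Nat.beq (θ x p) (θ x 0)) (not (Nat.beq (θ y p) (θ y 0))))

theorem witOK_sound {θ : Nat → Nat → Nat} {x y p : Nat} (hn : 0 < n) (h : witOK n θ x y p = true) :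
    ¬ labF n (θ x) ≤ labF n (θ y) := by
  simp only [witOK, Bool.and_eq_true, Nat.blt_eq, Bool.not_eq_true'] at h
  obtain ⟨hp, h1, h2⟩ := h
  intro hle
  have h3 : θ x p = θ x 0 := Nat.eq_of_beq_eq_true h1
  have h4 : θ y p = θ y 0 := @hle ⟨p, hp⟩ ⟨0, hn⟩ h3
  rw [h4] at h2
  simp at h2

theorem lk_lt (X : List Nat) (i : Nat) : lk X i < 65536 := by
  have : lk X i ≤ 65535 := Nat.and_le_right
  omega

theorem pair_inj {c d c' d' : Nat} (hd : d < 65536) (hd' : d' < 65536)
    (h : Nat.add (Nat.mul c 65536) d = Nat.add (Nat.mul c' 65536) d') : c = c' ∧ d = d' := by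
  have h1 : c * 65536 + d = c' * 65536 + d' := h
  constructor <;> omega

/-- the facts given by the certificate of a base point -/
theorem repOK_parts {m : Nat} {a b i : Nat → Nat} {θ : Nat → Nat → Nat} {T : Nat → Nat} {y : Nat}
    {c : RC} (h : repOK m a b i θ T y c = true) :
    c.k < m ∧ W a b c.gL c.gW 0 = y ∧ θ c.k y = θ c.k 0 ∧
      run a i (W a b c.gL c.gW) (W a b c.gL c.gW) c.fuel c.prog 0 = T c.k := by
  simp only [repOK, Bool.and_eq_true, Nat.blt_eq] at h
  exact ⟨h.1, Nat.eq_of_beq_eq_true h.2.1, Nat.eq_of_beq_eq_true h.2.2.1,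
    Nat.eq_of_beq_eq_true h.2.2.2⟩

theorem repOK_clo {m : Nat} {a b i : Nat → Nat} {θ : Nat → Nat → Nat} {T : Nat → Nat} {y : Nat}
    {c : RC} (h : repOK m a b i θ T y c = true) (hn : 0 < n) (ha0 : a 0 = 0) (hi : Gen a b i)
    (hi0 : i 0 = 0) : Clo n a b y (T c.k) := by
  obtain ⟨_, h2, _, h4⟩ := repOK_parts h
  intro r hr h0
  rw [← h4]
  have hG := gen_W a b c.gL c.gW
  exact run_clo hr hn ha0 hi hi0 hG hG (by rw [h2]; exact h0) (by rw [h2]; exact h0) _ _

/-- the facts given by a join certificate -/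
theorem joinsOK_spec {m : Nat} {a b i : Nat → Nat} {θ : Nat → Nat → Nat} {T : Nat → Nat}
    {rel : Nat → Nat → Bool} {l : List JC} (hl : joinsOK m a b i θ T rel l = true) (hn : 0 < n)
    (ha : ∀ p, a p < n) (hb : ∀ p, b p < n) (ha0 : a 0 = 0) (hi : Gen a b i) (hi0 : i 0 = 0)
    {x y : Nat} (hx : x < m) (hyx : y < x) (h1 : rel x y = false) (h2 : rel y x = false) :
    ∃ k s1 s2, k < m ∧ rel x k = true ∧ rel y k = true ∧ s1 < n ∧ s2 < n ∧
      θ x s1 = θ x 0 ∧ θ y s2 = θ y 0 ∧
      ∀ r : Setoid (Fin n), Cong a b r → PP r 0 s1 → PP r 0 s2 → PP r 0 (T k) := by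
  have h3 := allB_spec (allB_spec hl hx) hyx
  rw [h1, h2] at h3
  obtain ⟨c, rfl, rfl, h4⟩ := joinIn_spec h3
  simp only [joinOK, Bool.and_eq_true, Nat.blt_eq] at h4
  obtain ⟨h5, h6, h7, h8, h9, h10⟩ := h4
  have hG1 := gen_W a b c.g1L c.g1W
  have hG2 := gen_W a b c.g2L c.g2W
  refine ⟨c.k, _, _, h5, h6, h7, gen_lt ha hb hG1 hn, gen_lt ha hb hG2 hn,
    Nat.eq_of_beq_eq_true h8, Nat.eq_of_beq_eq_true h9, ?_⟩
  intro r hr h11 h12
  rw [← Nat.eq_of_beq_eq_true h10]
  exact run_clo hr hn ha0 hi hi0 hG1 hG2 h11 h12 _ _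

end Checks

end Vale.Agent.Lib.P183.Walk
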